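import Crest.Agent.R34.Test

/-! Row 34: `blkStmt`. Epochs, the mixing lemma and the counting test. -/

set_option autoImplicit false
set_option linter.unusedSectionVars false
open Finset

namespace Crest.Agent.R34

namespace BlkAux

variable {F : Type} [Field F] [Fintype F] [DecidableEq F]

theorem Zof_trunc {M t : ℕ} (h : M ≤ t) (zr : ℕ → Finset (Pt F)) (p : ℕ → Ln F) :
    Zof M zr (trunc t p) = Zof M zr p := by
  unfold Zof
  refine biUnion_congr rfl (fun s hs => ?_)
  rw [trunc_apply (lt_of_lt_of_le (mem_range.1 hs) h)]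

/-- lines of `Λ` that survive the first `e` epochs -/
def Lam (Λ : Finset (Ln F)) (len N : ℕ) (zr : ℕ → Finset (Pt F)) (e : ℕ) (p : ℕ → Ln F) :
    Finset (Ln F) := Λ ∩ miss (Zof (min (e * len) N) zr p)

/-- abnormal points of epoch `e` -/
noncomputable def Rr (Λ : Finset (Ln F)) (c' : ℝ) (len N : ℕ) (zr : ℕ → Finset (Pt F)) (e : ℕ)
    (p : ℕ → Ln F) : Finset (Pt F) :=
  univ.filter (fun z => ((Lam Λ len N zr e p).card : ℝ) / Fintype.card F +
    c' * Λ.card / Fintype.card F < deg (Lam Λ len N zr e p) z)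

/-- shifts that put a base point on an abnormal point -/
noncomputable def Aa (Λ : Finset (Ln F)) (c' : ℝ) (len N : ℕ) (zr : ℕ → Finset (Pt F)) (t : ℕ)
    (p : ℕ → Ln F) : Finset (Ln F) :=
  univ.filter (fun w => ∃ x ∈ zr t, shift w x ∈ Rr Λ c' len N zr (t / len) p)

theorem Aa_trunc (Λ : Finset (Ln F)) (c' : ℝ) (len N : ℕ) (zr : ℕ → Finset (Pt F)) (t : ℕ)
    (p : ℕ → Ln F) : Aa Λ c' len N zr t (trunc t p) = Aa Λ c' len N zr t p := by
  have h : min (t / len * len) N ≤ t := (min_le_left _ _).trans (Nat.div_mul_le_self _ _)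
  have h1 : Lam Λ len N zr (t / len) (trunc t p) = Lam Λ len N zr (t / len) p := by
    unfold Lam; rw [Zof_trunc h]
  have h2 : Rr Λ c' len N zr (t / len) (trunc t p) = Rr Λ c' len N zr (t / len) p := by
    unfold Rr; rw [h1]
  unfold Aa; rw [h2]

theorem card_Rr (Λ : Finset (Ln F)) {c' : ℝ} (hc : 0 < c') (len N : ℕ) (zr : ℕ → Finset (Pt F))
    (e : ℕ) (p : ℕ → Ln F) {r : ℝ} (hr : 0 < r) (hr4 : r ^ 4 = Fintype.card F)
    (hΛ : (Fintype.card F : ℝ) ^ 3 ≤ 100 * (Λ.card : ℝ) ^ 2) :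
    ((Rr Λ c' len N zr e p).card : ℝ) ≤ 10 * r ^ 2 / c' ^ 2 * Fintype.card F := by
  have hq : (0 : ℝ) < Fintype.card F := card_pos_real
  have h1 := mixing_card (Lam Λ len N zr e p) (Rr Λ c' len N zr e p)
    (c' * Λ.card / Fintype.card F) (by positivity) (fun x hx => by
      simp only [Rr, mem_filter, mem_univ, true_and] at hx
      exact le_trans (by linarith) (le_abs_self _))
  have h2 : ((Lam Λ len N zr e p).card : ℝ) ≤ Λ.card := by
    exact_mod_cast card_le_card inter_subset_left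
  set n : ℝ := (Λ.card : ℝ) with hn
  set m : ℝ := ((Rr Λ c' len N zr e p).card : ℝ) with hm
  have hm0 : 0 ≤ m := by positivity
  have hn0 : 0 ≤ n := by positivity
  have h3 : r ^ 6 ≤ 10 * n := by
    refine (pow_le_pow_iff_left₀ (by positivity) (by positivity) two_ne_zero).1 ?_
    calc (r ^ 6) ^ 2 = (r ^ 4) ^ 3 := by ring
      _ ≤ 100 * n ^ 2 := by rw [hr4]; exact hΛ
      _ = _ := by ring
  have hn1 : 0 < n := by nlinarith [pow_pos hr 6]
  rw [← hr4] at h1 ⊢
  have h4 : m * (c' * n / r ^ 4) ^ 2 ≤ r ^ 4 * n :=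
    h1.trans (mul_le_mul_of_nonneg_left h2 (by positivity))
  have h5 : m * c' ^ 2 * n ≤ r ^ 12 := by
    have : m * (c' * n / r ^ 4) ^ 2 = (m * c' ^ 2 * n) * n / r ^ 8 := by
      field_simp
    rw [this, div_le_iff₀ (by positivity)] at h4
    have h6 : (m * c' ^ 2 * n) * n ≤ r ^ 12 * n := by
      calc _ ≤ _ := h4
        _ = _ := by ring
    exact le_of_mul_le_mul_right h6 hn1
  have h7 : m * c' ^ 2 * r ^ 6 ≤ 10 * r ^ 6 * r ^ 6 := by
    calc m * c' ^ 2 * r ^ 6 ≤ m * c' ^ 2 * (10 * n) :=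
          mul_le_mul_of_nonneg_left h3 (by positivity)
      _ = 10 * (m * c' ^ 2 * n) := by ring
      _ ≤ 10 * r ^ 12 := by linarith
      _ = _ := by ring
  have h8 : m * c' ^ 2 ≤ 10 * r ^ 6 := le_of_mul_le_mul_right h7 (by positivity)
  rw [div_mul_eq_mul_div, le_div_iff₀ (by positivity)]
  calc _ ≤ _ := h8
    _ = _ := by ring

/-- the parts are used by few steps -/
theorem sum_part_le {K C₁ N : ℕ} {zr : ℕ → Finset (Pt F)} (hK : ∀ s, (zr s).card ≤ K)
    (hC : ∀ i, ((range N).filter (fun s => ∃ x ∈ zr s, x.1 = i)).card ≤ C₁) (R : Finset (Pt F)) :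
    ∑ t ∈ range N, ∑ x ∈ zr t, (R.filter (fun y => y.1 = x.1)).card ≤ K * C₁ * R.card := by
  calc ∑ t ∈ range N, ∑ x ∈ zr t, (R.filter (fun y => y.1 = x.1)).card
      = ∑ y ∈ R, ∑ t ∈ range N, ∑ x ∈ zr t, if y.1 = x.1 then 1 else 0 := by
        simp only [card_filter]
        rw [sum_comm]
        refine sum_congr rfl (fun t _ => ?_)
        exact sum_comm
    _ ≤ ∑ _y ∈ R, K * C₁ := by
        refine sum_le_sum (fun y _ => ?_)
        calc ∑ t ∈ range N, ∑ x ∈ zr t, (if y.1 = x.1 then 1 else 0)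
            ≤ ∑ t ∈ range N, if ∃ x ∈ zr t, x.1 = y.1 then K else 0 := by
              refine sum_le_sum (fun t _ => ?_)
              split_ifs with h
              · rw [← card_filter]
                exact (card_filter_le _ _).trans (hK t)
              · push Not at h
                refine le_of_eq (sum_eq_zero (fun x hx => ?_))
                rw [if_neg (fun e => h x hx e.symm)]
          _ = K * ((range N).filter (fun s => ∃ x ∈ zr s, x.1 = y.1)).card := by
              rw [← sum_filter, sum_const, smul_eq_mul, mul_comm]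
          _ ≤ K * C₁ := Nat.mul_le_mul_left _ (hC _)
    _ = _ := by rw [sum_const, smul_eq_mul, mul_comm]

theorem budget (Λ : Finset (Ln F)) (c' : ℝ) {len T K C₁ N : ℕ} {zr : ℕ → Finset (Pt F)}
    (hK : ∀ s, (zr s).card ≤ K)
    (hC : ∀ i, ((range N).filter (fun s => ∃ x ∈ zr s, x.1 = i)).card ≤ C₁)
    (hT : N ≤ T * len) (p : ℕ → Ln F) :
    ∑ t ∈ range N, (Aa Λ c' len N zr t p).card ≤
      ∑ e ∈ range T, Fintype.card F * (K * C₁ * (Rr Λ c' len N zr e p).card) := by
  calc ∑ t ∈ range N, (Aa Λ c' len N zr t p).card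
      ≤ ∑ t ∈ range N, ∑ e ∈ range T, ∑ x ∈ zr t,
          Fintype.card F * ((Rr Λ c' len N zr e p).filter (fun y => y.1 = x.1)).card := by
        refine sum_le_sum (fun t ht => ?_)
        have ht' := mem_range.1 ht
        have he : t / len ∈ range T := by
          rw [mem_range]
          exact Nat.div_lt_of_lt_mul (by rw [mul_comm]; omega)
        refine le_trans ?_ (single_le_sum (f := fun e => ∑ x ∈ zr t,
          Fintype.card F * ((Rr Λ c' len N zr e p).filter (fun y => y.1 = x.1)).card)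
          (fun _ _ => Nat.zero_le _) he)
        have hsub : Aa Λ c' len N zr t p ⊆ (zr t).biUnion (fun x =>
            univ.filter (fun w : Ln F => shift w x ∈ Rr Λ c' len N zr (t / len) p)) := by
          intro w hw
          simp only [Aa, mem_filter, mem_univ, true_and, mem_biUnion] at hw ⊢
          exact hw
        refine (card_le_card hsub).trans (card_biUnion_le.trans (le_of_eq ?_))
        exact sum_congr rfl (fun x _ => card_shift_mem x _)
    _ ≤ _ := by
        rw [sum_comm]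
        refine sum_le_sum (fun e _ => ?_)
        simp only [← mul_sum]
        exact Nat.mul_le_mul_left _ (sum_part_le hK hC _)

/-- the points shifted in successful steps -/
noncomputable def Z1 (Λ : Finset (Ln F)) (c' : ℝ) (len N : ℕ) (zr : ℕ → Finset (Pt F))
    (p : ℕ → Ln F) : Finset (Pt F) :=
  ((range N).filter (fun t => p t ∈ Aa Λ c' len N zr t p)).biUnion
    (fun t => (zr t).image (shift (p t)))

theorem step (Λ : Finset (Ln F)) {c' : ℝ} (hc : 0 ≤ c') {len K N : ℕ} {zr : ℕ → Finset (Pt F)}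
    (hK : ∀ s, (zr s).card ≤ K) (hlen : 2 * (len * K) ≤ Fintype.card F) (p : ℕ → Ln F) (e : ℕ) :
    ((Lam Λ len N zr e p).card : ℝ) / 2 - c' * Λ.card / 2 -
        ∑ z ∈ Z1 Λ c' len N zr p, (deg Λ z : ℝ) ≤ (Lam Λ len N zr (e + 1) p).card := by
  have hq : (0 : ℝ) < Fintype.card F := card_pos_real
  set W : Finset (Pt F) := (Ico (e * len) (min ((e + 1) * len) N)).biUnion
    (fun t => (zr t).image (shift (p t))) with hW
  have hWc : W.card ≤ len * K := by
    refine card_biUnion_le.trans ?_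
    calc ∑ t ∈ Ico (e * len) (min ((e + 1) * len) N), ((zr t).image (shift (p t))).card
        ≤ ∑ _t ∈ Ico (e * len) (min ((e + 1) * len) N), K :=
          sum_le_sum (fun t _ => card_image_le.trans (hK t))
      _ ≤ len * K := by
          rw [sum_const, smul_eq_mul, Nat.card_Ico]
          refine Nat.mul_le_mul_right _ ?_
          have := min_le_left ((e + 1) * len) N
          rw [add_mul, one_mul] at this ⊢
          omega
  have hsub : Lam Λ len N zr e p ⊆ Lam Λ len N zr (e + 1) p ∪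
      W.biUnion (fun z => (Lam Λ len N zr e p).filter (fun l => On z l)) := by
    intro l hl
    by_cases h : ∃ z ∈ W, On z l
    · obtain ⟨z, hz, hzl⟩ := h
      exact mem_union_right _ (mem_biUnion.2 ⟨z, hz, mem_filter.2 ⟨hl, hzl⟩⟩)
    · refine mem_union_left _ ?_
      simp only [Lam, mem_inter, mem_miss] at hl ⊢
      refine ⟨hl.1, fun z hz => ?_⟩
      obtain ⟨s, hs, x, hx, rfl⟩ := mem_Zof.1 hz
      by_cases hse : s < e * len
      · exact hl.2 _ (mem_Zof.2 ⟨s, lt_min hse (hs.trans_le (min_le_right _ _)), x, hx, rfl⟩)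
      · intro hon
        exact h ⟨_, mem_biUnion.2 ⟨s, mem_Ico.2 ⟨not_lt.1 hse, hs⟩, mem_image_of_mem _ hx⟩, hon⟩
  have h1 : ((Lam Λ len N zr e p).card : ℝ) ≤ (Lam Λ len N zr (e + 1) p).card +
      ∑ z ∈ W, (deg (Lam Λ len N zr e p) z : ℝ) := by
    have := (card_le_card hsub).trans ((card_union_le _ _).trans
      (Nat.add_le_add_left card_biUnion_le _))
    exact_mod_cast this
  set β : ℝ := ((Lam Λ len N zr e p).card : ℝ) / Fintype.card F + c' * Λ.card / Fintype.card F
    with hβ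
  have hβ0 : 0 ≤ β := by positivity
  have h2 : ∀ z ∈ W, (deg (Lam Λ len N zr e p) z : ℝ) ≤
      β + if z ∈ Z1 Λ c' len N zr p then (deg Λ z : ℝ) else 0 := by
    intro z hz
    split_ifs with h
    · have : (deg (Lam Λ len N zr e p) z : ℝ) ≤ deg Λ z := by
        exact_mod_cast deg_mono inter_subset_left z
      linarith
    · rw [add_zero]
      by_contra hlt
      push Not at hlt
      obtain ⟨t, ht, hz'⟩ := mem_biUnion.1 hz
      obtain ⟨x, hx, rfl⟩ := mem_image.1 hz'
      rw [mem_Ico, lt_min_iff] at ht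
      have hte : t / len = e := Nat.div_eq_of_lt_le ht.1 ht.2.1
      refine h (mem_biUnion.2 ⟨t, mem_filter.2 ⟨mem_range.2 ht.2.2, ?_⟩, mem_image_of_mem _ hx⟩)
      simp only [Aa, mem_filter, mem_univ, true_and]
      refine ⟨x, hx, ?_⟩
      rw [hte]
      simp only [Rr, mem_filter, mem_univ, true_and]
      exact hlt
  have h3 : ∑ z ∈ W, (deg (Lam Λ len N zr e p) z : ℝ) ≤
      W.card * β + ∑ z ∈ Z1 Λ c' len N zr p, (deg Λ z : ℝ) := by
    refine (sum_le_sum h2).trans ?_
    rw [sum_add_distrib, sum_const, nsmul_eq_mul, sum_ite_mem]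
    refine add_le_add_right (sum_le_sum_of_subset_of_nonneg inter_subset_right
      (fun _ _ _ => by positivity)) _
  have h4 : (W.card : ℝ) * β ≤ Fintype.card F / 2 * β := by
    refine mul_le_mul_of_nonneg_right ?_ hβ0
    have : 2 * W.card ≤ Fintype.card F := by omega
    have : (2 : ℝ) * W.card ≤ Fintype.card F := by exact_mod_cast this
    linarith
  have h5 : (Fintype.card F : ℝ) / 2 * β =
      ((Lam Λ len N zr e p).card : ℝ) / 2 + c' * Λ.card / 2 := by
    rw [hβ]; field_simp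
  linarith

theorem det (Λ : Finset (Ln F)) {c' : ℝ} (hc : 0 ≤ c') {len K N : ℕ} {zr : ℕ → Finset (Pt F)}
    (hK : ∀ s, (zr s).card ≤ K) (hlen : 2 * (len * K) ≤ Fintype.card F) (p : ℕ → Ln F) (e : ℕ) :
    (1 / 2 : ℝ) ^ e * Λ.card - c' * Λ.card - 2 * ∑ z ∈ Z1 Λ c' len N zr p, (deg Λ z : ℝ) ≤
      (Lam Λ len N zr e p).card := by
  induction e with
  | zero =>
    have h0 : Lam Λ len N zr 0 p = Λ := by
      simp [Lam, Zof, miss]
    have h1 : 0 ≤ ∑ z ∈ Z1 Λ c' len N zr p, (deg Λ z : ℝ) := by positivity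
    have h2 : 0 ≤ c' * Λ.card := by positivity
    rw [h0]; simp only [pow_zero, one_mul]; linarith
  | succ e ih =>
    have := step Λ hc hK hlen p e (N := N)
    rw [pow_succ]
    linarith

/-- one test -/
theorem core {θ : ℝ} (hθ : 0 < θ) (Λ : Finset (Ln F)) {len T K C₁ N : ℕ}
    {zr : ℕ → Finset (Pt F)} (hK : ∀ s, (zr s).card ≤ K)
    (hC : ∀ i, ((range N).filter (fun s => ∃ x ∈ zr s, x.1 = i)).card ≤ C₁)
    (hT : N ≤ T * len) (hlen : 2 * (len * K) ≤ Fintype.card F) {r : ℝ} (hr : 1 < r)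
    (hr4 : r ^ 4 = Fintype.card F) (hΛ : (Fintype.card F : ℝ) ^ 3 ≤ 100 * (Λ.card : ℝ) ^ 2)
    (h : ℕ) :
    Testable θ N (Real.exp (r * (T * (K * C₁ * (10 * r ^ 2 / ((1 / 2 : ℝ) ^ T / 2) ^ 2))) / θ) /
        r ^ h)
      (fun p => ∃ Z₁ ⊆ Zof N zr p, (Z₁.card : ℝ) ≤ K * h ∧
        (1 / 2 : ℝ) ^ T / 4 * Λ.card ≤ ((Λ ∩ miss (Zof N zr p)).card : ℝ) +
          ∑ z ∈ Z₁, (deg Λ z : ℝ)) := by
  set c' : ℝ := (1 / 2 : ℝ) ^ T / 2 with hc'
  have hc : 0 < c' := by positivity
  have hq : (0 : ℝ) < Fintype.card F := card_pos_real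
  refine (testable_count hθ N (Aa Λ c' len N zr) r _ hr h (fun p => ?_)).mono le_rfl ?_
  · simp only [Aa_trunc]
    have h1 : ∑ t ∈ range N, ((Aa Λ c' len N zr t p).card : ℝ) ≤
        ∑ e ∈ range T, (Fintype.card F : ℝ) * (K * C₁ * (Rr Λ c' len N zr e p).card) := by
      exact_mod_cast budget Λ c' hK hC hT p
    refine h1.trans ?_
    calc ∑ e ∈ range T, (Fintype.card F : ℝ) * (K * C₁ * (Rr Λ c' len N zr e p).card)
        ≤ ∑ _e ∈ range T, (Fintype.card F : ℝ) *
            (K * C₁ * (10 * r ^ 2 / c' ^ 2 * Fintype.card F)) := by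
          refine sum_le_sum (fun e _ => ?_)
          have := card_Rr Λ hc len N zr e p (by linarith) hr4 hΛ
          gcongr
      _ = _ := by rw [sum_const, card_range, nsmul_eq_mul]; ring
  · intro p hp
    simp only [Aa_trunc] at hp
    refine ⟨Z1 Λ c' len N zr p, ?_, ?_, ?_⟩
    · exact biUnion_subset_biUnion_of_subset_left _ (filter_subset _ _)
    · have h1 : (Z1 Λ c' len N zr p).card ≤ K * h := by
        refine card_biUnion_le.trans ?_
        calc _ ≤ ∑ _t ∈ (range N).filter (fun t => p t ∈ Aa Λ c' len N zr t p), K :=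
              sum_le_sum (fun t _ => card_image_le.trans (hK t))
          _ ≤ K * h := by
              rw [sum_const, smul_eq_mul, mul_comm]
              exact Nat.mul_le_mul_left _ hp.le
      exact_mod_cast h1
    · have h1 := det Λ hc.le hK hlen p T (N := N)
      have h2 : Lam Λ len N zr T p = Λ ∩ miss (Zof N zr p) := by
        rw [Lam, min_eq_right hT]
      rw [h2] at h1
      have h3 : (0 : ℝ) ≤ ((Λ ∩ miss (Zof N zr p)).card : ℝ) := by positivity
      have h4 : (1 / 2 : ℝ) ^ T = 2 * c' := by rw [hc']; ring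
      rw [h4] at h1 ⊢
      linarith

/-- the total cost of the tests -/
theorem cost {q r M ε δ : ℝ} (hr : 1 < r) (hr4 : r ^ 4 = q) (hε : 0 < ε) (hδ : 0 < δ)
    (hM : 2 * M ≤ ε * r) (hq : 32 * Real.exp 2 / (ε ^ 2 * δ) ≤ q) :
    2 * (q + 1) * (Real.exp (M * r ^ 3) * Real.exp (-(ε * q)) * Real.exp 1 * Real.exp 1) ≤ δ := by
  have hr0 : 0 < r := by linarith
  have hq1 : 1 ≤ q := by rw [← hr4]; exact one_le_pow₀ hr.le
  have h1 : M * r ^ 3 ≤ ε * q / 2 := by
    rw [← hr4]
    nlinarith [mul_le_mul_of_nonneg_right hM (pow_pos hr0 3).le]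
  have h2 : Real.exp (M * r ^ 3) * Real.exp (-(ε * q)) ≤ Real.exp (-(ε * q / 2)) := by
    rw [← Real.exp_add]
    exact Real.exp_le_exp.2 (by linarith)
  have h3 : (ε * q / 2) ^ 2 / 2 ≤ Real.exp (ε * q / 2) := by
    have := Real.pow_div_factorial_le_exp (ε * q / 2) (by positivity) 2
    simpa using this
  have h4 : Real.exp (-(ε * q / 2)) ≤ 8 / (ε ^ 2 * q ^ 2) := by
    rw [Real.exp_neg, inv_le_comm₀ (Real.exp_pos _) (by positivity), inv_div]
    calc _ = (ε * q / 2) ^ 2 / 2 := by ring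
      _ ≤ _ := h3
  have h5 : Real.exp 1 * Real.exp 1 = Real.exp 2 := by rw [← Real.exp_add]; norm_num
  rw [div_le_iff₀ (by positivity)] at hq
  calc 2 * (q + 1) * (Real.exp (M * r ^ 3) * Real.exp (-(ε * q)) * Real.exp 1 * Real.exp 1)
      = 2 * (q + 1) * Real.exp 2 * (Real.exp (M * r ^ 3) * Real.exp (-(ε * q))) := by
        rw [← h5]; ring
    _ ≤ 2 * (q + q) * Real.exp 2 * (8 / (ε ^ 2 * q ^ 2)) := by
        gcongr
        exact h2.trans h4
    _ = 32 * Real.exp 2 / (ε ^ 2 * q) := by field_simp; ring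
    _ ≤ δ := by
        rw [div_le_iff₀ (by positivity)]
        calc _ ≤ _ := hq
          _ = _ := by ring

theorem sum_gen (hq : (3 : ℝ) ≤ Fintype.card F) :
    ∑ X : Finset (Pt F), (1 / (Fintype.card F : ℝ) ^ 3) ^ X.card ≤ Real.exp 1 := by
  refine (sum_pow_card_le _ (by positivity)).trans (Real.exp_le_exp.2 ?_)
  rw [card_Pt]
  push_cast
  set q : ℝ := (Fintype.card F : ℝ)
  rw [div_mul_eq_mul_div, one_mul, div_le_one (by positivity)]
  nlinarith [mul_le_mul_of_nonneg_right hq (by positivity : (0 : ℝ) ≤ q ^ 2)]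

theorem weight {q r ε : ℝ} (hq : 3 ≤ q) (hr4 : r ^ 4 = q) {a b : ℕ} (ha : ε * q ≤ a) :
    1 / r ^ (16 * (a + b)) ≤ Real.exp (-(ε * q)) * ((1 / q ^ 3) ^ a * (1 / q ^ 3) ^ b) := by
  have hq0 : 0 < q := by linarith
  have h1 : r ^ (16 * (a + b)) = (q ^ 4) ^ a * (q ^ 4) ^ b := by
    rw [← hr4, ← pow_add, ← pow_mul, ← pow_mul, ← mul_assoc, show 4 * 4 = 16 from rfl]
  have h2 : (1 / q) ^ a ≤ Real.exp (-(ε * q)) := by
    calc (1 / q) ^ a ≤ (Real.exp (-1)) ^ a := by
          refine pow_le_pow_left₀ (by positivity) ?_ _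
          rw [Real.exp_neg, ← one_div]
          exact one_div_le_one_div_of_le (Real.exp_pos _)
            (by linarith [Real.exp_one_lt_d9])
      _ = Real.exp (-(a : ℝ)) := by rw [← Real.exp_nat_mul]; simp
      _ ≤ _ := Real.exp_le_exp.2 (by linarith)
  have h3 : (1 / q) ^ b ≤ 1 := pow_le_one₀ (by positivity) (by
    rw [div_le_one hq0]; linarith)
  calc 1 / r ^ (16 * (a + b))
      = (1 / q) ^ a * (1 / q) ^ b * ((1 / q ^ 3) ^ a * (1 / q ^ 3) ^ b) := by
        rw [h1]
        simp only [div_pow, one_pow, ← pow_mul]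
        field_simp
        ring
    _ ≤ Real.exp (-(ε * q)) * 1 * ((1 / q ^ 3) ^ a * (1 / q ^ 3) ^ b) := by gcongr
    _ = _ := by ring

end BlkAux

open BlkAux in
theorem blkStmt : BlkStmt := by
  intro K C₁
  set T : ℕ := 8 * (K + 1) with hTdef
  refine ⟨(1 / 2 : ℝ) ^ T / 4, 16 * (K + 1), by positivity,
    by linarith [(Nat.cast_nonneg K : (0 : ℝ) ≤ K)], fun θ ε δ hθ hε hδ => ?_⟩
  set M : ℝ := T * (K * C₁ * (10 / ((1 / 2 : ℝ) ^ T / 2) ^ 2)) / θ with hM
  have hM0 : 0 ≤ M := by positivity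
  obtain ⟨q₀, hq₀⟩ := exists_nat_ge
    (4 * ((K : ℝ) + 1) + (2 * M / ε) ^ 4 + 32 * Real.exp 2 / (ε ^ 2 * δ))
  refine ⟨q₀, fun F _ _ _ hq N zr hN hK hC => ?_⟩
  classical
  have hq' : (q₀ : ℝ) ≤ Fintype.card F := by exact_mod_cast hq
  have hK0 : (0 : ℝ) ≤ K := Nat.cast_nonneg K
  have e1 : 0 ≤ (2 * M / ε) ^ 4 := by positivity
  have e2 : 0 ≤ 32 * Real.exp 2 / (ε ^ 2 * δ) := by positivity
  have hq1 : 4 * ((K : ℝ) + 1) ≤ Fintype.card F := by linarith
  have hq2 : (2 * M / ε) ^ 4 ≤ Fintype.card F := by linarith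
  have hq3 : 32 * Real.exp 2 / (ε ^ 2 * δ) ≤ Fintype.card F := by linarith
  have hq4 : (3 : ℝ) ≤ Fintype.card F := by linarith
  have hq5 : 4 * (K + 1) ≤ Fintype.card F := by exact_mod_cast hq1
  set r : ℝ := Real.sqrt (Real.sqrt (Fintype.card F)) with hrdef
  have hr0 : 0 ≤ r := Real.sqrt_nonneg _
  have hr4 : r ^ 4 = Fintype.card F := by
    rw [show r ^ 4 = (r ^ 2) ^ 2 by ring, hrdef, Real.sq_sqrt (Real.sqrt_nonneg _),
      Real.sq_sqrt (by linarith)]
  have hr : 1 < r := by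
    by_contra hlt
    have := pow_le_one₀ hr0 (not_lt.1 hlt) (n := 4)
    linarith
  have hMr : 2 * M ≤ ε * r := by
    rw [← hr4] at hq2
    have := (pow_le_pow_iff_left₀ (by positivity) hr0 (by norm_num)).1 hq2
    rw [div_le_iff₀ hε] at this
    linarith
  set len : ℕ := Fintype.card F / (2 * (K + 1)) with hlendef
  have hlen : 2 * (len * K) ≤ Fintype.card F := by
    have := Nat.div_mul_le_self (Fintype.card F) (2 * (K + 1))
    rw [← hlendef] at this
    nlinarith
  have hT : N ≤ T * len := by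
    have := Nat.lt_div_mul_add (a := Fintype.card F) (b := 2 * (K + 1)) (by omega)
    rw [← hlendef] at this
    rw [hTdef]
    nlinarith
  -- the family of tests
  let Λ : (Finset (Pt F) × Finset (Pt F)) × (ℕ × Bool) → Finset (Ln F) := fun i =>
    if i.2.2 then sec i.1.1 else miss (dec i.1.1 i.2.1 ∪ i.1.2)
  let I₀ : Finset ((Finset (Pt F) × Finset (Pt F)) × (ℕ × Bool)) :=
    univ ×ˢ (range (Fintype.card F + 1) ×ˢ univ)
  let I := I₀.filter (fun i => ε * Fintype.card F ≤ i.1.1.card ∧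
    (Fintype.card F : ℝ) ^ 3 ≤ 100 * ((Λ i).card : ℝ) ^ 2)
  refine (testable_forall I (fun i hi => core hθ (Λ i) hK hC hT hlen hr hr4
    (mem_filter.1 hi).2.2 (16 * (i.1.1.card + i.1.2.card)))).mono ?_ ?_
  · have hE : r * (T * (K * C₁ * (10 * r ^ 2 / ((1 / 2 : ℝ) ^ T / 2) ^ 2))) / θ = M * r ^ 3 := by
      rw [hM]; ring
    rw [hE]
    calc ∑ i ∈ I, Real.exp (M * r ^ 3) / r ^ (16 * (i.1.1.card + i.1.2.card))
        ≤ ∑ i ∈ I, Real.exp (M * r ^ 3) * Real.exp (-(ε * Fintype.card F)) *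
            ((1 / (Fintype.card F : ℝ) ^ 3) ^ i.1.1.card *
              (1 / (Fintype.card F : ℝ) ^ 3) ^ i.1.2.card) := by
          refine sum_le_sum (fun i hi => ?_)
          rw [div_eq_mul_one_div, mul_assoc]
          exact mul_le_mul_of_nonneg_left (weight hq4 hr4 (mem_filter.1 hi).2.1)
            (Real.exp_pos _).le
      _ ≤ ∑ i ∈ I₀, Real.exp (M * r ^ 3) * Real.exp (-(ε * Fintype.card F)) *
            ((1 / (Fintype.card F : ℝ) ^ 3) ^ i.1.1.card *
              (1 / (Fintype.card F : ℝ) ^ 3) ^ i.1.2.card) :=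
          sum_le_sum_of_subset_of_nonneg (filter_subset _ _) (fun _ _ _ => by positivity)
      _ = 2 * ((Fintype.card F : ℝ) + 1) * (Real.exp (M * r ^ 3) *
            Real.exp (-(ε * Fintype.card F)) *
            (∑ X : Finset (Pt F), (1 / (Fintype.card F : ℝ) ^ 3) ^ X.card) *
            (∑ X : Finset (Pt F), (1 / (Fintype.card F : ℝ) ^ 3) ^ X.card)) := by
          rw [sum_product]
          simp only [sum_const, card_product, card_range, card_univ, Fintype.card_bool,
            nsmul_eq_mul]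
          rw [← mul_sum, ← mul_sum, Fintype.sum_prod_type]
          simp only [← sum_mul_sum]
          push_cast
          ring
      _ ≤ 2 * ((Fintype.card F : ℝ) + 1) * (Real.exp (M * r ^ 3) *
            Real.exp (-(ε * Fintype.card F)) * Real.exp 1 * Real.exp 1) := by
          have := sum_gen (F := F) hq4
          gcongr
      _ ≤ δ := cost hr hr4 hε hδ hMr hq3
  · intro p hp X E J Λ' hΛ' hX hcard
    have hdec : dec X J = dec X (min J (Fintype.card F)) := by
      ext y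
      simp only [mem_dec, le_min_iff]
      exact ⟨fun h => ⟨h, cnt_le X y⟩, fun h => h.1⟩
    obtain ⟨b, hb⟩ : ∃ b : Bool, Λ ((X, E), (min J (Fintype.card F), b)) = Λ' := by
      rcases hΛ' with h | h
      · exact ⟨true, by simp [Λ, h]⟩
      · exact ⟨false, by simp only [Λ, h, hdec.symm]; simp⟩
    have hi : ((X, E), (min J (Fintype.card F), b)) ∈ I := by
      refine mem_filter.2 ⟨?_, hX, by rw [hb]; exact hcard⟩
      simp only [I₀, mem_product, mem_univ, mem_range, true_and, and_true]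
      exact Nat.lt_succ_of_le (min_le_right _ _)
    obtain ⟨Z₁, h1, h2, h3⟩ := hp _ hi
    rw [hb] at h3
    refine ⟨Z₁, h1, h2.trans ?_, h3⟩
    push_cast
    have : (0 : ℝ) ≤ (X.card : ℝ) + E.card := by positivity
    nlinarith

end Crest.Agent.R34
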