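import Crest.Agent.R34.Defs

/-! Basic incidence facts and the mixing lemma for the truncated plane. -/

set_option autoImplicit false
set_option linter.unusedSectionVars false
open Finset

namespace Crest.Agent.R34

section
variable {F : Type} [Field F]

theorem u_add (i : Option F) (w w' : Ln F) : u i (w + w') = u i w + u i w' := by
  cases i <;> simp [u]; ring

theorem u_sub (i : Option F) (w w' : Ln F) : u i (w - w') = u i w - u i w' := by
  cases i <;> simp [u]; ring

theorem u_zero (i : Option F) : u i (0 : Ln F) = 0 := by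
  cases i <;> simp [u]

theorem on_shift (w : Ln F) (x : Pt F) (l : Ln F) : On (shift w x) (l + w) ↔ On x l := by
  simp [On, shift, u_add]

theorem on_shift' (w : Ln F) (x : Pt F) (l : Ln F) : On (shift w x) l ↔ On x (l - w) := by
  simp only [On, shift, u_sub]
  constructor <;> intro h <;> linear_combination h

@[simp] theorem shift_fst (w : Ln F) (x : Pt F) : (shift w x).1 = x.1 := rfl

theorem shift_injective (w : Ln F) : Function.Injective (shift w) := by
  rintro ⟨i, v⟩ ⟨j, v'⟩ h
  simp only [shift, Prod.mk.injEq] at h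
  obtain ⟨rfl, h⟩ := h
  simpa using h

theorem on_mk (i : Option F) (l : Ln F) : On (i, u i l) l := rfl

theorem eq_of_on_of_fst {x y : Pt F} {l : Ln F} (hx : On x l) (hy : On y l) (h : x.1 = y.1) :
    x = y := by
  refine Prod.ext h ?_
  unfold On at hx hy
  rw [← hx, ← hy, h]

/-- two different parts give independent coordinates -/
theorem eq_of_u_eq {i j : Option F} (h : i ≠ j) {l l' : Ln F} (hi : u i l = u i l')
    (hj : u j l = u j l') : l = l' := by
  obtain ⟨a, b⟩ := l
  obtain ⟨a', b'⟩ := l'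
  rcases i with _ | c <;> rcases j with _ | d <;> simp only [u] at hi hj
  · exact absurd rfl h
  · subst hi; simpa using hj
  · subst hj; simpa using hi
  · have hcd : c - d ≠ 0 := sub_ne_zero.2 (fun e => h (by rw [e]))
    have ha : a = a' := by
      have : (c - d) * (a - a') = 0 := by linear_combination hi - hj
      exact sub_eq_zero.1 ((mul_eq_zero.1 this).resolve_left hcd)
    subst ha
    simpa using hi

/-- two different points lie on at most one line -/
theorem line_unique {x y : Pt F} (h : x ≠ y) {l l' : Ln F} (hx : On x l) (hy : On y l)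
    (hx' : On x l') (hy' : On y l') : l = l' := by
  have hne : x.1 ≠ y.1 := fun e => h (eq_of_on_of_fst hx hy e)
  exact eq_of_u_eq hne (hx.trans hx'.symm) (hy.trans hy'.symm)

/-- two different lines share at most one point -/
theorem point_unique {l l' : Ln F} (h : l ≠ l') {x y : Pt F} (hx : On x l) (hx' : On x l')
    (hy : On y l) (hy' : On y l') : x = y := by
  by_contra hne
  exact h (line_unique hne hx hy hx' hy')

theorem exists_line {x y : Pt F} (h : x.1 ≠ y.1) : ∃ l, On x l ∧ On y l := by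
  obtain ⟨i, v⟩ := x
  obtain ⟨j, v'⟩ := y
  rcases i with _ | c <;> rcases j with _ | d
  · exact absurd rfl h
  · exact ⟨(v, v' - d * v), rfl, by simp [On, u]⟩
  · exact ⟨(v', v - c * v'), by simp [On, u], rfl⟩
  · have hcd : c - d ≠ 0 := sub_ne_zero.2 (fun e => h (by simp [e]))
    refine ⟨((v - v') / (c - d), v - c * ((v - v') / (c - d))), by simp [On, u], ?_⟩
    simp only [On, u]
    field_simp
    ring

theorem exists_meet (l l' : Ln F) : ∃ x, On x l ∧ On x l' := by
  by_cases h : l.1 = l'.1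
  · exact ⟨(none, l.1), rfl, h.symm⟩
  · have h' : l.1 - l'.1 ≠ 0 := sub_ne_zero.2 h
    refine ⟨(some ((l'.2 - l.2) / (l.1 - l'.1)), u (some ((l'.2 - l.2) / (l.1 - l'.1))) l), rfl, ?_⟩
    simp only [On, u]
    field_simp
    ring

theorem trunc_update_of_le {s t : ℕ} (h : s ≤ t) (p : ℕ → Ln F) (w : Ln F) :
    trunc s (Function.update p t w) = trunc s p := by
  funext r
  unfold trunc
  split_ifs with hr
  · exact Function.update_of_ne (by omega) _ _
  · rfl

theorem trunc_apply {s t : ℕ} (h : s < t) (p : ℕ → Ln F) : trunc t p s = p s := if_pos h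

variable [Fintype F] [DecidableEq F]

theorem card_u_eq (i : Option F) (v : F) :
    (univ.filter (fun l : Ln F => u i l = v)).card = Fintype.card F := by
  rw [← card_univ]
  symm
  rcases i with _ | c
  · refine card_bij (fun t _ => ((v, t) : Ln F)) (by simp [u]) (by simp) ?_
    rintro ⟨a, b⟩ h
    simp only [u, mem_filter, mem_univ, true_and] at h
    exact ⟨b, mem_univ _, by simp [h]⟩
  · refine card_bij (fun t _ => ((t, v - c * t) : Ln F)) (by simp [u]) (by simp +contextual) ?_
    rintro ⟨a, b⟩ h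
    simp only [u, mem_filter, mem_univ, true_and] at h
    exact ⟨a, mem_univ _, by simp [← h]⟩

/-- every point is on `q` lines -/
theorem card_lines_on (x : Pt F) :
    (univ.filter (fun l : Ln F => On x l)).card = Fintype.card F := card_u_eq x.1 x.2

/-- every line has `q + 1` points -/
theorem card_points_on (l : Ln F) :
    (univ.filter (fun x : Pt F => On x l)).card = Fintype.card F + 1 := by
  rw [← Fintype.card_option, ← card_univ]
  symm
  refine card_bij (fun i _ => ((i, u i l) : Pt F)) (by simp [On]) (by simp +contextual) ?_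
  rintro ⟨i, v⟩ h
  simp only [On, mem_filter, mem_univ, true_and] at h
  exact ⟨i, mem_univ _, by simp [h]⟩

theorem card_Pt : Fintype.card (Pt F) = (Fintype.card F + 1) * Fintype.card F := by
  simp [Fintype.card_prod]

theorem card_Ln : Fintype.card (Ln F) = Fintype.card F ^ 2 := by
  simp [Fintype.card_prod, sq]

omit [Fintype F] in
theorem card_lines_two {x y : Pt F} (h : x ≠ y) (Λ : Finset (Ln F)) :
    (Λ.filter (fun l => On x l ∧ On y l)).card ≤ 1 := by
  rw [card_le_one]
  intro l hl l' hl'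
  simp only [mem_filter] at hl hl'
  exact line_unique h hl.2.1 hl.2.2 hl'.2.1 hl'.2.2

theorem deg_le (Λ : Finset (Ln F)) (x : Pt F) : deg Λ x ≤ Fintype.card F := by
  rw [← card_lines_on x]
  exact card_le_card (filter_subset_filter _ (subset_univ _))

omit [Fintype F] in
theorem deg_mono {Λ Λ' : Finset (Ln F)} (h : Λ ⊆ Λ') (x : Pt F) : deg Λ x ≤ deg Λ' x :=
  card_le_card (filter_subset_filter _ h)

omit [Fintype F] in
/-- double counting of incidences -/
theorem sum_deg_eq_sum_nOn (S : Finset (Pt F)) (Λ : Finset (Ln F)) :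
    ∑ x ∈ S, deg Λ x = ∑ l ∈ Λ, nOn S l := by
  simp only [deg, nOn, card_filter]
  exact sum_comm

theorem sum_nOn (S : Finset (Pt F)) : ∑ l, nOn S l = S.card * Fintype.card F := by
  rw [← sum_deg_eq_sum_nOn]
  simp [deg, card_lines_on]

theorem sum_deg (Λ : Finset (Ln F)) : ∑ x, deg Λ x = Λ.card * (Fintype.card F + 1) := by
  rw [sum_deg_eq_sum_nOn]
  simp [nOn, card_points_on]

theorem mem_miss {S : Finset (Pt F)} {l : Ln F} : l ∈ miss S ↔ ∀ x ∈ S, ¬ On x l := by
  simp [miss]

theorem mem_miss_iff_nOn {S : Finset (Pt F)} {l : Ln F} : l ∈ miss S ↔ nOn S l = 0 := by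
  simp [miss, nOn, card_eq_zero, filter_eq_empty_iff]

theorem mem_sec {S : Finset (Pt F)} {l : Ln F} : l ∈ sec S ↔ 2 ≤ nOn S l := by
  simp [sec]

theorem mem_dec {X : Finset (Pt F)} {J : ℕ} {y : Pt F} : y ∈ dec X J ↔ cnt X y ≤ J := by
  simp [dec]

theorem miss_anti {S S' : Finset (Pt F)} (h : S ⊆ S') : miss S' ⊆ miss S := by
  intro l hl
  rw [mem_miss] at hl ⊢
  exact fun x hx => hl x (h hx)

theorem deg_miss_of_mem {S : Finset (Pt F)} {x : Pt F} (h : x ∈ S) : deg (miss S) x = 0 := by
  simp only [deg, card_eq_zero, filter_eq_empty_iff]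
  exact fun l hl => mem_miss.1 hl x h

theorem cnt_le (X : Finset (Pt F)) (y : Pt F) : cnt X y ≤ Fintype.card F := by
  rw [← card_lines_on y]
  exact card_le_card (fun l hl => by simp only [mem_filter] at hl ⊢; exact ⟨hl.1, hl.2.1⟩)

theorem cnt_mono {X X' : Finset (Pt F)} (h : X ⊆ X') (y : Pt F) : cnt X y ≤ cnt X' y := by
  refine card_le_card (fun l hl => ?_)
  simp only [mem_filter] at hl ⊢
  obtain ⟨h1, h2, x, hx, h3⟩ := hl
  exact ⟨h1, h2, x, h hx, h3⟩

/-- for `y ∉ X`, the lines through `y` either meet `X` or miss it -/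
theorem cnt_add_deg_miss {X : Finset (Pt F)} {y : Pt F} (h : y ∉ X) :
    cnt X y + deg (miss X) y = Fintype.card F := by
  rw [← card_lines_on y, cnt, deg, ← card_union_of_disjoint]
  · congr 1
    ext l
    simp only [mem_union, mem_filter, mem_univ, true_and, mem_miss]
    constructor
    · rintro (h | h)
      · exact h.1
      · exact h.2
    · intro hl
      by_cases h' : ∀ x ∈ X, ¬ On x l
      · exact Or.inr ⟨h', hl⟩
      · push Not at h'
        obtain ⟨x, hx, hxl⟩ := h'
        exact Or.inl ⟨hl, x, hx, fun e => h (e ▸ hx), hxl⟩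
  · rw [disjoint_left]
    intro l h1 h2
    simp only [mem_filter, mem_univ, true_and, mem_miss] at h1 h2
    obtain ⟨_, x, hx, _, hxl⟩ := h1
    exact h2.1 x hx hxl

/-- adding points adds at most one line each -/
theorem cnt_le_add {X X' : Finset (Pt F)} (y : Pt F) : cnt X' y ≤ cnt X y + (X' \ X).card := by
  have h1 : univ.filter (fun l : Ln F => On y l ∧ ∃ x ∈ X', x ≠ y ∧ On x l) ⊆
      univ.filter (fun l : Ln F => On y l ∧ ∃ x ∈ X, x ≠ y ∧ On x l) ∪
        (X' \ X).biUnion (fun x => univ.filter (fun l : Ln F => x ≠ y ∧ On x l ∧ On y l)) := by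
    intro l hl
    simp only [mem_filter, mem_univ, true_and, mem_union, mem_biUnion, mem_sdiff] at hl ⊢
    obtain ⟨h2, x, hx, h3, h4⟩ := hl
    by_cases hX : x ∈ X
    · exact Or.inl ⟨h2, x, hX, h3, h4⟩
    · exact Or.inr ⟨x, ⟨hx, hX⟩, h3, h4, h2⟩
  refine (card_le_card h1).trans ((card_union_le _ _).trans (Nat.add_le_add_left ?_ _))
  refine card_biUnion_le.trans ?_
  rw [card_eq_sum_ones (X' \ X)]
  refine sum_le_sum (fun x _ => ?_)
  by_cases hxy : x = y
  · simp [hxy]
  · simpa [hxy] using card_lines_two hxy (univ : Finset (Ln F))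

theorem cnt_le_card (X : Finset (Pt F)) (y : Pt F) : cnt X y ≤ X.card := by
  have := cnt_le_add (X := ∅) (X' := X) y
  simpa [cnt] using this

theorem sum_nOn_sq (S : Finset (Pt F)) :
    ∑ l, nOn S l ^ 2 ≤ S.card * Fintype.card F + S.card * (S.card - 1) := by
  have h : ∀ l : Ln F, nOn S l ^ 2 = ∑ x ∈ S, ∑ y ∈ S, if On x l ∧ On y l then 1 else 0 := by
    intro l
    rw [sq, nOn, card_filter, sum_mul_sum]
    refine sum_congr rfl (fun x _ => sum_congr rfl (fun y _ => ?_))
    by_cases h1 : On x l <;> by_cases h2 : On y l <;> simp [h1, h2]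
  simp only [h]
  rw [sum_comm]
  calc ∑ x ∈ S, ∑ l : Ln F, ∑ y ∈ S, (if On x l ∧ On y l then 1 else 0)
      ≤ ∑ x ∈ S, (Fintype.card F + (S.card - 1)) := by
        refine sum_le_sum (fun x hx => ?_)
        rw [sum_comm, ← add_sum_erase S _ hx]
        refine Nat.add_le_add ?_ ?_
        · rw [← card_filter]
          simp only [and_self]
          exact (card_lines_on x).le
        · rw [← card_erase_of_mem hx, card_eq_sum_ones]
          refine sum_le_sum (fun y hy => ?_)
          rw [← card_filter]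
          exact card_lines_two (ne_of_mem_erase hy).symm _
    _ = _ := by rw [sum_const, smul_eq_mul, mul_add]

theorem sum_deg_sq (Λ : Finset (Ln F)) :
    ∑ x, deg Λ x ^ 2 ≤ Λ.card * (Fintype.card F + 1) + Λ.card * (Λ.card - 1) := by
  have h : ∀ x : Pt F, deg Λ x ^ 2 = ∑ l ∈ Λ, ∑ l' ∈ Λ, if On x l ∧ On x l' then 1 else 0 := by
    intro x
    rw [sq, deg, card_filter, sum_mul_sum]
    refine sum_congr rfl (fun l _ => sum_congr rfl (fun l' _ => ?_))
    by_cases h1 : On x l <;> by_cases h2 : On x l' <;> simp [h1, h2]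
  simp only [h]
  rw [sum_comm]
  calc ∑ l ∈ Λ, ∑ x : Pt F, ∑ l' ∈ Λ, (if On x l ∧ On x l' then 1 else 0)
      ≤ ∑ l ∈ Λ, ((Fintype.card F + 1) + (Λ.card - 1)) := by
        refine sum_le_sum (fun l hl => ?_)
        rw [sum_comm, ← add_sum_erase Λ _ hl]
        refine Nat.add_le_add ?_ ?_
        · rw [← card_filter]
          simp only [and_self]
          exact (card_points_on l).le
        · rw [← card_erase_of_mem hl, card_eq_sum_ones]
          refine sum_le_sum (fun l' hl' => ?_)
          rw [← card_filter, card_le_one]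
          intro x hx y hy
          simp only [mem_filter] at hx hy
          exact point_unique (ne_of_mem_erase hl').symm hx.2.1 hx.2.2 hy.2.1 hy.2.2
    _ = _ := by rw [sum_const, smul_eq_mul, mul_add]

theorem card_pos_real : (0 : ℝ) < Fintype.card F := by exact_mod_cast Fintype.card_pos

/-- the mixing lemma -/
theorem mixing (Λ : Finset (Ln F)) :
    ∑ x : Pt F, ((deg Λ x : ℝ) - Λ.card / Fintype.card F) ^ 2 ≤ Fintype.card F * Λ.card := by
  have hq : (0 : ℝ) < Fintype.card F := card_pos_real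
  set q : ℝ := (Fintype.card F : ℝ) with hqd
  set n : ℝ := (Λ.card : ℝ) with hn
  have h1 : ∑ x : Pt F, (deg Λ x : ℝ) = n * (q + 1) := by
    rw [hn, hqd]; exact_mod_cast sum_deg Λ
  have h2 : ∑ x : Pt F, (deg Λ x : ℝ) ^ 2 ≤ n * q + n ^ 2 := by
    have := sum_deg_sq Λ
    have h3 : Λ.card * (Fintype.card F + 1) + Λ.card * (Λ.card - 1) =
        Λ.card * Fintype.card F + Λ.card ^ 2 := by
      rcases Λ.card with _ | m
      · simp
      · simp; ring
    rw [h3] at this
    rw [hn, hqd]; exact_mod_cast this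
  have h4 : ∑ x : Pt F, ((deg Λ x : ℝ) - n / q) ^ 2 =
      ∑ x : Pt F, (deg Λ x : ℝ) ^ 2 - 2 * (n / q) * ∑ x : Pt F, (deg Λ x : ℝ) +
        (q + 1) * q * (n / q) ^ 2 := by
    rw [mul_sum, ← sum_sub_distrib]
    have : (q + 1) * q * (n / q) ^ 2 = ∑ _x : Pt F, (n / q) ^ 2 := by
      rw [sum_const, card_univ, card_Pt, nsmul_eq_mul]; push_cast; rfl
    rw [this, ← sum_add_distrib]
    exact sum_congr rfl (fun x _ => by ring)
  rw [h4, h1]
  have h5 : -(2 * (n / q) * (n * (q + 1))) + (q + 1) * q * (n / q) ^ 2 = -(n ^ 2) - n ^ 2 / q := by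
    field_simp; ring
  have h6 : 0 ≤ n ^ 2 / q := by positivity
  nlinarith

/-- Chebyshev form of the mixing lemma -/
theorem mixing_card (Λ : Finset (Ln F)) (A : Finset (Pt F)) (t : ℝ) (ht : 0 ≤ t)
    (h : ∀ x ∈ A, t ≤ |(deg Λ x : ℝ) - Λ.card / Fintype.card F|) :
    A.card * t ^ 2 ≤ Fintype.card F * Λ.card := by
  refine le_trans ?_ (mixing Λ)
  calc (A.card : ℝ) * t ^ 2 = ∑ _x ∈ A, t ^ 2 := by simp
    _ ≤ ∑ x ∈ A, ((deg Λ x : ℝ) - Λ.card / Fintype.card F) ^ 2 := by
        refine sum_le_sum (fun x hx => ?_)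
        rw [← sq_abs ((deg Λ x : ℝ) - _)]
        exact pow_le_pow_left₀ ht (h x hx) 2
    _ ≤ _ := sum_le_sum_of_subset_of_nonneg (subset_univ _) (fun _ _ _ => sq_nonneg _)

/-- number of shifts that move the base point `x` into `R` -/
theorem card_shift_mem (x : Pt F) (R : Finset (Pt F)) :
    (univ.filter (fun w : Ln F => shift w x ∈ R)).card =
      Fintype.card F * (R.filter (fun y => y.1 = x.1)).card := by
  rw [card_eq_sum_card_fiberwise (f := fun w => shift w x) (t := R.filter (fun y => y.1 = x.1))]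
  · rw [mul_comm, ← smul_eq_mul, ← sum_const]
    refine sum_congr rfl (fun y hy => ?_)
    rw [← card_u_eq x.1 (y.2 - x.2)]
    congr 1
    ext w
    simp only [mem_filter, mem_univ, true_and] at hy ⊢
    constructor
    · rintro ⟨_, h⟩
      rw [← h]; simp [shift]
    · intro h
      have : shift w x = y := Prod.ext hy.2.symm (by simp [shift, h])
      exact ⟨this ▸ hy.1, this⟩
  · intro w hw
    simp only [coe_filter, mem_univ, true_and, Set.mem_ofPred_eq] at hw ⊢
    exact ⟨hw, rfl⟩

theorem mem_Zof {N : ℕ} {zr : ℕ → Finset (Pt F)} {p : ℕ → Ln F} {z : Pt F} :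
    z ∈ Zof N zr p ↔ ∃ s < N, ∃ x ∈ zr s, shift (p s) x = z := by
  simp [Zof]

end

end Crest.Agent.R34
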