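import Crest.Agent.R34.Data
import Crest.Agent.R34.Plane

/-! The gadget over a finite field of large characteristic: `q` translates and one special copy. -/

set_option autoImplicit false
set_option linter.unusedSectionVars false
open Finset

namespace Crest.Agent.R34

open Data

section
variable {F : Type} [Field F] [Fintype F] [DecidableEq F]

theorem cast_inj_of_lt {p₀ : ℕ} (h : p₀ ≤ ringChar F) {x y : ℕ} (hx : x < p₀) (hy : y < p₀)
    (e : (x : F) = y) : x = y :=
  CharP.natCast_injOn_Iio F (ringChar F) (lt_of_lt_of_le hx h) (lt_of_lt_of_le hy h) e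

/-- position map of a cluster -/
def piC : Option F → F → Option F
  | some t, c => some (c + t)
  | none, c => if c = 2772 then none else some (c - 2772)⁻¹

/-- value scale of a cluster -/
def sgC : Option F → F → F
  | some _, _ => 1
  | none, c => if c = 2772 then 1 else (c - 2772)⁻¹

/-- line map of a cluster -/
def gC : Option F → Ln F → Ln F
  | some t, w => (w.1, w.2 - t * w.1)
  | none, w => (2772 * w.1 + w.2, w.1)

theorem piC_inj (s : Option F) : Function.Injective (piC s) := by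
  intro c c' h
  rcases s with _ | t
  · simp only [piC] at h
    split_ifs at h with h1 h2 h2
    · rw [h1, h2]
    · simpa using h
  · simpa [piC] using h

theorem sgC_ne (s : Option F) (c : F) : sgC s c ≠ 0 := by
  rcases s with _ | t
  · simp only [sgC]
    split_ifs with h
    · exact one_ne_zero
    · exact inv_ne_zero (sub_ne_zero.2 h)
  · simp [sgC]

theorem u_piC (s : Option F) (c : F) (w : Ln F) :
    u (piC s c) (gC s w) = sgC s c * (c * w.1 + w.2) := by
  rcases s with _ | t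
  · simp only [piC, sgC, gC]
    split_ifs with h
    · simp [u, h]
    · have : c - 2772 ≠ 0 := sub_ne_zero.2 h
      simp only [u]
      field_simp
      ring
  · simp only [piC, sgC, gC, u]; ring

theorem gC_inj (s : Option F) : Function.Injective (gC s) := by
  rintro ⟨a, b⟩ ⟨a', b'⟩ h
  rcases s with _ | t <;> simp only [gC, Prod.mk.injEq] at h
  · obtain ⟨h1, rfl⟩ := h
    simpa using h1
  · obtain ⟨rfl, h1⟩ := h
    simpa using h1

theorem gC_surj (s : Option F) : Function.Surjective (gC s) :=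
  Finite.surjective_of_injective (gC_inj s)

theorem u_gC (s i : Option F) : ∃ α β : F, (α ≠ 0 ∨ β ≠ 0) ∧
    ∀ w : Ln F, u i (gC s w) = α * w.1 + β * w.2 := by
  rcases s with _ | t <;> rcases i with _ | d
  · exact ⟨2772, 1, Or.inr one_ne_zero, fun w => by simp [u, gC]⟩
  · refine ⟨d * 2772 + 1, d, ?_, fun w => by simp only [u, gC]; ring⟩
    by_cases h : d = 0
    · left; simp [h]
    · exact Or.inr h
  · exact ⟨1, 0, Or.inl one_ne_zero, fun w => by simp [u, gC]⟩
  · exact ⟨d - t, 1, Or.inr one_ne_zero, fun w => by simp only [u, gC]; ring⟩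

def ptC (s : Option F) (r : G0.Row) : Pt F :=
  (piC s ((row r).1 : F), sgC s ((row r).1 : F) * ((row r).2 : F))

def lnC (s : Option F) (m : G0.Cell) : Ln F := gC s (((cell m).1 : F), ((cell m).2 : F))

theorem on_ptC (s : Option F) (r : G0.Row) (w : Ln F) :
    On (ptC s r) (gC s w) ↔ ((row r).1 : F) * w.1 + w.2 = ((row r).2 : F) := by
  simp only [On, ptC, u_piC]
  exact mul_right_inj' (sgC_ne s _)

theorem three_nat {r₁ r₂ r₃ : ℕ × ℕ} (h₁ : r₁ ∈ rows) (h₂ : r₂ ∈ rows) (h₃ : r₃ ∈ rows)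
    (hp : 10 ^ 21 ≤ ringChar F) (w : Ln F)
    (l₁ : r₁.1 < r₂.1) (l₂ : r₂.1 < r₃.1)
    (e₁ : (r₁.1 : F) * w.1 + w.2 = r₁.2) (e₂ : (r₂.1 : F) * w.1 + w.2 = r₂.2)
    (e₃ : (r₃.1 : F) * w.1 + w.2 = r₃.2) :
    ∃ m : G0.Cell, w = (((cell m).1 : F), ((cell m).2 : F)) := by
  have b₁ := rows_bound _ h₁
  have b₂ := rows_bound _ h₂
  have b₃ := rows_bound _ h₃
  have bd : ∀ {a b : ℕ × ℕ}, a.1 < 10000 → b.2 < 10000000000 → a.1 * b.2 ≤ 10 ^ 14 := by
    intro a b ha hb
    calc a.1 * b.2 ≤ 10000 * 10000000000 := Nat.mul_le_mul ha.le hb.le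
      _ = 10 ^ 14 := by norm_num
  have e : r₁.1 * r₂.2 + r₂.1 * r₃.2 + r₃.1 * r₁.2 = r₁.1 * r₃.2 + r₂.1 * r₁.2 + r₃.1 * r₂.2 := by
    refine cast_inj_of_lt hp ?_ ?_ ?_
    · have := bd b₁.1 b₂.2; have := bd b₂.1 b₃.2; have := bd b₃.1 b₁.2; omega
    · have := bd b₁.1 b₃.2; have := bd b₂.1 b₁.2; have := bd b₃.1 b₂.2; omega
    · push_cast
      rw [← e₁, ← e₂, ← e₃]; ring
  obtain ⟨m, hm, o₁, o₂⟩ := three_sorted h₁ h₂ h₃ l₁ l₂ e
  obtain ⟨m', rfl⟩ := exists_cell hm
  refine ⟨m', ?_⟩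
  have hne : (some (r₁.1 : F)) ≠ some (r₂.1 : F) := by
    intro h
    have := cast_inj_of_lt hp (x := r₁.1) (y := r₂.1) (by omega) (by omega) (Option.some.inj h)
    omega
  refine eq_of_u_eq hne ?_ ?_
  · simp only [u]; rw [e₁, ← o₁]; push_cast; ring
  · simp only [u]; rw [e₂, ← o₂]; push_cast; ring

theorem conc_field (hp : 10 ^ 21 ≤ ringChar F) {d₁ d₂ d₃ : Fin 36} (k₁ k₂ k₃ : Fin 4)
    (l₁ : d₁ < d₂) (l₂ : d₂ < d₃)
    (p₁ : (rD d₁).1 = (rD d₂).1) (p₂ : (rD d₁).1 = (rD d₃).1) {α β v : F} (hαβ : α ≠ 0 ∨ β ≠ 0)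
    (e₁ : α * (cD d₁ k₁).1 + β * (cD d₁ k₁).2 = v) (e₂ : α * (cD d₂ k₂).1 + β * (cD d₂ k₂).2 = v)
    (e₃ : α * (cD d₃ k₃).1 + β * (cD d₃ k₃).2 = v) : False := by
  have b₁ := cells_bound _ (cell_mem (.inl (d₁, k₁)))
  have b₂ := cells_bound _ (cell_mem (.inl (d₂, k₂)))
  have b₃ := cells_bound _ (cell_mem (.inl (d₃, k₃)))
  simp only [cell] at b₁ b₂ b₃
  have bd : ∀ {a b : ℕ}, a < 10000000000 → b < 10000000000 → a * b ≤ 10 ^ 20 := by
    intro a b ha hb
    calc a * b ≤ 10000000000 * 10000000000 := Nat.mul_le_mul ha.le hb.le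
      _ = 10 ^ 20 := by norm_num
  refine conc_sorted k₁ k₂ k₃ l₁ l₂ p₁ p₂ (cast_inj_of_lt hp ?_ ?_ ?_)
  · have := bd b₁.1 b₂.2; have := bd b₂.1 b₃.2; have := bd b₃.1 b₁.2; omega
  · have := bd b₁.1 b₃.2; have := bd b₂.1 b₁.2; have := bd b₃.1 b₂.2; omega
  · push_cast
    generalize ((cD d₁ k₁).1 : F) = a₁ at *
    generalize ((cD d₂ k₂).1 : F) = a₂ at *
    generalize ((cD d₃ k₃).1 : F) = a₃ at *
    generalize ((cD d₁ k₁).2 : F) = c₁ at *
    generalize ((cD d₂ k₂).2 : F) = c₂ at *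
    generalize ((cD d₃ k₃).2 : F) = c₃ at *
    rcases hαβ with h | h
    · apply mul_left_cancel₀ h
      linear_combination (c₂ - c₃) * e₁ + (c₃ - c₁) * e₂ + (c₁ - c₂) * e₃
    · apply mul_left_cancel₀ h
      linear_combination (a₃ - a₂) * e₁ + (a₁ - a₃) * e₂ + (a₂ - a₁) * e₃

theorem ptC_fst_iff (hp : 10 ^ 21 ≤ ringChar F) (s : Option F) (r r' : G0.Row) :
    (ptC s r).1 = (ptC s r').1 ↔ (row r).1 = (row r').1 := by
  constructor
  · intro h
    have b₁ := rows_bound _ (row_mem r)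
    have b₂ := rows_bound _ (row_mem r')
    exact cast_inj_of_lt hp (by omega) (by omega) (piC_inj s h)
  · intro h
    simp only [ptC, h]

theorem ptC_inj (hp : 10 ^ 21 ≤ ringChar F) (s : Option F) : Function.Injective (ptC s) := by
  intro r r' h
  have h1 := (ptC_fst_iff hp s r r').1 (congrArg Prod.fst h)
  have h2 := congrArg Prod.snd h
  simp only [ptC, h1] at h2
  have b₁ := rows_bound _ (row_mem r)
  have b₂ := rows_bound _ (row_mem r')
  exact row_inj (Prod.ext h1
    (cast_inj_of_lt hp (by omega) (by omega) (mul_left_cancel₀ (sgC_ne s _) h2)))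

theorem card_pairs {ι : Type} [Fintype ι] (c : ι → F) (i : Option F) :
    (univ.filter (fun x : Option F × ι => piC x.1 (c x.2) = i)).card =
      (univ.filter (fun b : ι => piC none (c b) = i)).card +
        (if i = none then 0 else Fintype.card ι) := by
  classical
  simp only [card_filter]
  rw [Fintype.sum_prod_type_right]
  simp only [Fintype.sum_option]
  rw [sum_add_distrib]
  congr 1
  rcases i with _ | x
  · simp [piC]
  · have : ∀ b : ι, (∑ t : F, if piC (some t) (c b) = some x then 1 else 0) = 1 := by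
      intro b
      rw [sum_eq_single (x - c b)]
      · simp [piC]
      · intro t _ ht
        rw [if_neg]
        intro h
        simp only [piC, Option.some.injEq] at h
        exact ht (by rw [← h]; ring)
      · simp
    simp [this]

noncomputable def design (hp : 10 ^ 21 ≤ ringChar F) : Design G0 F (Option F) 97 where
  pt := ptC
  ln := lnC
  inc_iff := by
    intro s m r
    rw [lnC, on_ptC, ← onN_iff]
    have b₁ := rows_bound _ (row_mem r)
    have b₂ := cells_bound _ (cell_mem m)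
    constructor
    · intro h
      refine cast_inj_of_lt hp ?_ (by omega) (by push_cast; exact h)
      have : (row r).1 * (cell m).1 ≤ 10000 * 10000000000 := Nat.mul_le_mul b₁.1.le b₂.1.le
      omega
    · intro h
      unfold onN at h
      rw [← h]; push_cast; rfl
  pt_inj := ptC_inj hp
  ln_inj := by
    intro s m m' h
    have h1 := gC_inj s h
    simp only [Prod.mk.injEq] at h1
    have b₁ := cells_bound _ (cell_mem m)
    have b₂ := cells_bound _ (cell_mem m')
    exact cell_inj (Prod.ext (cast_inj_of_lt hp (by omega) (by omega) h1.1)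
      (cast_inj_of_lt hp (by omega) (by omega) h1.2))
  partH := fun s b => (ptC_fst_iff hp s _ _).2 (posH b)
  partD := fun s d d' k k' h e => posD d d' ((ptC_fst_iff hp s _ _).1 h) k k' e
  three := by
    intro s l r₁ r₂ r₃ n₁ n₂ n₃ o₁ o₂ o₃
    have ne : ∀ {r r' : G0.Row}, r ≠ r' → On (ptC s r) l → On (ptC s r') l →
        (row r).1 ≠ (row r').1 := fun n o o' e =>
      n (ptC_inj hp s (eq_of_on_of_fst o o' ((ptC_fst_iff hp s _ _).2 e)))
    have c₁ := ne n₁ o₁ o₂
    have c₂ := ne n₂ o₁ o₃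
    have c₃ := ne n₃ o₂ o₃
    obtain ⟨w, rfl⟩ := gC_surj s l
    rw [on_ptC] at o₁ o₂ o₃
    have m₁ := row_mem r₁
    have m₂ := row_mem r₂
    have m₃ := row_mem r₃
    have key : ∃ m : G0.Cell, w = (((cell m).1 : F), ((cell m).2 : F)) := by
      rcases lt_or_gt_of_ne c₁ with a | a <;> rcases lt_or_gt_of_ne c₂ with b | b <;>
        rcases lt_or_gt_of_ne c₃ with c | c
      · exact three_nat m₁ m₂ m₃ hp w a c o₁ o₂ o₃
      · exact three_nat m₁ m₃ m₂ hp w b c o₁ o₃ o₂
      · omega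
      · exact three_nat m₃ m₁ m₂ hp w b a o₃ o₁ o₂
      · exact three_nat m₂ m₁ m₃ hp w a b o₂ o₁ o₃
      · omega
      · exact three_nat m₂ m₃ m₁ hp w c b o₂ o₃ o₁
      · exact three_nat m₃ m₂ m₁ hp w c a o₃ o₂ o₁
    obtain ⟨m, rfl⟩ := key
    exact ⟨m, rfl⟩
  noconc := by
    intro s d₁ d₂ d₃ k₁ k₂ k₃ y n₁ n₂ n₃ p₁ p₂ o₁ o₂ o₃
    have p₁' : (rD d₁).1 = (rD d₂).1 := (ptC_fst_iff hp s _ _).1 p₁
    have p₂' : (rD d₁).1 = (rD d₃).1 := (ptC_fst_iff hp s _ _).1 p₂
    obtain ⟨α, β, hαβ, hu⟩ := u_gC s y.1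
    simp only [On, lnC, hu, cell] at o₁ o₂ o₃
    rcases lt_or_gt_of_ne n₁ with a | a <;> rcases lt_or_gt_of_ne n₂ with b | b <;>
      rcases lt_or_gt_of_ne n₃ with c | c
    · exact conc_field hp k₁ k₂ k₃ a c p₁' p₂' hαβ o₁ o₂ o₃
    · exact conc_field hp k₁ k₃ k₂ b c p₂' p₁' hαβ o₁ o₃ o₂
    · exact absurd (a.trans c) (not_lt.2 b.le)
    · exact conc_field hp k₃ k₁ k₂ b a p₂'.symm (p₂'.symm.trans p₁') hαβ o₃ o₁ o₂
    · exact conc_field hp k₂ k₁ k₃ a b p₁'.symm (p₁'.symm.trans p₂') hαβ o₂ o₁ o₃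
    · exact absurd (b.trans c) (not_lt.2 a.le)
    · exact conc_field hp k₂ k₃ k₁ c b (p₁'.symm.trans p₂') p₁'.symm hαβ o₂ o₃ o₁
    · exact conc_field hp k₃ k₂ k₁ c a (p₂'.symm.trans p₁') p₂'.symm hαβ o₃ o₂ o₁
  mult := by
    intro i
    have hsub : univ.filter (fun s : Option F => ∃ r, (ptC s r).1 = i) ⊆
        insert none (univ.image (fun r : G0.Row => i.map (fun x => x - ((row r).1 : F)))) := by
      intro s hs
      simp only [mem_filter, mem_univ, true_and] at hs
      obtain ⟨r, hr⟩ := hs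
      rcases s with _ | t
      · exact mem_insert_self _ _
      · refine mem_insert_of_mem (mem_image.2 ⟨r, mem_univ _, ?_⟩)
        rw [← hr]
        simp [ptC, piC]
    refine (card_le_card hsub).trans ((card_insert_le _ _).trans ?_)
    have := card_image_le (s := (univ : Finset G0.Row))
      (f := fun r : G0.Row => i.map (fun x => x - ((row r).1 : F)))
    have h96 : (univ : Finset G0.Row).card = 96 := by simp
    omega
  surplus := by
    intro i
    have h1 := card_pairs (fun b : Fin 30 => ((rH b).1 : F)) i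
    have h2 := card_pairs (fun d : Fin 36 => ((rD d).1 : F)) i
    refine lt_of_eq_of_lt h1 (lt_of_lt_of_eq ?_ h2.symm)
    rcases i with _ | x
    · have hz : ∀ c : ℕ, c < 10000 → (piC none (c : F) = none ↔ c = 2772) := by
        intro c hc
        simp only [piC]
        constructor
        · intro h
          split_ifs at h with h'
          exact cast_inj_of_lt hp (by omega) (by norm_num) (by simpa using h')
        · rintro rfl; simp
      simp only [if_true, add_zero]
      rw [filter_congr (fun (b : Fin 30) _ => hz (rH b).1 (rows_bound _ (row_mem (.inl b))).1),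
        filter_congr (fun (d : Fin 36) _ =>
          hz (rD d).1 (rows_bound _ (row_mem (.inr (.inr d)))).1)]
      exact pos0_card
    · have h5 : (univ.filter (fun b : Fin 30 => piC none ((rH b).1 : F) = some x)).card ≤ 5 := by
        rcases (univ.filter (fun b : Fin 30 => piC none ((rH b).1 : F) = some x)).eq_empty_or_nonempty
          with h | ⟨b₀, hb₀⟩
        · simp [h]
        · refine le_trans (card_le_card ?_) (posH_card b₀)
          intro b hb
          simp only [mem_filter, mem_univ, true_and] at hb hb₀ ⊢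
          exact (ptC_fst_iff hp none (.inl b) (.inl b₀)).1 (hb.trans hb₀.symm)
      simp only [reduceCtorEq, if_false, Fintype.card_fin]
      omega

end

theorem designStmt : DesignStmt :=
  ⟨G0, 97, 10 ^ 21, fun _ _ _ _ hp => ⟨design hp⟩⟩

end Crest.Agent.R34
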