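import Crest.Agent.R34.Defs

/-! Row 34, part B: detection by sampling without replacement. -/

set_option autoImplicit false
set_option linter.unusedSectionVars false
open Finset

namespace Crest.Agent.R34

namespace Det

variable {α : Type} [DecidableEq α]

theorem greedy (S X₀ : Finset α) (h0 : X₀ ⊆ S) (k : ℕ) (hk : X₀.card + k ≤ S.card)
    (Φ : ℕ → Finset α → ℝ)
    (h : ∀ t < k, ∀ X, X₀ ⊆ X → X ⊆ S → X.card = X₀.card + t →
      ∑ y ∈ S \ X, Φ (t + 1) (insert y X) ≤ ((S \ X).card : ℝ) * Φ t X) :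
    ∃ X, X₀ ⊆ X ∧ X ⊆ S ∧ X.card = X₀.card + k ∧ Φ k X ≤ Φ 0 X₀ := by
  induction k with
  | zero => exact ⟨X₀, subset_rfl, h0, rfl, le_rfl⟩
  | succ k ih =>
    obtain ⟨X, h1, h2, h3, h4⟩ := ih (by omega) (fun t ht => h t (by omega))
    have hne : (S \ X).Nonempty := by
      rw [← card_pos, card_sdiff_of_subset h2]
      omega
    have h5 := h k (by omega) X h1 h2 h3
    rw [← nsmul_eq_mul, ← sum_const] at h5
    obtain ⟨y, hy, h6⟩ := exists_le_of_sum_le hne h5
    rw [mem_sdiff] at hy
    refine ⟨insert y X, h1.trans (subset_insert _ _), insert_subset hy.1 h2, ?_, h6.trans h4⟩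
    rw [card_insert_of_notMem hy.2]
    omega

theorem greedy2 (S X₀ : Finset α) (h0 : X₀ ⊆ S) (k : ℕ) (hk : X₀.card + k ≤ S.card)
    {I J : Type} (A : Finset I) (B : Finset J) (f : I → Finset α → ℝ) (g : J → Finset α → ℝ)
    (r s : ℝ)
    (hf : ∀ i ∈ A, ∀ X, X₀ ⊆ X → X ⊆ S → X.card ≤ X₀.card + k →
      ∑ y ∈ S \ X, f i (insert y X) ≤ ((S \ X).card : ℝ) * (Real.exp r * f i X))
    (hg : ∀ j ∈ B, ∀ X, X₀ ⊆ X → X ⊆ S → X.card ≤ X₀.card + k →
      ∑ y ∈ S \ X, g j (insert y X) ≤ ((S \ X).card : ℝ) * (Real.exp s * g j X)) :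
    ∃ X, X₀ ⊆ X ∧ X ⊆ S ∧ X.card = X₀.card + k ∧
      ∑ i ∈ A, f i X + ∑ j ∈ B, g j X ≤
        Real.exp (k * r) * ∑ i ∈ A, f i X₀ + Real.exp (k * s) * ∑ j ∈ B, g j X₀ := by
  have key := greedy S X₀ h0 k hk
    (fun t X => Real.exp ((k - t) * r) * ∑ i ∈ A, f i X + Real.exp ((k - t) * s) * ∑ j ∈ B, g j X)
    ?_
  · obtain ⟨X, h1, h2, h3, h4⟩ := key
    refine ⟨X, h1, h2, h3, ?_⟩
    simpa using h4
  · intro t ht X h1 h2 h3
    rw [sum_add_distrib, ← mul_sum, ← mul_sum, sum_comm, sum_comm (s := S \ X), mul_add]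
    have e : ∀ r : ℝ, Real.exp (((k : ℝ) - t) * r) =
        Real.exp (((k : ℝ) - (t + 1 : ℕ)) * r) * Real.exp r := by
      intro r
      rw [← Real.exp_add]
      push_cast
      ring_nf
    refine add_le_add ?_ ?_
    · rw [e r, mul_left_comm, mul_assoc]
      refine mul_le_mul_of_nonneg_left ?_ (Real.exp_pos _).le
      rw [mul_sum, mul_sum]
      refine sum_le_sum (fun i hi => (hf i hi X h1 h2 (by omega)).trans (le_of_eq ?_))
      ring
    · rw [e s, mul_left_comm, mul_assoc]
      refine mul_le_mul_of_nonneg_left ?_ (Real.exp_pos _).le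
      rw [mul_sum, mul_sum]
      refine sum_le_sum (fun i hi => (hg i hi X h1 h2 (by omega)).trans (le_of_eq ?_))
      ring

/-- a step where the value is halved on a large part -/
theorem shrink (T A : Finset α) (hA : A ⊆ T) (f : α → ℝ) (v p : ℝ) (hv : 0 ≤ v)
    (h1 : ∀ y ∈ T, f y ≤ v) (h2 : ∀ y ∈ A, f y ≤ v / 2) (hp : p * T.card ≤ A.card) :
    ∑ y ∈ T, f y ≤ (T.card : ℝ) * (Real.exp (-(p / 2)) * v) := by
  rw [← sum_sdiff hA]
  have a1 : ∑ y ∈ T \ A, f y ≤ ((T.card : ℝ) - A.card) * v := by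
    rw [← Nat.cast_sub (card_le_card hA), ← card_sdiff_of_subset hA, ← nsmul_eq_mul, ← sum_const]
    exact sum_le_sum (fun y hy => h1 y (mem_sdiff.1 hy).1)
  have a2 : ∑ y ∈ A, f y ≤ (A.card : ℝ) * (v / 2) := by
    rw [← nsmul_eq_mul, ← sum_const]
    exact sum_le_sum h2
  have a3 : -(p / 2) + 1 ≤ Real.exp (-(p / 2)) := Real.add_one_le_exp _
  have a4 : (T.card : ℝ) * v * (-(p / 2) + 1) ≤ (T.card : ℝ) * v * Real.exp (-(p / 2)) :=
    mul_le_mul_of_nonneg_left a3 (by positivity)
  have a5 : p * T.card * v ≤ A.card * v := mul_le_mul_of_nonneg_right hp hv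
  nlinarith

theorem exp_neg_one_le : Real.exp (-1) ≤ 1 / 2 := by
  have := Real.add_one_le_exp (1 : ℝ)
  rw [Real.exp_neg, one_div]
  exact inv_anti₀ (by norm_num) (by linarith)

variable {β : Type} [DecidableEq β]

/-- class size -/
def m (S : Finset α) (c : α → β) (b : β) : ℕ := (S.filter (fun x => c x = b)).card

/-- excess of the classes hit by `X` -/
def G (S : Finset α) (c : α → β) (X : Finset α) : ℝ := ∑ b ∈ X.image c, ((m S c b : ℝ) - 1)

/-- collisions -/
def coll (c : α → β) (X : Finset α) : ℝ := (X.card : ℝ) - (X.image c).card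

theorem one_le_m {S : Finset α} (c : α → β) {y : α} (hy : y ∈ S) : 1 ≤ m S c (c y) :=
  card_pos.2 ⟨y, mem_filter.2 ⟨hy, rfl⟩⟩

theorem G_insert_new (S : Finset α) (c : α → β) (X : Finset α) (y : α) (h : c y ∉ X.image c) :
    G S c (insert y X) = G S c X + (m S c (c y) - 1) := by
  unfold G
  rw [image_insert, sum_insert h, add_comm]

theorem G_mono (S : Finset α) (c : α → β) {X X' : Finset α} (h : X ⊆ X') (h' : X' ⊆ S) :
    G S c X ≤ G S c X' := by
  refine sum_le_sum_of_subset_of_nonneg (image_subset_image h) (fun b hb _ => ?_)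
  obtain ⟨y, hy, rfl⟩ := mem_image.1 hb
  have : (1 : ℝ) ≤ m S c (c y) := by exact_mod_cast one_le_m c (h' hy)
  linarith

theorem heavy_le (S : Finset α) (c : α → β) (X : Finset α) (hX : X ⊆ S) (D : ℕ) (hD : 1 ≤ D) :
    (((S.filter (fun x => D + 1 ≤ m S c (c x))).filter (fun x => c x ∈ X.image c)).card : ℝ) ≤
      2 * G S c X := by
  rw [card_eq_sum_card_fiberwise (f := c) (s := (S.filter (fun x => D + 1 ≤ m S c (c x))).filter
    (fun x => c x ∈ X.image c)) (t := X.image c) (fun x hx => (mem_filter.1 hx).2),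
    G, mul_sum, Nat.cast_sum]
  refine sum_le_sum (fun b hb => ?_)
  obtain ⟨y, hy, rfl⟩ := mem_image.1 hb
  have h1 : (1 : ℝ) ≤ m S c (c y) := by exact_mod_cast one_le_m c (hX hy)
  rcases (((S.filter (fun x => D + 1 ≤ m S c (c x))).filter (fun x => c x ∈ X.image c)).filter
    (fun x => c x = c y)).eq_empty_or_nonempty with he | ⟨x, hx⟩
  · rw [he, card_empty, Nat.cast_zero]
    linarith
  · simp only [mem_filter] at hx
    have h2 : (2 : ℝ) ≤ m S c (c y) := by
      have := hx.1.1.2
      rw [hx.2] at this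
      exact_mod_cast (by omega : 2 ≤ m S c (c y))
    have h3 : ((((S.filter (fun x => D + 1 ≤ m S c (c x))).filter
        (fun x => c x ∈ X.image c)).filter (fun x => c x = c y)).card : ℝ) ≤ m S c (c y) := by
      unfold m
      exact_mod_cast card_le_card (filter_subset_filter _ ((filter_subset _ _).trans
        (filter_subset _ _)))
    linarith

theorem hit_card (S : Finset α) (c : α → β) (X : Finset α) (hX : X ⊆ S) :
    (((S \ X).filter (fun x => c x ∈ X.image c)).card : ℝ) = G S c X - coll c X := by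
  have h1 : (S \ X).filter (fun x => c x ∈ X.image c) =
      (S.filter (fun x => c x ∈ X.image c)) \ X := by
    ext x
    simp only [mem_filter, mem_sdiff]
    tauto
  have h2 : X ⊆ S.filter (fun x => c x ∈ X.image c) :=
    fun x hx => mem_filter.2 ⟨hX hx, mem_image_of_mem _ hx⟩
  have h3 : (S.filter (fun x => c x ∈ X.image c)).card = ∑ b ∈ X.image c, m S c b := by
    rw [card_eq_sum_card_fiberwise (f := c) (s := S.filter (fun x => c x ∈ X.image c))
      (t := X.image c) (fun x hx => (mem_filter.1 hx).2)]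
    refine sum_congr rfl (fun b hb => ?_)
    unfold m
    congr 1
    ext x
    simp only [mem_filter]
    constructor
    · exact fun h => ⟨h.1.1, h.2⟩
    · exact fun h => ⟨⟨h.1, h.2 ▸ hb⟩, h.2⟩
  rw [h1, card_sdiff_of_subset h2, Nat.cast_sub (card_le_card h2), h3, G, coll, sum_sub_distrib,
    Nat.cast_sum]
  simp

theorem coll_nonneg (c : α → β) (X : Finset α) : 0 ≤ coll c X := by
  have : ((X.image c).card : ℝ) ≤ X.card := by exact_mod_cast card_image_le
  unfold coll
  linarith

theorem coll_insert (c : α → β) (X : Finset α) (y : α) (hy : y ∉ X) :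
    coll c X ≤ coll c (insert y X) := by
  unfold coll
  rw [card_insert_of_notMem hy, image_insert]
  have : ((insert (c y) (X.image c)).card : ℝ) ≤ (X.image c).card + 1 := by
    exact_mod_cast card_insert_le _ _
  push_cast
  linarith

theorem coll_insert_hit (c : α → β) (X : Finset α) (y : α) (hy : y ∉ X) (h : c y ∈ X.image c) :
    coll c (insert y X) = coll c X + 1 := by
  unfold coll
  rw [card_insert_of_notMem hy, image_insert, insert_eq_of_mem h]
  push_cast
  ring

noncomputable def φ₁ (S : Finset α) (c : α → β) (D : ℕ) (g : ℝ) (X : Finset α) : ℝ :=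
  if G S c X < g then Real.exp ((g - G S c X) / D) else 0

noncomputable def φ₂ (c : α → β) (a : ℝ) (X : Finset α) : ℝ :=
  if coll c X < a then Real.exp (a - coll c X) else 0

theorem φ₁_nonneg (S : Finset α) (c : α → β) (D : ℕ) (g : ℝ) (X : Finset α) :
    0 ≤ φ₁ S c D g X := by
  unfold φ₁
  split_ifs
  · positivity
  · rfl

theorem φ₂_nonneg (c : α → β) (a : ℝ) (X : Finset α) : 0 ≤ φ₂ c a X := by
  unfold φ₂
  split_ifs
  · positivity
  · rfl

theorem step₁ (S : Finset α) (c : α → β) (D : ℕ) (hD : 1 ≤ D) (g μ : ℝ) (hμ : 0 ≤ μ)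
    (hg : 4 * g ≤ μ * S.card)
    (hh : μ * S.card ≤ ((S.filter (fun x => D + 1 ≤ m S c (c x))).card : ℝ))
    (X : Finset α) (hX : X ⊆ S) :
    ∑ y ∈ S \ X, φ₁ S c D g (insert y X) ≤
      ((S \ X).card : ℝ) * (Real.exp (-(μ / 2 / 2)) * φ₁ S c D g X) := by
  have hD' : (0 : ℝ) < D := by exact_mod_cast hD
  have hmono : ∀ y ∈ S \ X, G S c X ≤ G S c (insert y X) := fun y hy =>
    G_mono S c (subset_insert _ _) (insert_subset (mem_sdiff.1 hy).1 hX)
  by_cases hG : G S c X < g
  · have hv : φ₁ S c D g X = Real.exp ((g - G S c X) / D) := if_pos hG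
    refine shrink (S \ X) ((S.filter (fun x => D + 1 ≤ m S c (c x))).filter
      (fun x => ¬ c x ∈ X.image c)) ?_ _ _ _ (φ₁_nonneg _ _ _ _ _) ?_ ?_ ?_
    · intro x hx
      simp only [mem_filter] at hx
      exact mem_sdiff.2 ⟨hx.1.1, fun h => hx.2 (mem_image_of_mem _ h)⟩
    · intro y hy
      rw [hv]
      unfold φ₁
      split_ifs
      · exact Real.exp_le_exp.2 (div_le_div_of_nonneg_right (by linarith [hmono y hy]) hD'.le)
      · positivity
    · intro y hy
      rw [mem_filter, mem_filter] at hy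
      rw [hv]
      unfold φ₁
      split_ifs
      · have h1 : (D : ℝ) + 1 ≤ m S c (c y) := by exact_mod_cast hy.1.2
        have h2 : (g - G S c (insert y X)) / D ≤ (g - G S c X) / D + -1 := by
          rw [G_insert_new S c X y hy.2, div_add' _ _ _ hD'.ne']
          exact div_le_div_of_nonneg_right (by linarith) hD'.le
        refine (Real.exp_le_exp.2 h2).trans ?_
        rw [Real.exp_add]
        have := mul_le_mul_of_nonneg_left exp_neg_one_le (Real.exp_pos ((g - G S c X) / D)).le
        linarith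
      · positivity
    · have h1 := heavy_le S c X hX D hD
      have h2 := card_filter_add_card_filter_not (s := S.filter (fun x => D + 1 ≤ m S c (c x)))
        (fun x => c x ∈ X.image c)
      have h3 : ((S \ X).card : ℝ) ≤ S.card := by exact_mod_cast card_le_card sdiff_subset
      have h4 := mul_le_mul_of_nonneg_left h3 hμ
      rw [← h2] at hh
      push_cast at hh
      linarith
  · rw [sum_eq_zero]
    · have := φ₁_nonneg S c D g X
      positivity
    · intro y hy
      exact if_neg (fun h => hG (lt_of_le_of_lt (hmono y hy) h))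

theorem step₂ (S : Finset α) (c : α → β) (a g p : ℝ) (hp : 0 ≤ p) (hg : 2 * a ≤ g)
    (hpg : p * S.card ≤ g / 2) (X : Finset α) (hX : X ⊆ S) (hG : g ≤ G S c X) :
    ∑ y ∈ S \ X, φ₂ c a (insert y X) ≤
      ((S \ X).card : ℝ) * (Real.exp (-(p / 2)) * φ₂ c a X) := by
  have hmono : ∀ y ∈ S \ X, coll c X ≤ coll c (insert y X) := fun y hy =>
    coll_insert c X y (mem_sdiff.1 hy).2
  by_cases hc : coll c X < a
  · have hv : φ₂ c a X = Real.exp (a - coll c X) := if_pos hc
    refine shrink (S \ X) ((S \ X).filter (fun x => c x ∈ X.image c)) (filter_subset _ _) _ _ _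
      (φ₂_nonneg _ _ _) ?_ ?_ ?_
    · intro y hy
      rw [hv]
      unfold φ₂
      split_ifs
      · exact Real.exp_le_exp.2 (by linarith [hmono y hy])
      · positivity
    · intro y hy
      rw [mem_filter] at hy
      rw [hv]
      unfold φ₂
      split_ifs
      · rw [coll_insert_hit c X y (mem_sdiff.1 hy.1).2 hy.2,
          show a - (coll c X + 1) = (a - coll c X) + -1 by ring, Real.exp_add]
        have := mul_le_mul_of_nonneg_left exp_neg_one_le (Real.exp_pos (a - coll c X)).le
        linarith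
      · positivity
    · rw [hit_card S c X hX]
      have h3 : ((S \ X).card : ℝ) ≤ S.card := by exact_mod_cast card_le_card sdiff_subset
      have h4 := mul_le_mul_of_nonneg_left h3 hp
      linarith
  · rw [sum_eq_zero]
    · have := φ₂_nonneg c a X
      positivity
    · intro y hy
      exact if_neg (fun h => hc (lt_of_le_of_lt (hmono y hy) h))

noncomputable def φ₃ (M : Finset α) (a : ℕ) (X : Finset α) : ℝ := 2 ^ (X ∩ M).card / 2 ^ a

theorem step₃ (S M : Finset α) (a : ℕ) (s : ℝ) (X : Finset α)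
    (hs : (M.card : ℝ) ≤ s * (S \ X).card) :
    ∑ y ∈ S \ X, φ₃ M a (insert y X) ≤ ((S \ X).card : ℝ) * (Real.exp s * φ₃ M a X) := by
  have hv : 0 ≤ φ₃ M a X := by unfold φ₃; positivity
  have h1 : ∀ y ∈ S \ X, φ₃ M a (insert y X) ≤ φ₃ M a X + if y ∈ M then φ₃ M a X else 0 := by
    intro y hy
    unfold φ₃
    split_ifs with h
    · rw [insert_inter_of_mem h, card_insert_of_notMem (fun h' => (mem_sdiff.1 hy).2
        (mem_inter.1 h').1), pow_succ]
      apply le_of_eq
      ring
    · rw [insert_inter_of_notMem h, add_zero]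
  refine (sum_le_sum h1).trans ?_
  rw [sum_add_distrib, sum_const, nsmul_eq_mul, ← sum_filter, sum_const, nsmul_eq_mul]
  have h2 : (((S \ X).filter (fun y => y ∈ M)).card : ℝ) ≤ M.card := by
    exact_mod_cast card_le_card (fun y hy => (mem_filter.1 hy).2)
  have h3 := mul_le_mul_of_nonneg_right (h2.trans hs) hv
  have h4 : ((S \ X).card : ℝ) * φ₃ M a X * (s + 1) ≤
      ((S \ X).card : ℝ) * φ₃ M a X * Real.exp s :=
    mul_le_mul_of_nonneg_left (Real.add_one_le_exp s) (by positivity)
  linarith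

theorem exp_neg_le (x : ℝ) (hx : 3 ≤ x) : Real.exp (-x) ≤ 1 / 8 := by
  have h1 : Real.exp (-x) ≤ Real.exp (-1) ^ 3 := by
    rw [← Real.exp_nat_mul]
    exact Real.exp_le_exp.2 (by push_cast; linarith)
  refine h1.trans ((pow_le_pow_left₀ (Real.exp_pos _).le exp_neg_one_le 3).trans (by norm_num))

end Det

open Det in
theorem detStmt : DetStmt := by
  intro α β Y O _ _ S Ys cl Os Ms D k a μ hD hμ ha hk h4k hkD hbig hheavy hM hO
  classical
  have hD' : (0 : ℝ) < D := by exact_mod_cast hD
  have hk' : (0 : ℝ) < k := by exact_mod_cast hk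
  have ha' : (3 : ℝ) ≤ a := by exact_mod_cast ha
  have h4k' : 4 * (k : ℝ) ≤ S.card := by exact_mod_cast h4k
  have hkD' : (k : ℝ) * D ≤ 2 * S.card := by exact_mod_cast hkD
  have hn : (0 : ℝ) < S.card := by linarith
  set n : ℝ := (S.card : ℝ) with hndef
  set g : ℝ := μ * k * D / 8 with hgdef
  set w : ℝ := 2 / (Ys.card + 1) with hwdef
  have hw : 0 < w := by positivity
  have hwY : w * Ys.card ≤ 2 := by
    rw [hwdef, div_mul_eq_mul_div, div_le_iff₀ (by positivity)]
    linarith
  have hμk : 32 * (a : ℝ) ≤ μ * k := by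
    have h1 : μ * k * (k * D) ≤ μ * k * (2 * n) := mul_le_mul_of_nonneg_left hkD' (by positivity)
    have h2 : n * (32 * a) ≤ n * (μ * k) := by nlinarith
    exact le_of_mul_le_mul_left h2 hn
  have hga : 2 * (a : ℝ) ≤ g := by
    have h1 : 4 * (k : ℝ) * a ≤ n * a := mul_le_mul_of_nonneg_right h4k' (by positivity)
    have h2 : k * (256 * (a : ℝ)) ≤ k * (μ * k * D) := by nlinarith
    have h3 := le_of_mul_le_mul_left h2 hk'
    rw [hgdef]
    linarith
  have hout : ∀ o ∈ Os, ∀ X : Finset α, X ⊆ S → X.card ≤ 2 * k →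
      ∑ y ∈ S \ X, φ₃ (Ms o) a (insert y X) ≤
        ((S \ X).card : ℝ) * (Real.exp (a / (6 * k)) * φ₃ (Ms o) a X) := by
    intro o ho X hX hc
    apply step₃
    have h1 : 12 * (k : ℝ) * (Ms o).card ≤ a * n := by
      rw [hndef]
      exact_mod_cast hM o ho
    have h2 : n ≤ 2 * ((S \ X).card : ℝ) := by
      rw [hndef]
      have := card_sdiff_of_subset hX
      have := card_le_card hX
      exact_mod_cast (by omega : S.card ≤ 2 * (S \ X).card)
    rw [div_mul_eq_mul_div, le_div_iff₀ (by positivity)]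
    have h3 := mul_le_mul_of_nonneg_left h2 (show (0 : ℝ) ≤ a by positivity)
    linarith
  -- phase 1
  obtain ⟨X₁, -, hX₁, hc₁, hp₁⟩ := greedy2 S ∅ (empty_subset _) k (by simp; omega) Ys Os
    (fun z X => w * φ₁ S (cl z) D g X)
    (fun o X => Real.exp (k * (a / (6 * k))) * φ₃ (Ms o) a X) (-(μ / 2 / 2)) (a / (6 * k))
    (fun z hz X _ hX _ => by
      rw [← mul_sum]
      have h1 : 4 * g ≤ μ * n := by
        have := mul_le_mul_of_nonneg_left hkD' hμ.le
        rw [hgdef]
        linarith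
      have := mul_le_mul_of_nonneg_left (step₁ S (cl z) D hD g μ hμ.le h1 (hheavy z hz) X hX) hw.le
      linarith)
    (fun o ho X _ hX hc => by
      rw [← mul_sum]
      have := mul_le_mul_of_nonneg_left (hout o ho X hX (by simp at hc; omega))
        (Real.exp_pos (k * (a / (6 * k)))).le
      linarith)
  rw [card_empty, zero_add] at hc₁
  -- phase 2
  obtain ⟨X, -, hX, hc, hp₂⟩ := greedy2 S X₁ hX₁ k (by omega)
    (Ys.filter (fun z => ¬ G S (cl z) X₁ < g)) Os
    (fun z X => w * φ₂ (cl z) a X) (fun o X => φ₃ (Ms o) a X) (-(g / (2 * n) / 2)) (a / (6 * k))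
    (fun z hz X h1 hX _ => by
      rw [← mul_sum]
      have h2 : g / (2 * n) * n ≤ g / 2 := by
        apply le_of_eq
        field_simp
      have h3 : g ≤ G S (cl z) X := (not_lt.1 (mem_filter.1 hz).2).trans (G_mono S _ h1 hX)
      have := mul_le_mul_of_nonneg_left
        (step₂ S (cl z) a g (g / (2 * n)) (by positivity) hga h2 X hX h3) hw.le
      linarith)
    (fun o ho X _ hX hc => hout o ho X hX (by omega))
  rw [hc₁] at hc
  -- numerics
  have n1 : Real.exp (k * -(μ / 2 / 2)) * ∑ z ∈ Ys, w * φ₁ S (cl z) D g ∅ ≤ 1 / 4 := by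
    have h1 : ∀ z ∈ Ys, Real.exp (k * -(μ / 2 / 2)) * (w * φ₁ S (cl z) D g ∅) ≤ w * (1 / 8) := by
      intro z _
      rw [mul_left_comm]
      refine mul_le_mul_of_nonneg_left ?_ hw.le
      unfold φ₁
      split_ifs
      · rw [← Real.exp_add]
        refine le_trans (Real.exp_le_exp.2 ?_) (exp_neg_le (μ * k / 8) (by linarith))
        apply le_of_eq
        simp only [G, image_empty, sum_empty, sub_zero, hgdef]
        field_simp
        ring
      · norm_num
    rw [mul_sum]
    refine (sum_le_sum h1).trans ?_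
    rw [sum_const, nsmul_eq_mul]
    linarith
  have n2 : Real.exp (k * -(g / (2 * n) / 2)) *
      ∑ z ∈ Ys.filter (fun z => ¬ G S (cl z) X₁ < g), w * φ₂ (cl z) a X₁ ≤ 1 / 4 := by
    have h0 : 2 * (a : ℝ) ≤ k * (g / (2 * n) / 2) := by
      have : (k : ℝ) * (g / (2 * n) / 2) = μ * k ^ 2 * D / (32 * n) := by
        rw [hgdef]
        field_simp
        ring
      rw [this, le_div_iff₀ (by positivity)]
      linarith
    have h1 : ∀ z ∈ Ys.filter (fun z => ¬ G S (cl z) X₁ < g),
        Real.exp (k * -(g / (2 * n) / 2)) * (w * φ₂ (cl z) a X₁) ≤ w * (1 / 8) := by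
      intro z _
      rw [mul_left_comm]
      refine mul_le_mul_of_nonneg_left ?_ hw.le
      unfold φ₂
      split_ifs
      · rw [← Real.exp_add]
        refine le_trans (Real.exp_le_exp.2 ?_) (exp_neg_le a ha')
        have := coll_nonneg (cl z) X₁
        linarith
      · norm_num
    rw [mul_sum]
    refine (sum_le_sum h1).trans ?_
    rw [sum_const, nsmul_eq_mul]
    have h2 : ((Ys.filter (fun z => ¬ G S (cl z) X₁ < g)).card : ℝ) ≤ Ys.card := by
      exact_mod_cast card_filter_le _ _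
    have := mul_le_mul_of_nonneg_left h2 hw.le
    linarith
  have n3 : Real.exp (k * (a / (6 * k))) *
      ∑ o ∈ Os, Real.exp (k * (a / (6 * k))) * φ₃ (Ms o) a ∅ ≤ 1 / 4 := by
    refine le_trans ?_ hO
    rw [mul_sum, ← nsmul_eq_mul Os.card, ← sum_const]
    refine sum_le_sum (fun o _ => ?_)
    rw [← mul_assoc, ← Real.exp_add]
    simp only [φ₃, empty_inter, card_empty, pow_zero]
    have e1 : (k : ℝ) * (a / (6 * k)) + k * (a / (6 * k)) = a / 3 := by
      field_simp
      ring
    have e2 : (2 : ℝ) ^ a = Real.exp (a * Real.log 2) := by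
      rw [Real.exp_nat_mul, Real.exp_log (by norm_num)]
    rw [e1, e2, one_div, ← Real.exp_neg, ← Real.exp_add]
    refine Real.exp_le_exp.2 ?_
    have := mul_le_mul_of_nonneg_left Real.log_two_gt_d9.le (show (0 : ℝ) ≤ a by positivity)
    linarith
  rw [← mul_sum (s := Os) (f := fun o => φ₃ (Ms o) a X₁)] at hp₁
  have l1 : w * (Ys.filter (fun z => G S (cl z) X₁ < g)).card ≤
      ∑ z ∈ Ys, w * φ₁ S (cl z) D g X₁ := by
    rw [← mul_sum]
    refine mul_le_mul_of_nonneg_left ?_ hw.le
    rw [card_filter]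
    push_cast
    refine sum_le_sum (fun z _ => ?_)
    unfold φ₁
    split_ifs with h
    · exact Real.one_le_exp (div_nonneg (by linarith) hD'.le)
    · rfl
  have l2 : w * ((Ys.filter (fun z => ¬ G S (cl z) X₁ < g)).filter
      (fun z => ¬ (X.image (cl z)).card + a ≤ 2 * k)).card ≤
      ∑ z ∈ Ys.filter (fun z => ¬ G S (cl z) X₁ < g), w * φ₂ (cl z) a X := by
    rw [← mul_sum]
    refine mul_le_mul_of_nonneg_left ?_ hw.le
    rw [card_filter]
    push_cast
    refine sum_le_sum (fun z _ => ?_)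
    split_ifs with h
    · exact φ₂_nonneg _ _ _
    · have h' : coll (cl z) X < a := by
        unfold coll
        rw [hc]
        have : ((k + k : ℕ) : ℝ) < (X.image (cl z)).card + a := by
          exact_mod_cast (by omega : k + k < (X.image (cl z)).card + a)
        linarith
      unfold φ₂
      rw [if_pos h']
      exact Real.one_le_exp (by linarith)
  have l3 : 0 ≤ ∑ o ∈ Os, φ₃ (Ms o) a X := sum_nonneg (fun o _ => by unfold φ₃; positivity)
  have l4 : 0 ≤ w * ((Ys.filter (fun z => G S (cl z) X₁ < g)).card : ℝ) := by positivity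
  have l5 : 0 ≤ w * (((Ys.filter (fun z => ¬ G S (cl z) X₁ < g)).filter
      (fun z => ¬ (X.image (cl z)).card + a ≤ 2 * k)).card : ℝ) := by positivity
  refine ⟨X, hX, by omega, ?_, fun o ho => ?_⟩
  · have b1 : (Ys.filter (fun z => ¬ (X.image (cl z)).card + a ≤ 2 * k)).card ≤
        (Ys.filter (fun z => G S (cl z) X₁ < g)).card +
        ((Ys.filter (fun z => ¬ G S (cl z) X₁ < g)).filter
          (fun z => ¬ (X.image (cl z)).card + a ≤ 2 * k)).card := by
      refine le_trans (card_le_card (fun z hz => ?_)) (card_union_le _ _)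
      simp only [mem_filter, mem_union] at hz ⊢
      tauto
    have b2 : w * ((Ys.filter (fun z => ¬ (X.image (cl z)).card + a ≤ 2 * k)).card : ℝ) < 1 := by
      have : ((Ys.filter (fun z => ¬ (X.image (cl z)).card + a ≤ 2 * k)).card : ℝ) ≤
          (Ys.filter (fun z => G S (cl z) X₁ < g)).card +
          ((Ys.filter (fun z => ¬ G S (cl z) X₁ < g)).filter
            (fun z => ¬ (X.image (cl z)).card + a ≤ 2 * k)).card := by exact_mod_cast b1
      have := mul_le_mul_of_nonneg_left this hw.le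
      linarith
    rw [hwdef, div_mul_eq_mul_div, div_lt_one (by positivity)] at b2
    have b3 : 2 * (Ys.filter (fun z => ¬ (X.image (cl z)).card + a ≤ 2 * k)).card <
        Ys.card + 1 := by exact_mod_cast b2
    have b4 := card_filter_add_card_filter_not (s := Ys)
      (fun z => (X.image (cl z)).card + a ≤ 2 * k)
    omega
  · by_contra hge
    have c1 : φ₃ (Ms o) a X ≤ ∑ o ∈ Os, φ₃ (Ms o) a X :=
      single_le_sum (f := fun o => φ₃ (Ms o) a X) (fun o _ => by unfold φ₃; positivity) ho
    have c2 : 1 ≤ φ₃ (Ms o) a X := by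
      unfold φ₃
      rw [le_div_iff₀ (by positivity), one_mul]
      exact pow_le_pow_right₀ (by norm_num) (not_lt.1 hge)
    linarith

end Crest.Agent.R34
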