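import Crest.Agent.R34.Test

/-! Placing the gadgets: from the process, the tests and stability to a configuration. -/

set_option autoImplicit false
set_option linter.unusedSectionVars false
open Finset

namespace Crest.Agent.R34

section
variable {F : Type} [Field F] [Fintype F] [DecidableEq F]

theorem Hit.monoL {Z : Finset (Pt F)} {ε C L L' : ℝ} (h : Hit Z ε C L) (hL : L ≤ L') :
    Hit Z ε C L' := fun X J h1 h2 =>
  (h X J h1 h2).trans (mul_le_mul_of_nonneg_right hL (Nat.cast_nonneg _))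

theorem Blk.monoL {Z : Finset (Pt F)} {ε c L L' : ℝ} (h : Blk Z ε c L) (hL : L ≤ L') :
    Blk Z ε c L' := fun X E J Λ h1 h2 h3 => by
  obtain ⟨Z₁, a, b, d⟩ := h X E J Λ h1 h2 h3
  exact ⟨Z₁, a, b.trans (mul_le_mul_of_nonneg_right hL (by positivity)), d⟩

noncomputable def meet (l l' : Ln F) : Pt F := (exists_meet l l').choose

theorem meet_eq {l l' : Ln F} (h : l ≠ l') {y : Pt F} (hy : On y l) (hy' : On y l') :
    meet l l' = y :=
  point_unique h (exists_meet l l').choose_spec.1 (exists_meet l l').choose_spec.2 hy hy'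

/-- number of clusters -/
abbrev NN (F : Type) [Fintype F] : ℕ := Fintype.card (Option F)

noncomputable def idx (a : Option F) : ℕ := (Fintype.equivFin (Option F) a).val

noncomputable def cl (s : ℕ) : Option F :=
  if h : s < NN F then (Fintype.equivFin (Option F)).symm ⟨s, h⟩ else none

theorem idx_lt (a : Option F) : idx a < NN F := (Fintype.equivFin (Option F) a).isLt

@[simp] theorem cl_idx (a : Option F) : cl (idx a) = a := by
  rw [cl, dif_pos (idx_lt a)]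
  exact (Fintype.equivFin (Option F)).symm_apply_apply a

theorem idx_cl {s : ℕ} (h : s < NN F) : idx (cl s : Option F) = s := by
  rw [cl, dif_pos h, idx, Equiv.apply_symm_apply]

theorem idx_inj {a b : Option F} (h : idx a = idx b) : a = b := by
  rw [← cl_idx a, h, cl_idx]

theorem card_range_cl (Q : Option F → Prop) [DecidablePred Q] :
    ((range (NN F)).filter (fun s => Q (cl s))).card = (univ.filter Q).card := by
  refine card_bij (fun s _ => cl s) (by simp +contextual) ?_ ?_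
  · intro s hs t ht h
    simp only [mem_filter, mem_range] at hs ht
    rw [← idx_cl hs.1, h, idx_cl ht.1]
  · intro a ha
    exact ⟨idx a, mem_filter.2 ⟨mem_range.2 (idx_lt a), by simpa using ha⟩, cl_idx a⟩

theorem sum_range_cl (f : ℕ → ℕ) : ∑ s ∈ range (NN F), f s = ∑ a : Option F, f (idx a) := by
  refine sum_bij (fun s _ => cl s) (by simp) ?_ ?_ ?_
  · intro s hs t ht h
    rw [← idx_cl (mem_range.1 hs), h, idx_cl (mem_range.1 ht)]
  · intro a _
    exact ⟨idx a, mem_range.2 (idx_lt a), cl_idx a⟩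
  · intro s hs
    rw [idx_cl (mem_range.1 hs)]

theorem Gad.exists_inc_row (G : Gad) (m : G.Cell) : ∃ r, G.inc m r := by
  rcases m with ⟨d, k⟩ | b
  · exact ⟨G.D d, rfl⟩
  · exact ⟨G.H b, rfl⟩

variable {G : Gad} {C₁ : ℕ} (D : Design G F (Option F) C₁)

namespace Design

noncomputable def own : Option ℕ → Finset (Option F)
  | none => ∅
  | some s => univ.image (fun r => (D.pt (cl s) r).1)

noncomputable def conf (s : ℕ) : Option ℕ → Finset (Pt F)
  | none => (univ.filter G.isZ).image (D.pt (cl s))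
  | some t =>
    univ.image (fun x : G.Cell × G.Row => ((D.pt (cl t) x.2).1,
      u (D.pt (cl t) x.2).1 (D.ln (cl s) x.1) - (D.pt (cl t) x.2).2)) ∪
    univ.image (fun x : G.Cell × G.Row => ((D.pt (cl s) x.2).1,
      (D.pt (cl s) x.2).2 - u (D.pt (cl s) x.2).1 (D.ln (cl t) x.1)))

open Classical in
noncomputable def fl (s : ℕ) : Finset (Pt F × Ln F) :=
  (univ.filter (fun x : G.Cell × G.Row => G.inc x.1 x.2)).image
    (fun x => (D.pt (cl s) x.2, D.ln (cl s) x.1))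

noncomputable def nb (t : ℕ) : Finset ℕ :=
  univ.biUnion (fun r' : G.Row =>
    (range (NN F)).filter (fun s => ∃ r, (D.pt (cl s) r).1 = (D.pt (cl t) r').1))

noncomputable def pc (t : ℕ) (p : ℕ → Ln F) : Finset (Ln F) :=
  (D.nb t ×ˢ univ).image (fun x : ℕ × G.Cell => D.ln (cl x.1) x.2 + p x.1)

noncomputable def forb (t : ℕ) (p : ℕ → Ln F) : Finset (Pt F) :=
  (D.pc t p ×ˢ D.pc t p ×ˢ univ).image (fun x : Ln F × Ln F × G.Cell =>
    ((meet x.1 x.2.1).1, (meet x.1 x.2.1).2 - u (meet x.1 x.2.1).1 (D.ln (cl t) x.2.2))) ∪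
  (D.pc t p ×ˢ univ ×ˢ univ).image (fun x : Ln F × G.Cell × G.Cell =>
    ((meet (D.ln (cl t) x.2.1) (D.ln (cl t) x.2.2)).1,
      u (meet (D.ln (cl t) x.2.1) (D.ln (cl t) x.2.2)).1 x.1 -
        (meet (D.ln (cl t) x.2.1) (D.ln (cl t) x.2.2)).2))

end Design

/-- the constant bounding all families -/
def KK (G : Gad) : ℕ := Fintype.card G.Row + 2 * (Fintype.card G.Cell * Fintype.card G.Row)

def PP (G : Gad) (C₁ : ℕ) : ℕ := Fintype.card G.Row * C₁ * Fintype.card G.Cell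

def CC (G : Gad) (C₁ : ℕ) : ℕ := PP G C₁ * (PP G C₁ * Fintype.card G.Cell) +
  PP G C₁ * (Fintype.card G.Cell * Fintype.card G.Cell)

namespace Design

theorem own_card (c : Option ℕ) : (D.own c).card ≤ KK G := by
  rcases c with _ | s
  · simp [own]
  · exact card_image_le.trans (by rw [card_univ, KK]; omega)

theorem mult' (i : Option F) :
    ((range (NN F)).filter (fun s => ∃ r, (D.pt (cl s) r).1 = i)).card ≤ C₁ := by
  rw [card_range_cl (fun a => ∃ r, (D.pt a r).1 = i)]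
  exact D.mult i

theorem own_mult (i : Option F) :
    ((range (NN F)).filter (fun s => i ∈ D.own (some s))).card ≤ C₁ := by
  refine le_trans (le_of_eq ?_) (D.mult' i)
  congr 1
  ext s
  simp [own]

theorem conf_card (s : ℕ) (c : Option ℕ) : (D.conf s c).card ≤ KK G := by
  rcases c with _ | t
  · exact card_image_le.trans ((card_le_univ _).trans (by rw [KK]; omega))
  · refine (card_union_le _ _).trans ((add_le_add card_image_le card_image_le).trans ?_)
    rw [card_univ, Fintype.card_prod, KK]; omega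

theorem conf_dir (s : ℕ) (c : Option ℕ) (x : Pt F) (hx : x ∈ D.conf s c) :
    x.1 ∈ D.own (some s) ∨ x.1 ∈ D.own c := by
  rcases c with _ | t
  · obtain ⟨r, _, rfl⟩ := mem_image.1 hx
    exact Or.inl (mem_image.2 ⟨r, mem_univ _, rfl⟩)
  · rcases mem_union.1 hx with h | h
    · obtain ⟨y, _, rfl⟩ := mem_image.1 h
      exact Or.inr (mem_image.2 ⟨y.2, mem_univ _, rfl⟩)
    · obtain ⟨y, _, rfl⟩ := mem_image.1 h
      exact Or.inl (mem_image.2 ⟨y.2, mem_univ _, rfl⟩)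

theorem zr_mult (i : Option F) :
    ((range (NN F)).filter (fun s => ∃ x ∈ D.conf s none, x.1 = i)).card ≤ C₁ := by
  refine le_trans (card_le_card ?_) (D.mult' i)
  intro s hs
  simp only [mem_filter] at hs ⊢
  obtain ⟨h1, x, hx, rfl⟩ := hs
  obtain ⟨r, _, rfl⟩ := mem_image.1 hx
  exact ⟨h1, r, rfl⟩

theorem fl_card (s : ℕ) : (D.fl s).card ≤ KK G := by
  unfold fl
  refine card_image_le.trans ((card_le_univ _).trans ?_)
  rw [Fintype.card_prod, KK]; omega

theorem fl_on (s : ℕ) (f : Pt F × Ln F) (hf : f ∈ D.fl s) : On f.1 f.2 := by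
  classical
  unfold fl at hf
  obtain ⟨x, hx, rfl⟩ := mem_image.1 hf
  exact (D.inc_iff _ _ _).2 (mem_filter.1 hx).2

theorem pc_card (t : ℕ) (p : ℕ → Ln F) : (D.pc t p).card ≤ PP G C₁ := by
  refine card_image_le.trans ?_
  rw [card_product, card_univ, PP]
  exact Nat.mul_le_mul_right _ (card_biUnion_le_card_mul _ _ _ (fun r _ => D.mult' _))

theorem forb_card (t : ℕ) (p : ℕ → Ln F) : (D.forb t p).card ≤ CC G C₁ := by
  refine (card_union_le _ _).trans ((add_le_add card_image_le card_image_le).trans ?_)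
  simp only [card_product, card_univ, CC]
  have := D.pc_card t p
  gcongr

theorem mem_pc {p : ℕ → Ln F} {a b : Option F} (h : idx a < idx b) {r r' : G.Row}
    (e : (D.pt a r).1 = (D.pt b r').1) (m : G.Cell) :
    D.ln a m + p (idx a) ∈ D.pc (idx b) (trunc (idx b) p) := by
  refine mem_image.2 ⟨(idx a, m), mem_product.2 ⟨mem_biUnion.2 ⟨r', mem_univ _, ?_⟩, mem_univ _⟩, ?_⟩
  · simp only [mem_filter, mem_range, cl_idx]
    exact ⟨idx_lt a, r, e⟩
  · simp [trunc_apply h]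

section placed
variable {p : ℕ → Ln F}
  (hconf : ∀ s t, s < t → t < NN F → ∀ x ∈ D.conf s (some t), ¬ On x (p t - p s))
  (hforb : ∀ t < NN F, ∀ x ∈ D.forb t (trunc t p), ¬ On x (p t))

include hconf in
theorem placed_inc (s t : Option F) (m : G.Cell) (r : G.Row) :
    On (shift (p (idx t)) (D.pt t r)) (D.ln s m + p (idx s)) ↔ s = t ∧ G.inc m r := by
  constructor
  · intro h
    rcases lt_trichotomy (idx s) (idx t) with l | l | l
    · refine absurd ?_ (hconf _ _ l (idx_lt t) _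
        (mem_union_left _ (mem_image.2 ⟨(m, r), mem_univ _, rfl⟩)))
      simp only [On, shift, u_add, u_sub, cl_idx] at h ⊢
      linear_combination -h
    · obtain rfl := idx_inj l
      exact ⟨rfl, (D.inc_iff _ _ _).1 ((on_shift _ _ _).1 h)⟩
    · refine absurd ?_ (hconf _ _ l (idx_lt s) _
        (mem_union_right _ (mem_image.2 ⟨(m, r), mem_univ _, rfl⟩)))
      simp only [On, shift, u_add, u_sub, cl_idx] at h ⊢
      linear_combination h
  · rintro ⟨rfl, h⟩
    exact (on_shift _ _ _).2 ((D.inc_iff _ _ _).2 h)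

include hforb in
theorem forb1 {a b c : Option F} (ha : idx a < idx c) (hb : idx b < idx c) {r₁ r₂ r₃ : G.Row}
    (e₁ : (D.pt a r₁).1 = (D.pt c r₃).1) (e₂ : (D.pt b r₂).1 = (D.pt c r₃).1) {m₁ m₂ m₃ : G.Cell}
    (hne : D.ln a m₁ + p (idx a) ≠ D.ln b m₂ + p (idx b)) {y : Pt F}
    (o₁ : On y (D.ln a m₁ + p (idx a))) (o₂ : On y (D.ln b m₂ + p (idx b)))
    (o₃ : On y (D.ln c m₃ + p (idx c))) : False := by
  refine hforb _ (idx_lt c) _ (mem_union_left _ (mem_image.2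
    ⟨(D.ln a m₁ + p (idx a), D.ln b m₂ + p (idx b), m₃), mem_product.2 ⟨D.mem_pc ha e₁ m₁,
      mem_product.2 ⟨D.mem_pc hb e₂ m₂, mem_univ _⟩⟩, rfl⟩)) ?_
  simp only [meet_eq hne o₁ o₂, cl_idx]
  simp only [On, u_add] at o₃ ⊢
  linear_combination o₃

include hforb in
theorem forb2 {a c : Option F} (ha : idx a < idx c) {r₁ r₃ : G.Row}
    (e₁ : (D.pt a r₁).1 = (D.pt c r₃).1) {m₁ m₂ m₃ : G.Cell}
    (hne : D.ln c m₂ + p (idx c) ≠ D.ln c m₃ + p (idx c)) {y : Pt F}
    (o₁ : On y (D.ln a m₁ + p (idx a))) (o₂ : On y (D.ln c m₂ + p (idx c)))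
    (o₃ : On y (D.ln c m₃ + p (idx c))) : False := by
  have hne' : D.ln c m₂ ≠ D.ln c m₃ := fun e => hne (by rw [e])
  have hy : meet (D.ln c m₂) (D.ln c m₃) = (y.1, y.2 - u y.1 (p (idx c))) := by
    refine meet_eq hne' ?_ ?_
    · simp only [On, u_add] at o₂ ⊢; linear_combination o₂
    · simp only [On, u_add] at o₃ ⊢; linear_combination o₃
  refine hforb _ (idx_lt c) _ (mem_union_right _ (mem_image.2
    ⟨(D.ln a m₁ + p (idx a), m₂, m₃), mem_product.2 ⟨D.mem_pc ha e₁ m₁,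
      mem_product.2 ⟨mem_univ _, mem_univ _⟩⟩, rfl⟩)) ?_
  simp only [hy, cl_idx]
  simp only [On] at o₁ ⊢
  linear_combination -o₁

include hconf hforb in
theorem placed_noconc (a₁ a₂ a₃ : Option F × Fin G.nD) (k₁ k₂ k₃ : Fin 4) (y : Pt F)
    (n₁ : a₁ ≠ a₂) (n₂ : a₁ ≠ a₃) (n₃ : a₂ ≠ a₃)
    (e₁ : (D.pt a₁.1 (G.D a₁.2)).1 = (D.pt a₂.1 (G.D a₂.2)).1)
    (e₂ : (D.pt a₁.1 (G.D a₁.2)).1 = (D.pt a₃.1 (G.D a₃.2)).1)
    (o₁ : On y (D.ln a₁.1 (.inl (a₁.2, k₁)) + p (idx a₁.1)))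
    (o₂ : On y (D.ln a₂.1 (.inl (a₂.2, k₂)) + p (idx a₂.1)))
    (o₃ : On y (D.ln a₃.1 (.inl (a₃.2, k₃)) + p (idx a₃.1))) : False := by
  have ne : ∀ {a b : Option F × Fin G.nD} (k k' : Fin 4), a ≠ b →
      D.ln a.1 (.inl (a.2, k)) + p (idx a.1) ≠ D.ln b.1 (.inl (b.2, k')) + p (idx b.1) := by
    intro a b k k' n e
    have h1 := (D.placed_inc hconf a.1 a.1 (.inl (a.2, k)) (G.D a.2)).2 ⟨rfl, rfl⟩
    rw [e] at h1
    obtain ⟨h2, h3⟩ := (D.placed_inc hconf _ _ _ _).1 h1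
    exact n (Prod.ext h2.symm (Eq.symm h3))
  have e₃ := e₁.symm.trans e₂
  obtain ⟨s₁, d₁⟩ := a₁
  obtain ⟨s₂, d₂⟩ := a₂
  obtain ⟨s₃, d₃⟩ := a₃
  have l₁ := ne k₁ k₂ n₁
  have l₂ := ne k₁ k₃ n₂
  have l₃ := ne k₂ k₃ n₃
  simp only at e₁ e₂ e₃ o₁ o₂ o₃ l₁ l₂ l₃
  rcases lt_trichotomy (idx s₁) (idx s₂) with h12 | h12 | h12
  · rcases lt_trichotomy (idx s₂) (idx s₃) with h23 | h23 | h23
    · exact D.forb1 hforb (h12.trans h23) h23 e₂ e₃ l₁ o₁ o₂ o₃
    · obtain rfl := idx_inj h23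
      exact D.forb2 hforb h12 e₁ l₃ o₁ o₂ o₃
    · exact D.forb1 hforb h12 h23 e₁ e₃.symm l₂ o₁ o₃ o₂
  · obtain rfl := idx_inj h12
    rcases lt_trichotomy (idx s₁) (idx s₃) with h23 | h23 | h23
    · exact D.forb1 hforb h23 h23 e₂ e₃ l₁ o₁ o₂ o₃
    · obtain rfl := idx_inj h23
      refine D.noconc s₁ d₁ d₂ d₃ k₁ k₂ k₃ (y.1, y.2 - u y.1 (p (idx s₁)))
        (fun e => n₁ (by rw [e])) (fun e => n₂ (by rw [e])) (fun e => n₃ (by rw [e])) e₁ e₂ ?_ ?_ ?_
      · simp only [On, u_add] at o₁ ⊢; linear_combination o₁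
      · simp only [On, u_add] at o₂ ⊢; linear_combination o₂
      · simp only [On, u_add] at o₃ ⊢; linear_combination o₃
    · exact D.forb2 hforb h23 e₂.symm l₁ o₃ o₁ o₂
  · rcases lt_trichotomy (idx s₁) (idx s₃) with h13 | h13 | h13
    · exact D.forb1 hforb h13 (h12.trans h13) e₂ e₃ l₁ o₁ o₂ o₃
    · obtain rfl := idx_inj h13
      exact D.forb2 hforb h12 e₁.symm l₂ o₂ o₁ o₃
    · exact D.forb1 hforb h12 h13 e₁.symm e₂.symm l₃ o₂ o₃ o₁

theorem placed_three (w : Ln F) (s : Option F) (l : Ln F) (r₁ r₂ r₃ : G.Row) (n₁ : r₁ ≠ r₂)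
    (n₂ : r₁ ≠ r₃) (n₃ : r₂ ≠ r₃) (o₁ : On (shift w (D.pt s r₁)) l)
    (o₂ : On (shift w (D.pt s r₂)) l) (o₃ : On (shift w (D.pt s r₃)) l) :
    ∃ m, l = D.ln s m + w := by
  rw [on_shift'] at o₁ o₂ o₃
  obtain ⟨m, hm⟩ := D.three s _ r₁ r₂ r₃ n₁ n₂ n₃ o₁ o₂ o₃
  exact ⟨m, by rw [← hm]; simp⟩

open Classical in
theorem hits_eq (a : Option F) (w l : Ln F) (y : Pt F) :
    hits (D.fl (idx a)) w l y = (univ.filter (fun r : G.Row =>
      On (shift w (D.pt a r)) l ∧ ∃ m, G.inc m r ∧ On y (D.ln a m + w))).image (D.pt a) := by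
  ext x
  simp only [hits, fl, mem_image, mem_filter, mem_univ, true_and, cl_idx]
  constructor
  · rintro ⟨f, ⟨⟨z, hz, rfl⟩, h1, h2⟩, rfl⟩
    exact ⟨z.2, ⟨h1, z.1, hz, h2⟩, rfl⟩
  · rintro ⟨r, ⟨h1, m, hm, h2⟩, rfl⟩
    exact ⟨_, ⟨⟨(m, r), hm, rfl⟩, h1, h2⟩, rfl⟩

theorem Zof_eq (p : ℕ → Ln F) : Zof (NN F) (fun s => D.conf s none) p =
    Zset (G := G) (fun a r => shift (p (idx a)) (D.pt a r)) := by
  ext z
  simp only [mem_Zof, Zset, conf, mem_image, mem_filter, mem_univ, true_and]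
  constructor
  · rintro ⟨s, hs, _, ⟨r, hr, rfl⟩, rfl⟩
    exact ⟨(cl s, r), hr, by simp only [idx_cl hs]⟩
  · rintro ⟨⟨a, r⟩, hr, rfl⟩
    exact ⟨idx a, idx_lt a, _, ⟨r, hr, rfl⟩, by simp only [cl_idx]⟩

open Classical in
noncomputable def config
    (hz : ∀ (l : Ln F) (y : Pt F), ¬ On y l →
      (∀ s < NN F, (hits (D.fl s) (p s) l y).card ≤ 2) →
      ∑ s ∈ range (NN F), (hits (D.fl s) (p s) l y).card ≤ 4)
    (hs : Stab (Zof (NN F) (fun s => D.conf s none) p)) : Config G F (Option F) where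
  P := fun a r => shift (p (idx a)) (D.pt a r)
  L := fun a m => D.ln a m + p (idx a)
  inc_iff := D.placed_inc hconf
  P_inj := fun a => (shift_injective _).comp (D.pt_inj a)
  L_inj := fun a m m' h => D.ln_inj a (add_right_cancel h)
  partH := D.partH
  partD := D.partD
  three := fun a => D.placed_three _ a
  noconc := D.placed_noconc hconf hforb
  z4 := by
    intro l y hy hl
    have h1 : ∀ a : Option F, (hits (D.fl (idx a)) (p (idx a)) l y).card =
        (univ.filter (fun r : G.Row => On (shift (p (idx a)) (D.pt a r)) l ∧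
          ∃ m, G.inc m r ∧ On y (D.ln a m + p (idx a)))).card := by
      intro a
      rw [D.hits_eq, card_image_of_injective _ (D.pt_inj a)]
    have h2 := hz l y hy (fun s hs => by
      rw [← idx_cl hs, h1]
      by_contra hc
      obtain ⟨r₁, r₂, r₃, m₁, m₂, m₃, n₁, n₂, n₃⟩ := two_lt_card_iff.1 (not_le.1 hc)
      obtain ⟨m, hm⟩ := D.placed_three _ _ l r₁ r₂ r₃ n₁ n₂ n₃ (mem_filter.1 m₁).2.1
        (mem_filter.1 m₂).2.1 (mem_filter.1 m₃).2.1
      exact hl _ m hm)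
    rw [sum_range_cl (F := F)] at h2
    simp only [h1, card_filter] at h2
    rw [card_filter, Fintype.sum_prod_type]
    convert h2
  surplus := fun i => by simp only [shift_fst]; convert D.surplus i
  stab := D.Zof_eq p ▸ hs

end placed

end Design

end

theorem configStmt_of (hS : StabStmt) (hP : ProcStmt) (hH : HitStmt) (hB : BlkStmt)
    (hZ : Z4Stmt) : ConfigStmt := by
  intro G C₁
  obtain ⟨θ, Kω, hθ, hK, hP⟩ := hP (KK G) C₁ (CC G C₁)
  obtain ⟨L₁, hL₁, hH⟩ := hH (KK G) C₁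
  obtain ⟨c, L₂, hc, hL₂, hB⟩ := hB (KK G) C₁
  obtain ⟨η, ε, C, hη, hε, hC, q₁, hS⟩ := hS Kω c (max L₁ L₂) hK hc (le_max_of_le_left hL₁)
  obtain ⟨q₂, hP⟩ := hP η hη
  obtain ⟨q₃, hH⟩ := hH θ ε C (1 / 6) hθ hε hC (by norm_num)
  obtain ⟨q₄, hB⟩ := hB θ ε (1 / 6) hθ hε (by norm_num)
  obtain ⟨q₅, hZ⟩ := hZ (KK G) θ (1 / 6) hθ (by norm_num)
  refine ⟨q₁ + q₂ + q₃ + q₄ + q₅, fun F _ _ _ hq ⟨D⟩ => ?_⟩
  have hN : NN F ≤ 2 * Fintype.card F := by
    have : 0 < Fintype.card F := Fintype.card_pos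
    simp only [NN, Fintype.card_option]; omega
  have T1 := hH F (by omega) (NN F) (fun s => D.conf s none) hN (fun s => D.conf_card s none)
    D.zr_mult
  have T2 := hB F (by omega) (NN F) (fun s => D.conf s none) hN (fun s => D.conf_card s none)
    D.zr_mult
  have T3 := hZ F (by omega) (NN F) D.fl hN D.fl_card D.fl_on
  obtain ⟨p, ⟨⟨h1, h2⟩, h3⟩, hconf, hforb, hreg⟩ := hP F (by omega) (NN F) D.own D.conf D.forb _ hN
    rfl D.own_card D.own_mult D.conf_card D.conf_dir D.forb_card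
    (((T1.and T2).and T3).mono (by norm_num) (fun p h => h))
  exact ⟨D.config hconf hforb h3 (hS F (by omega) _ hreg (h1.monoL (le_max_left _ _))
    (h2.monoL (le_max_right _ _)))⟩

end Crest.Agent.R34
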