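import Crest.Agent.R34.Blk

/-! Row 34: `hitStmt` and `z4Stmt`, union bounds over counting tests. -/

set_option autoImplicit false
set_option linter.unusedSectionVars false
open Finset

namespace Crest.Agent.R34

namespace HitAux

variable {F : Type} [Field F] [Fintype F] [DecidableEq F]

/-- one test of `Hit` -/
theorem core {θ : ℝ} (hθ : 0 < θ) (R : Finset (Pt F)) {K C₁ N : ℕ}
    {zr : ℕ → Finset (Pt F)} (hK : ∀ s, (zr s).card ≤ K)
    (hC : ∀ i, ((range N).filter (fun s => ∃ x ∈ zr s, x.1 = i)).card ≤ C₁)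
    {r C : ℝ} (hr : 1 < r) (hR : (R.card : ℝ) ≤ C * Fintype.card F) (h : ℕ) :
    Testable θ N (Real.exp (r * (K * C₁ * C) / θ) / r ^ h)
      (fun p => ((Zof N zr p ∩ R).card : ℝ) ≤ K * h) := by
  have hq : (0 : ℝ) < Fintype.card F := card_pos_real
  refine (testable_count hθ N
    (fun t _ => univ.filter (fun w : Ln F => ∃ x ∈ zr t, shift w x ∈ R)) r _ hr h
    (fun p => ?_)).mono le_rfl ?_
  · have h1 : ∑ t ∈ range N, (univ.filter (fun w : Ln F => ∃ x ∈ zr t, shift w x ∈ R)).card ≤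
        Fintype.card F * (K * C₁ * R.card) := by
      refine le_trans ?_ (Nat.mul_le_mul_left _ (BlkAux.sum_part_le hK hC R))
      rw [mul_sum]
      refine sum_le_sum (fun t _ => ?_)
      rw [mul_sum]
      have hsub : univ.filter (fun w : Ln F => ∃ x ∈ zr t, shift w x ∈ R) ⊆
          (zr t).biUnion (fun x => univ.filter (fun w : Ln F => shift w x ∈ R)) := by
        intro w hw
        simp only [mem_filter, mem_univ, true_and, mem_biUnion] at hw ⊢
        exact hw
      refine (card_le_card hsub).trans (card_biUnion_le.trans (le_of_eq ?_))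
      exact sum_congr rfl (fun x _ => card_shift_mem x _)
    have h2 : ∑ t ∈ range N,
        ((univ.filter (fun w : Ln F => ∃ x ∈ zr t, shift w x ∈ R)).card : ℝ) ≤
        Fintype.card F * (K * C₁ * R.card) := by exact_mod_cast h1
    calc _ ≤ _ := h2
      _ ≤ Fintype.card F * (K * C₁ * (C * Fintype.card F)) := by gcongr
      _ = _ := by ring
  · intro p hp
    have hsub : Zof N zr p ∩ R ⊆ ((range N).filter (fun t => p t ∈
        univ.filter (fun w : Ln F => ∃ x ∈ zr t, shift w x ∈ R))).biUnion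
        (fun t => (zr t).image (shift (p t))) := by
      intro z hz
      obtain ⟨hz1, hz2⟩ := mem_inter.1 hz
      obtain ⟨s, hs, x, hx, rfl⟩ := mem_Zof.1 hz1
      exact mem_biUnion.2 ⟨s, mem_filter.2 ⟨mem_range.2 hs,
        mem_filter.2 ⟨mem_univ _, x, hx, hz2⟩⟩, mem_image_of_mem _ hx⟩
    have h1 : (Zof N zr p ∩ R).card ≤ K * h := by
      refine (card_le_card hsub).trans (card_biUnion_le.trans ?_)
      refine (sum_le_sum (fun t _ => card_image_le.trans (hK t))).trans ?_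
      rw [sum_const, smul_eq_mul, mul_comm]
      exact Nat.mul_le_mul_left _ hp.le
    exact_mod_cast h1

theorem cost {q r M ε δ : ℝ} (hr : 1 < r) (hr4 : r ^ 4 = q) (hε : 0 < ε) (hδ : 0 < δ)
    (hM : 2 * M ≤ ε * r) (hq : 96 * Real.exp 1 / (ε ^ 3 * δ) ≤ r ^ 2) :
    (q + 1) * (Real.exp (M * r) * Real.exp (-(ε * r ^ 2)) * Real.exp 1) ≤ δ := by
  have hr0 : 0 < r := by linarith
  have hq1 : 1 ≤ q := by rw [← hr4]; exact one_le_pow₀ hr.le
  have h1 : M * r ≤ ε * r ^ 2 / 2 := by
    nlinarith [mul_le_mul_of_nonneg_right hM hr0.le]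
  have h2 : Real.exp (M * r) * Real.exp (-(ε * r ^ 2)) ≤ Real.exp (-(ε * r ^ 2 / 2)) := by
    rw [← Real.exp_add]
    exact Real.exp_le_exp.2 (by linarith)
  have h3 : (ε * r ^ 2 / 2) ^ 3 / 6 ≤ Real.exp (ε * r ^ 2 / 2) := by
    have := Real.pow_div_factorial_le_exp (ε * r ^ 2 / 2) (by positivity) 3
    simpa [Nat.factorial] using this
  have h4 : Real.exp (-(ε * r ^ 2 / 2)) ≤ 48 / (ε ^ 3 * r ^ 6) := by
    rw [Real.exp_neg, inv_le_comm₀ (Real.exp_pos _) (by positivity), inv_div]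
    calc _ = (ε * r ^ 2 / 2) ^ 3 / 6 := by ring
      _ ≤ _ := h3
  rw [div_le_iff₀ (by positivity)] at hq
  calc (q + 1) * (Real.exp (M * r) * Real.exp (-(ε * r ^ 2)) * Real.exp 1)
      ≤ (q + q) * (48 / (ε ^ 3 * r ^ 6) * Real.exp 1) := by
        gcongr
        exact h2.trans h4
    _ = 96 * Real.exp 1 / (ε ^ 3 * r ^ 2) := by rw [← hr4]; field_simp; ring
    _ ≤ δ := by
        rw [div_le_iff₀ (by positivity)]
        calc _ ≤ _ := hq
          _ = _ := by ring

theorem weight {q r s : ℝ} (hq : 3 ≤ q) (hr4 : r ^ 4 = q) {a : ℕ} (ha : s ≤ a) :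
    1 / r ^ (16 * a) ≤ Real.exp (-s) * (1 / q ^ 3) ^ a := by
  have := BlkAux.weight (ε := s / q) (b := 0) hq hr4 (a := a)
    (by rw [div_mul_cancel₀ _ (by linarith)]; exact ha)
  rw [div_mul_cancel₀ _ (by linarith)] at this
  simpa using this

/-! ### flags -/

/-- shifts under which some flag hits `(l, y)` -/
def Hs (fl : Finset (Pt F × Ln F)) (l : Ln F) (y : Pt F) : Finset (Ln F) :=
  univ.filter (fun w => (hits fl w l y).Nonempty)

theorem card_Hs {fl : Finset (Pt F × Ln F)} (hfl : ∀ f ∈ fl, On f.1 f.2) {l : Ln F} {y : Pt F}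
    (hy : ¬ On y l) : (Hs fl l y).card ≤ fl.card := by
  have hsub : Hs fl l y ⊆ fl.biUnion (fun f =>
      univ.filter (fun w : Ln F => On (shift w f.1) l ∧ On y (f.2 + w))) := by
    intro w hw
    simp only [Hs, hits, mem_filter, mem_univ, true_and, image_nonempty] at hw
    obtain ⟨f, hf⟩ := hw
    rw [mem_filter] at hf
    exact mem_biUnion.2 ⟨f, hf.1, mem_filter.2 ⟨mem_univ _, hf.2⟩⟩
  refine (card_le_card hsub).trans (card_biUnion_le.trans ?_)
  rw [card_eq_sum_ones fl]
  refine sum_le_sum (fun f hf => card_le_one.2 (fun w hw w' hw' => ?_))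
  simp only [mem_filter, mem_univ, true_and] at hw hw'
  have hne : f.1.1 ≠ y.1 := by
    intro e
    have h1 : On (shift w f.1) (f.2 + w) := (on_shift _ _ _).2 (hfl f hf)
    have h2 : shift w f.1 = y := eq_of_on_of_fst h1 hw.2 e
    exact hy (h2 ▸ hw.1)
  refine eq_of_u_eq hne ?_ ?_
  · have h1 := hw.1
    have h2 := hw'.1
    simp only [On, shift] at h1 h2
    linear_combination h2 - h1
  · have h1 := hw.2
    have h2 := hw'.2
    simp only [On, u_add] at h1 h2
    linear_combination h1 - h2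

/-- pairs `(l, y)` that are hit twice -/
def Dbl (fl : Finset (Pt F × Ln F)) (w : Ln F) : Finset (Ln F × Pt F) :=
  univ.filter (fun a => ¬ On a.2 a.1 ∧ 2 ≤ (hits fl w a.1 a.2).card)

theorem card_Dbl {fl : Finset (Pt F × Ln F)} (hfl : ∀ f ∈ fl, On f.1 f.2) (w : Ln F) :
    (Dbl fl w).card ≤ fl.card ^ 2 := by
  have hsub : Dbl fl w ⊆ (fl ×ˢ fl).biUnion (fun g =>
      univ.filter (fun a : Ln F × Pt F => g.1.1 ≠ g.2.1 ∧ ¬ On a.2 a.1 ∧
        (On (shift w g.1.1) a.1 ∧ On a.2 (g.1.2 + w)) ∧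
        (On (shift w g.2.1) a.1 ∧ On a.2 (g.2.2 + w)))) := by
    intro a ha
    simp only [Dbl, mem_filter, mem_univ, true_and] at ha
    obtain ⟨x, hx, x', hx', hne⟩ := one_lt_card.1 ha.2
    simp only [hits, mem_image, mem_filter] at hx hx'
    obtain ⟨f, hf, rfl⟩ := hx
    obtain ⟨f', hf', rfl⟩ := hx'
    exact mem_biUnion.2 ⟨(f, f'), mem_product.2 ⟨hf.1, hf'.1⟩,
      mem_filter.2 ⟨mem_univ _, hne, ha.1, hf.2, hf'.2⟩⟩
  refine (card_le_card hsub).trans (card_biUnion_le.trans ?_)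
  rw [sq, ← card_product, card_eq_sum_ones (fl ×ˢ fl)]
  refine sum_le_sum (fun g hg => card_le_one.2 (fun a ha a' ha' => ?_))
  simp only [mem_filter, mem_univ, true_and] at ha ha'
  obtain ⟨hne, hy, ⟨h1, h2⟩, h3, h4⟩ := ha
  obtain ⟨-, -, ⟨h1', h2'⟩, h3', h4'⟩ := ha'
  have hne' : shift w g.1.1 ≠ shift w g.2.1 := fun e => hne (shift_injective w e)
  have hg1 : On (shift w g.1.1) (g.1.2 + w) := (on_shift _ _ _).2 (hfl _ (mem_product.1 hg).1)
  have hg2 : On (shift w g.2.1) (g.2.2 + w) := (on_shift _ _ _).2 (hfl _ (mem_product.1 hg).2)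
  have hl : g.1.2 + w ≠ g.2.2 + w := by
    intro e
    have : a.1 = g.1.2 + w := line_unique hne' h1 h3 hg1 (e ▸ hg2)
    exact hy (this ▸ h2)
  exact Prod.ext (line_unique hne' h1 h3 h1' h3') (point_unique hl h2 h4 h2' h4')

theorem sum_Hs {K N : ℕ} {fl : ℕ → Finset (Pt F × Ln F)} (hN : N ≤ 2 * Fintype.card F)
    (hK : ∀ s, (fl s).card ≤ K) (hfl : ∀ s, ∀ f ∈ fl s, On f.1 f.2) {l : Ln F} {y : Pt F}
    (hy : ¬ On y l) : ∑ t ∈ range N, ((Hs (fl t) l y).card : ℝ) ≤ 2 * K * Fintype.card F := by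
  have h : ∑ t ∈ range N, (Hs (fl t) l y).card ≤ 2 * K * Fintype.card F := by
    refine (sum_le_sum (fun t _ => (card_Hs (hfl t) hy).trans (hK t))).trans ?_
    rw [sum_const, card_range, smul_eq_mul]
    nlinarith
  exact_mod_cast h

theorem test1 {θ : ℝ} (hθ : 0 < θ) {K N : ℕ} {fl : ℕ → Finset (Pt F × Ln F)}
    (hN : N ≤ 2 * Fintype.card F) (hK : ∀ s, (fl s).card ≤ K)
    (hfl : ∀ s, ∀ f ∈ fl s, On f.1 f.2) (hq : (1 : ℝ) < Fintype.card F) {l : Ln F} {y : Pt F}
    (hy : ¬ On y l) :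
    Testable θ N (Real.exp (2 * K / θ) / (Fintype.card F : ℝ) ^ 5)
      (fun p => ((range N).filter (fun t => p t ∈ Hs (fl t) l y)).card < 5) := by
  have hq0 : (0 : ℝ) < Fintype.card F := card_pos_real
  refine (testable_count hθ N (fun t _ => Hs (fl t) l y) (Fintype.card F)
    (2 * K / Fintype.card F) hq 5 (fun p => ?_)).mono (le_of_eq ?_) (fun p hp => hp)
  · refine (sum_Hs hN hK hfl hy).trans (le_of_eq ?_)
    field_simp
  · congr 2
    field_simp

theorem test2 {θ : ℝ} (hθ : 0 < θ) {K N : ℕ} {fl : ℕ → Finset (Pt F × Ln F)}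
    (hN : N ≤ 2 * Fintype.card F) (hK : ∀ s, (fl s).card ≤ K)
    (hfl : ∀ s, ∀ f ∈ fl s, On f.1 f.2) (hq : (1 : ℝ) < Fintype.card F) {l : Ln F} {y : Pt F}
    (hy : ¬ On y l) {s₀ : ℕ} (hs : s₀ ∈ range N) (w₀ : Ln F) :
    Testable θ N (Real.exp ((1 + 2 * K) / θ) / (Fintype.card F : ℝ) ^ 4)
      (fun p => p s₀ = w₀ →
        (((range N).erase s₀).filter (fun t => p t ∈ Hs (fl t) l y)).card < 2) := by
  have hq0 : (0 : ℝ) < Fintype.card F := card_pos_real
  set q : ℝ := (Fintype.card F : ℝ) with hqd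
  refine (testable_mul hθ N (fun t _ w => if t = s₀ then (if w = w₀ then q ^ 2 else 1)
    else (if w ∈ Hs (fl t) l y then q else 1)) (fun t _ w => ?_) (1 + 2 * K) (q ^ 4)
    (by positivity) (fun p => ?_)).mono le_rfl ?_
  · split_ifs
    · nlinarith
    · exact le_rfl
    · exact hq.le
    · exact le_rfl
  · calc ∑ t ∈ range N, ∑ w, ((if t = s₀ then (if w = w₀ then q ^ 2 else 1)
          else (if w ∈ Hs (fl t) l y then q else 1)) - 1)
        ≤ ∑ t ∈ range N, ((if t = s₀ then q ^ 2 else 0) + q * (Hs (fl t) l y).card) := by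
          refine sum_le_sum (fun t _ => ?_)
          split_ifs with h
          · calc ∑ w, ((if w = w₀ then q ^ 2 else 1) - 1)
                ≤ ∑ w, (if w = w₀ then q ^ 2 else 0) :=
                  sum_le_sum (fun w _ => by split_ifs <;> linarith)
              _ = q ^ 2 := by simp
              _ ≤ _ := le_add_of_nonneg_right (by positivity)
          · calc ∑ w, ((if w ∈ Hs (fl t) l y then q else 1) - 1)
                ≤ ∑ w, (if w ∈ Hs (fl t) l y then q else 0) :=
                  sum_le_sum (fun w _ => by split_ifs <;> linarith)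
              _ = _ := by
                  rw [sum_ite_mem, univ_inter, sum_const, nsmul_eq_mul, mul_comm, zero_add]
      _ = q ^ 2 + q * ∑ t ∈ range N, ((Hs (fl t) l y).card : ℝ) := by
          rw [sum_add_distrib, sum_ite_eq', if_pos hs, mul_sum]
      _ ≤ q ^ 2 + q * (2 * K * q) := by
          have := sum_Hs hN hK hfl hy
          gcongr
      _ = _ := by ring
  · intro p hp h0
    rw [← mul_prod_erase _ _ hs, if_pos rfl, if_pos h0,
      prod_congr rfl (fun t ht => if_neg (ne_of_mem_erase ht)), prod_ite, prod_const_one, mul_one,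
      prod_const, ← pow_add] at hp
    have := (pow_lt_pow_iff_right₀ hq).1 hp
    omega

end HitAux

open HitAux in
theorem hitStmt : HitStmt := by
  intro K C₁
  refine ⟨16 * (K + 1), by linarith [(Nat.cast_nonneg K : (0 : ℝ) ≤ K)],
    fun θ ε C δ hθ hε hCp hδ => ?_⟩
  set M : ℝ := K * C₁ * C / θ with hM
  have hM0 : 0 ≤ M := by positivity
  obtain ⟨q₀, hq₀⟩ := exists_nat_ge
    (3 + (2 * M / ε) ^ 4 + (96 * Real.exp 1 / (ε ^ 3 * δ)) ^ 2)
  refine ⟨q₀, fun F _ _ _ hq N zr _ hK hC => ?_⟩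
  classical
  have hq' : (q₀ : ℝ) ≤ Fintype.card F := by exact_mod_cast hq
  have e1 : 0 ≤ (2 * M / ε) ^ 4 := by positivity
  have e2 : 0 ≤ (96 * Real.exp 1 / (ε ^ 3 * δ)) ^ 2 := by positivity
  have hq2 : (2 * M / ε) ^ 4 ≤ Fintype.card F := by linarith
  have hq3 : (96 * Real.exp 1 / (ε ^ 3 * δ)) ^ 2 ≤ Fintype.card F := by linarith
  have hq4 : (3 : ℝ) ≤ Fintype.card F := by linarith
  set r : ℝ := Real.sqrt (Real.sqrt (Fintype.card F)) with hrdef
  have hr0 : 0 ≤ r := Real.sqrt_nonneg _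
  have hr4 : r ^ 4 = Fintype.card F := by
    rw [show r ^ 4 = (r ^ 2) ^ 2 by ring, hrdef, Real.sq_sqrt (Real.sqrt_nonneg _),
      Real.sq_sqrt (by linarith)]
  have hr : 1 < r := by
    by_contra hlt
    have := pow_le_one₀ hr0 (not_lt.1 hlt) (n := 4)
    linarith
  have hMr : 2 * M ≤ ε * r := by
    rw [← hr4] at hq2
    have := (pow_le_pow_iff_left₀ (by positivity) hr0 (by norm_num)).1 hq2
    rw [div_le_iff₀ hε] at this
    linarith
  have hq5 : 96 * Real.exp 1 / (ε ^ 3 * δ) ≤ r ^ 2 := by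
    rw [← hr4, show r ^ 4 = (r ^ 2) ^ 2 by ring] at hq3
    exact (pow_le_pow_iff_left₀ (by positivity) (by positivity) two_ne_zero).1 hq3
  let I₀ : Finset (Finset (Pt F) × ℕ) := univ ×ˢ range (Fintype.card F + 1)
  let I := I₀.filter (fun i => ε * r ^ 2 ≤ i.1.card ∧
    ((dec i.1 i.2).card : ℝ) ≤ C * Fintype.card F)
  refine (testable_forall I (fun i hi => core hθ (dec i.1 i.2) hK hC hr
    (mem_filter.1 hi).2.2 (16 * i.1.card))).mono ?_ ?_
  · have hE : r * (K * C₁ * C) / θ = M * r := by rw [hM]; ring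
    rw [hE]
    calc ∑ i ∈ I, Real.exp (M * r) / r ^ (16 * i.1.card)
        ≤ ∑ i ∈ I, Real.exp (M * r) * Real.exp (-(ε * r ^ 2)) *
            (1 / (Fintype.card F : ℝ) ^ 3) ^ i.1.card := by
          refine sum_le_sum (fun i hi => ?_)
          rw [div_eq_mul_one_div, mul_assoc]
          exact mul_le_mul_of_nonneg_left (weight hq4 hr4 (mem_filter.1 hi).2.1)
            (Real.exp_pos _).le
      _ ≤ ∑ i ∈ I₀, Real.exp (M * r) * Real.exp (-(ε * r ^ 2)) *
            (1 / (Fintype.card F : ℝ) ^ 3) ^ i.1.card :=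
          sum_le_sum_of_subset_of_nonneg (filter_subset _ _) (fun _ _ _ => by positivity)
      _ = ((Fintype.card F : ℝ) + 1) * (Real.exp (M * r) * Real.exp (-(ε * r ^ 2)) *
            (∑ X : Finset (Pt F), (1 / (Fintype.card F : ℝ) ^ 3) ^ X.card)) := by
          rw [sum_product]
          simp only [sum_const, card_range, nsmul_eq_mul]
          rw [← mul_sum, ← mul_sum]
          push_cast
          ring
      _ ≤ ((Fintype.card F : ℝ) + 1) * (Real.exp (M * r) * Real.exp (-(ε * r ^ 2)) *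
            Real.exp 1) := by
          have := BlkAux.sum_gen (F := F) hq4
          gcongr
      _ ≤ δ := cost hr hr4 hε hδ hMr hq5
  · intro p hp X J hX hcard
    have hdec : dec X J = dec X (min J (Fintype.card F)) := by
      ext y
      simp only [mem_dec, le_min_iff]
      exact ⟨fun h => ⟨h, cnt_le X y⟩, fun h => h.1⟩
    have hi : (X, min J (Fintype.card F)) ∈ I := by
      refine mem_filter.2 ⟨?_, ?_, by rw [← hdec]; exact hcard⟩
      · simp only [I₀, mem_product, mem_univ, mem_range, true_and]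
        exact Nat.lt_succ_of_le (min_le_right _ _)
      · refine (pow_le_pow_iff_left₀ (by positivity) (by positivity) two_ne_zero).1 ?_
        calc (ε * r ^ 2) ^ 2 = ε ^ 2 * r ^ 4 := by ring
          _ ≤ _ := by rw [hr4]; exact hX
    have h2 := hp _ hi
    simp only [← hdec] at h2
    refine h2.trans ?_
    push_cast
    have : (0 : ℝ) ≤ (X.card : ℝ) := by positivity
    nlinarith

open HitAux in
theorem z4Stmt : Z4Stmt := by
  intro K θ δ hθ hδ
  obtain ⟨q₀, hq₀⟩ := exists_nat_ge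
    (2 + (2 * Real.exp (2 * K / θ) + 2 * K ^ 2 * Real.exp ((1 + 2 * K) / θ)) / δ)
  refine ⟨q₀, fun F _ _ _ hq N fl hN hK hfl => ?_⟩
  classical
  have hq' : (q₀ : ℝ) ≤ Fintype.card F := by exact_mod_cast hq
  have e1 : 0 ≤ (2 * Real.exp (2 * K / θ) + 2 * K ^ 2 * Real.exp ((1 + 2 * K) / θ)) / δ := by
    positivity
  have hq1 : (1 : ℝ) < Fintype.card F := by linarith
  have hq2 : (2 * Real.exp (2 * K / θ) + 2 * K ^ 2 * Real.exp ((1 + 2 * K) / θ)) / δ ≤
      Fintype.card F := by linarith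
  have hq0 : (0 : ℝ) < Fintype.card F := by linarith
  let I₁ : Finset (Ln F × Pt F) := univ.filter (fun a => ¬ On a.2 a.1)
  let I₂ : Finset ((_ : ℕ × Ln F) × (Ln F × Pt F)) :=
    (range N ×ˢ univ).sigma (fun b => Dbl (fl b.1) b.2)
  have T1 := testable_forall I₁ (fun a ha => test1 hθ hN hK hfl hq1 (mem_filter.1 ha).2)
  have T2 := testable_forall I₂ (fun i hi => test2 hθ hN hK hfl hq1
    (mem_filter.1 (mem_sigma.1 hi).2).2.1 (mem_product.1 (mem_sigma.1 hi).1).1 i.1.2)
  refine (T1.and T2).mono ?_ ?_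
  · rw [sum_const, sum_const, nsmul_eq_mul, nsmul_eq_mul]
    have h1 : (I₁.card : ℝ) ≤ 2 * (Fintype.card F : ℝ) ^ 4 := by
      have : I₁.card ≤ Fintype.card F ^ 2 * ((Fintype.card F + 1) * Fintype.card F) := by
        rw [← card_Ln, ← card_Pt, ← Fintype.card_prod]
        exact card_le_univ _
      have h : (I₁.card : ℝ) ≤
          (Fintype.card F : ℝ) ^ 2 * ((Fintype.card F + 1) * Fintype.card F) := by
        exact_mod_cast this
      refine h.trans ?_
      nlinarith [mul_le_mul_of_nonneg_right hq1.le (pow_pos hq0 3).le]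
    have h2 : (I₂.card : ℝ) ≤ 2 * K ^ 2 * (Fintype.card F : ℝ) ^ 3 := by
      have : I₂.card ≤ 2 * K ^ 2 * Fintype.card F ^ 3 := by
        rw [card_sigma]
        refine (sum_le_sum (fun b _ => (card_Dbl (hfl b.1) b.2).trans
          (Nat.pow_le_pow_left (hK b.1) 2))).trans ?_
        rw [sum_const, card_product, card_range, card_univ, card_Ln, smul_eq_mul]
        calc N * Fintype.card F ^ 2 * K ^ 2 ≤ 2 * Fintype.card F * Fintype.card F ^ 2 * K ^ 2 := by
              gcongr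
          _ = _ := by ring
      exact_mod_cast this
    rw [div_le_iff₀ hδ] at hq2
    calc (I₁.card : ℝ) * (Real.exp (2 * K / θ) / (Fintype.card F : ℝ) ^ 5) +
          I₂.card * (Real.exp ((1 + 2 * K) / θ) / (Fintype.card F : ℝ) ^ 4)
        ≤ 2 * (Fintype.card F : ℝ) ^ 4 * (Real.exp (2 * K / θ) / (Fintype.card F : ℝ) ^ 5) +
          2 * K ^ 2 * (Fintype.card F : ℝ) ^ 3 *
            (Real.exp ((1 + 2 * K) / θ) / (Fintype.card F : ℝ) ^ 4) := by gcongr
      _ = (2 * Real.exp (2 * K / θ) + 2 * K ^ 2 * Real.exp ((1 + 2 * K) / θ)) /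
            Fintype.card F := by field_simp
      _ ≤ δ := by rw [div_le_iff₀ hq0]; linarith
  · rintro p ⟨hp1, hp2⟩ l y hy h2
    have hz : ∀ s, p s ∉ Hs (fl s) l y → (hits (fl s) (p s) l y).card = 0 := by
      intro s hs
      simp only [Hs, mem_filter, mem_univ, true_and, not_nonempty_iff_eq_empty] at hs
      rw [hs, card_empty]
    have hb : ∀ c : ℕ, (∀ s < N, (hits (fl s) (p s) l y).card ≤ c) →
        ∑ s ∈ range N, (hits (fl s) (p s) l y).card ≤
          ((range N).filter (fun t => p t ∈ Hs (fl t) l y)).card * c := by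
      intro c hc
      rw [← smul_eq_mul, ← sum_const, sum_filter]
      refine sum_le_sum (fun s hs => ?_)
      split_ifs with h
      · exact hc s (mem_range.1 hs)
      · exact (hz s h).le
    by_cases hd : ∃ s < N, 2 ≤ (hits (fl s) (p s) l y).card
    · obtain ⟨s, hs, hs2⟩ := hd
      have hi : (⟨(s, p s), (l, y)⟩ : (_ : ℕ × Ln F) × (Ln F × Pt F)) ∈ I₂ :=
        mem_sigma.2 ⟨mem_product.2 ⟨mem_range.2 hs, mem_univ _⟩,
          mem_filter.2 ⟨mem_univ _, hy, hs2⟩⟩
      have h3 := hp2 _ hi rfl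
      rw [filter_erase] at h3
      have h4 := pred_card_le_card_erase (s := (range N).filter (fun t => p t ∈ Hs (fl t) l y))
        (a := s)
      have h5 := hb 2 h2
      simp only at h3
      omega
    · push Not at hd
      have h3 := hp1 (l, y) (mem_filter.2 ⟨mem_univ _, hy⟩)
      have h5 := hb 1 (fun s hs => Nat.lt_succ_iff.1 (hd s hs))
      simp only at h3
      omega

end Crest.Agent.R34
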