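import Crest.Agent.R34.Proc1

/-! The importance-weighted process: history, invariants, conclusion. -/

set_option autoImplicit false
set_option linter.unusedSectionVars false
open Finset

namespace Crest.Agent.R34

/-- data and numerical assumptions of the process -/
structure Ctx (F : Type) [Field F] [Fintype F] [DecidableEq F] where
  N : ℕ
  own : Option ℕ → Finset (Option F)
  conf : ℕ → Option ℕ → Finset (Pt F)
  Forb : ℕ → (ℕ → Ln F) → Finset (Pt F)
  K : ℕ
  C₁ : ℕ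
  C₃ : ℕ
  K₁ : ℝ
  K₃ : ℝ
  η : ℝ
  B : ℝ
  lam : ℝ
  q : ℝ
  hq : q = Fintype.card F
  hN : N ≤ 2 * Fintype.card F
  own_card : ∀ c, (own c).card ≤ K
  own_mult : ∀ i, ((range N).filter (fun s => i ∈ own (some s))).card ≤ C₁
  conf_card : ∀ s c, (conf s c).card ≤ K
  conf_dir : ∀ s c, ∀ x ∈ conf s c, x.1 ∈ own (some s) ∨ x.1 ∈ own c
  forb_card : ∀ t p, (Forb t p).card ≤ C₃
  hK₁ : K₁ = Real.exp (64 * K + 1)
  hK₃ : K₃ = Real.exp (32 * K * K₁)
  hη0 : 0 < η
  hη : η ≤ 1 / 4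
  hB : B = 32 * K * K₁ + K * K₃ + 1
  hlam : lam = η / (4 * B ^ 2)
  hq1 : 16 * K * K₁ ≤ q
  hq2 : 32 * K * K₁ * C₁ ≤ η * q
  hq3 : (C₁ : ℝ) * K ≤ η * q
  hq4 : 8 * C₃ * K₁ ≤ q
  hq5 : K ≤ Fintype.card F

namespace Ctx
variable {F : Type} [Field F] [Fintype F] [DecidableEq F] (c : Ctx F)

/-- weights and common survival factors after `t` steps -/
noncomputable def st (p : ℕ → Ln F) : ℕ → (Option ℕ → Ln F → ℝ) × (Option ℕ → Pt F → ℝ)
  | 0 => (fun _ _ => 1, fun _ _ => 1)
  | t + 1 =>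
    (fun a => newW (law ((st p t).1 (some t)) (c.Forb t (trunc t p))) (c.conf t a) (p t)
        ((st p t).1 a),
      fun a x => (st p t).2 a x *
        (1 - kapc (law ((st p t).1 (some t)) (c.Forb t (trunc t p))) (c.conf t a) x))

noncomputable def mu (p : ℕ → Ln F) (t : ℕ) : Ln F → ℝ :=
  law ((c.st p t).1 (some t)) (c.Forb t (trunc t p))

def al (p : ℕ → Ln F) (t : ℕ) (a : Option ℕ) (x : Pt F) : Prop :=
  ∀ s ∈ range t, ¬ com (c.conf s a) (p s) x

def dead (p : ℕ → Ln F) (t : ℕ) (a : Option ℕ) (w : Ln F) : Prop :=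
  ∃ s < t, kill (c.conf s a) (p s) w

instance (p : ℕ → Ln F) (t : ℕ) (a : Option ℕ) (x : Pt F) : Decidable (c.al p t a x) := by
  unfold al; infer_instance

noncomputable def X (p : ℕ → Ln F) (t : ℕ) (a : Option ℕ) (x : Pt F) : ℝ :=
  (c.st p t).2 a x * lsum ((c.st p t).1 a) x

noncomputable def off (t : ℕ) : ℝ := c.lam * c.η * c.q / 2 + t * (c.lam ^ 2 * c.B ^ 2)

noncomputable def term (p : ℕ → Ln F) (t : ℕ) (a : Option ℕ) (x : Pt F) : ℝ :=
  if c.al p t a x then Real.exp (c.lam * (c.X p t a x - c.q) - c.off t) +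
    Real.exp (-c.lam * (c.X p t a x - c.q) - c.off t) else 0

noncomputable def pot (p : ℕ → Ln F) (t : ℕ) : ℝ :=
  ∑ a ∈ insertNone (range c.N), ∑ x, c.term p t a x

noncomputable def κ₀ : ℝ := 8 * c.K * c.K₁ / c.q
noncomputable def κ₁ : ℝ := 16 * c.K / c.q

theorem st_update (p : ℕ → Ln F) (w : Ln F) {t t' : ℕ} (h : t ≤ t') :
    c.st (Function.update p t' w) t = c.st p t := by
  induction t with
  | zero => rfl
  | succ t ih =>
    simp only [st]
    rw [ih (by omega), trunc_update_of_le (by omega), Function.update_of_ne (by omega)]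

theorem st_succ_update (p : ℕ → Ln F) (w : Ln F) (t : ℕ) :
    c.st (Function.update p t w) (t + 1) =
      (fun a => newW (c.mu p t) (c.conf t a) w ((c.st p t).1 a),
        fun a x => (c.st p t).2 a x * (1 - kapc (c.mu p t) (c.conf t a) x)) := by
  simp only [st, mu]
  rw [c.st_update p w le_rfl, trunc_update_of_le le_rfl, Function.update_self]

theorem al_succ_update (p : ℕ → Ln F) (w : Ln F) (t : ℕ) (a : Option ℕ) (x : Pt F) :
    c.al (Function.update p t w) (t + 1) a x ↔ c.al p t a x ∧ ¬ com (c.conf t a) w x := by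
  simp only [al, mem_range]
  constructor
  · intro h
    refine ⟨fun s hs => ?_, ?_⟩
    · have := h s (by omega)
      rwa [Function.update_of_ne hs.ne] at this
    · simpa using h t (by omega)
  · rintro ⟨h1, h2⟩ s hs
    rcases Nat.lt_succ_iff_lt_or_eq.1 hs with h | rfl
    · rw [Function.update_of_ne h.ne]; exact h1 s h
    · simpa using h2

theorem dead_succ_update (p : ℕ → Ln F) (w : Ln F) (t : ℕ) (a : Option ℕ) (w' : Ln F) :
    c.dead (Function.update p t w) (t + 1) a w' ↔ c.dead p t a w' ∨ kill (c.conf t a) w w' := by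
  simp only [dead]
  constructor
  · rintro ⟨s, hs, h⟩
    rcases Nat.lt_succ_iff_lt_or_eq.1 hs with h' | rfl
    · rw [Function.update_of_ne h'.ne] at h; exact Or.inl ⟨s, h', h⟩
    · right; simpa using h
  · rintro (⟨s, hs, h⟩ | h)
    · exact ⟨s, by omega, by rwa [Function.update_of_ne hs.ne]⟩
    · exact ⟨t, by omega, by simpa using h⟩

theorem q_pos : 0 < c.q := c.hq ▸ card_pos_real

theorem K₁_ge : 2 ≤ c.K₁ := by
  rw [c.hK₁]
  have : (0 : ℝ) ≤ c.K := Nat.cast_nonneg _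
  linarith [Real.add_one_le_exp (64 * (c.K : ℝ) + 1)]

theorem K₃_ge : 1 ≤ c.K₃ := by
  rw [c.hK₃]
  have := c.K₁_ge
  exact Real.one_le_exp (by positivity)

theorem B_ge : 1 ≤ c.B := by
  have := c.K₁_ge
  have := c.K₃_ge
  have h : 0 ≤ 32 * c.K * c.K₁ + c.K * c.K₃ := by positivity
  rw [c.hB]; linarith

theorem lam_pos : 0 < c.lam := by
  have := c.B_ge
  have := c.hη0
  rw [c.hlam]; positivity

theorem lam_B2 : c.lam * c.B ^ 2 = c.η / 4 := by
  have := c.B_ge
  rw [c.hlam]; field_simp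

theorem lam_B : |c.lam| * c.B ≤ 1 := by
  rw [abs_of_pos c.lam_pos]
  have := c.lam_B2
  have := c.B_ge
  have := c.hη
  have := c.lam_pos
  nlinarith

theorem κ₀_nonneg : 0 ≤ c.κ₀ := by
  have := c.K₁_ge
  have := c.q_pos
  unfold κ₀; positivity

theorem κ₁_nonneg : 0 ≤ c.κ₁ := by
  have := c.q_pos
  unfold κ₁; positivity

theorem κ₀_le : c.κ₀ ≤ 1 / 2 := by
  rw [κ₀, div_le_iff₀ c.q_pos]
  linarith [c.hq1]

theorem κ₁_le : c.κ₁ ≤ c.κ₀ := by
  refine div_le_div_of_nonneg_right ?_ c.q_pos.le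
  have : (0 : ℝ) ≤ c.K := Nat.cast_nonneg _
  nlinarith [c.K₁_ge]

theorem κ₀_C₁ : 2 * (c.κ₀ * c.C₁) ≤ c.η / 2 := by
  have : c.κ₀ * c.C₁ = 8 * c.K * c.K₁ * c.C₁ / c.q := by unfold κ₀; ring
  rw [this]
  have h2 : 8 * c.K * c.K₁ * c.C₁ / c.q ≤ c.η / 4 := by
    rw [div_le_iff₀ c.q_pos]; linarith [c.hq2]
  linarith

theorem N_le : (c.N : ℝ) ≤ 2 * c.q := by rw [c.hq]; exact_mod_cast c.hN

/-- invariants about the weights -/
structure Inv (p : ℕ → Ln F) (t : ℕ) : Prop where
  live : ∀ a w, ¬ c.dead p t a w → 1 ≤ (c.st p t).1 a w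
  dead : ∀ a w, c.dead p t a w → (c.st p t).1 a w = 0
  up : ∀ a w, (c.st p t).1 a w ≤ Real.exp (2 * c.κ₀ * t)
  g1 : ∀ a x, (c.st p t).2 a x ≤ 1
  g0 : ∀ a x, Real.exp (-(2 * ((if x.1 ∈ c.own a then c.κ₁ * t else 0) +
    c.κ₀ * ((range t).filter (fun s => x.1 ∈ c.own (some s))).card))) ≤ (c.st p t).2 a x

theorem term_nonneg (p : ℕ → Ln F) (t : ℕ) (a : Option ℕ) (x : Pt F) : 0 ≤ c.term p t a x := by
  unfold term; split_ifs <;> positivity

theorem pot_nonneg (p : ℕ → Ln F) (t : ℕ) : 0 ≤ c.pot p t :=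
  sum_nonneg (fun a _ => sum_nonneg (fun x _ => c.term_nonneg p t a x))

variable {c}
variable {p : ℕ → Ln F} {t : ℕ}

theorem Inv.w0 (h : c.Inv p t) (a : Option ℕ) (w : Ln F) : 0 ≤ (c.st p t).1 a w := by
  by_cases hd : c.dead p t a w
  · exact (h.dead a w hd).ge
  · linarith [h.live a w hd]

theorem Inv.wK (h : c.Inv p t) (ht : t ≤ c.N) (a : Option ℕ) (w : Ln F) :
    (c.st p t).1 a w ≤ c.K₃ := by
  refine (h.up a w).trans ?_
  rw [c.hK₃, Real.exp_le_exp]
  have h1 : (t : ℝ) ≤ 2 * c.q := le_trans (by exact_mod_cast ht) c.N_le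
  have h2 : c.κ₀ * c.q = 8 * c.K * c.K₁ := by
    have := c.q_pos
    unfold κ₀; field_simp
  nlinarith [c.κ₀_nonneg]

theorem cnt_le (ht : t ≤ c.N) (i : Option F) :
    (((range t).filter (fun s => i ∈ c.own (some s))).card : ℝ) ≤ c.C₁ := by
  exact_mod_cast (card_le_card (filter_subset_filter _ (range_mono ht))).trans (c.own_mult i)

theorem Inv.g_gen (h : c.Inv p t) (ht : t ≤ c.N) {a : Option ℕ} {x : Pt F} (hx : x.1 ∉ c.own a) :
    1 - c.η / 2 ≤ (c.st p t).2 a x := by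
  refine le_trans ?_ (h.g0 a x)
  rw [if_neg hx, zero_add]
  have h1 := mul_le_mul_of_nonneg_left (cnt_le ht x.1) c.κ₀_nonneg
  have h2 := Real.add_one_le_exp
    (-(2 * (c.κ₀ * ((range t).filter (fun s => x.1 ∈ c.own (some s))).card)))
  linarith [c.κ₀_C₁]

theorem Inv.g_all (h : c.Inv p t) (ht : t ≤ c.N) (a : Option ℕ) (x : Pt F) :
    1 ≤ c.K₁ * (c.st p t).2 a x := by
  refine le_trans ?_ (mul_le_mul_of_nonneg_left (h.g0 a x) (by linarith [c.K₁_ge]))
  rw [c.hK₁, ← Real.exp_add]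
  refine Real.one_le_exp ?_
  have h1 := mul_le_mul_of_nonneg_left (cnt_le ht x.1) c.κ₀_nonneg
  have h2 : (if x.1 ∈ c.own a then c.κ₁ * t else 0) ≤ 32 * c.K := by
    have h3 : (t : ℝ) ≤ 2 * c.q := le_trans (by exact_mod_cast ht) c.N_le
    have h4 : c.κ₁ * c.q = 16 * c.K := by
      have := c.q_pos
      unfold κ₁; field_simp
    split_ifs
    · nlinarith [c.κ₁_nonneg]
    · positivity
  linarith [c.κ₀_C₁, c.hη]

theorem Inv.g_pos (h : c.Inv p t) (a : Option ℕ) (x : Pt F) : 0 < (c.st p t).2 a x :=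
  lt_of_lt_of_le (Real.exp_pos _) (h.g0 a x)

theorem X_near (ht : t ≤ c.N) (hp : c.pot p t < 1) {a : Option ℕ} (ha : a ∈ insertNone (range c.N))
    {x : Pt F} (hx : c.al p t a x) :
    (1 - c.η) * c.q ≤ c.X p t a x ∧ c.X p t a x ≤ (1 + c.η) * c.q := by
  have h1 : c.term p t a x < 1 := by
    refine lt_of_le_of_lt ?_ hp
    refine le_trans ?_ (single_le_sum (f := fun a => ∑ x, c.term p t a x)
      (fun a _ => sum_nonneg (fun x _ => c.term_nonneg p t a x)) ha)
    exact single_le_sum (f := fun x => c.term p t a x) (fun x _ => c.term_nonneg p t a x)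
      (mem_univ x)
  rw [term, if_pos hx] at h1
  have e1 := Real.exp_pos (c.lam * (c.X p t a x - c.q) - c.off t)
  have e2 := Real.exp_pos (-c.lam * (c.X p t a x - c.q) - c.off t)
  have h2 : c.lam * (c.X p t a x - c.q) - c.off t < 0 := by
    rw [← Real.exp_lt_one_iff]; linarith
  have h3 : -c.lam * (c.X p t a x - c.q) - c.off t < 0 := by
    rw [← Real.exp_lt_one_iff]; linarith
  have h4 : c.off t ≤ c.lam * (c.η * c.q) := by
    have h5 : (t : ℝ) ≤ 2 * c.q := le_trans (by exact_mod_cast ht) c.N_le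
    have h6 : c.lam ^ 2 * c.B ^ 2 = c.lam * (c.η / 4) := by rw [← c.lam_B2]; ring
    have h7 : 0 ≤ c.lam * (c.η / 4) := by have := c.lam_pos; have := c.hη0; positivity
    rw [off, h6]
    nlinarith
  have hl := c.lam_pos
  constructor
  · by_contra hc
    push Not at hc
    nlinarith
  · by_contra hc
    push Not at hc
    nlinarith

theorem Inv.lsum_dead (h : c.Inv p t) {a : Option ℕ} {x : Pt F} (hx : ¬ c.al p t a x) :
    lsum ((c.st p t).1 a) x = 0 := by
  simp only [al, mem_range, not_forall, not_not] at hx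
  obtain ⟨s, hs, hc⟩ := hx
  exact sum_eq_zero (fun w hw => h.dead a w ⟨s, hs, kill_of_com hc (mem_filter.1 hw).2⟩)

theorem Inv.lsum_nonneg (h : c.Inv p t) (a : Option ℕ) (x : Pt F) :
    0 ≤ lsum ((c.st p t).1 a) x := sum_nonneg (fun w _ => h.w0 a w)

theorem Inv.X_le (h : c.Inv p t) (ht : t ≤ c.N) (hp : c.pot p t < 1) {a : Option ℕ}
    (ha : a ∈ insertNone (range c.N)) (x : Pt F) : c.X p t a x ≤ (1 + c.η) * c.q := by
  by_cases hx : c.al p t a x
  · exact (X_near ht hp ha hx).2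
  · rw [X, h.lsum_dead hx, mul_zero]
    have := c.q_pos; have := c.hη0; positivity

theorem Inv.lsum_all (h : c.Inv p t) (ht : t ≤ c.N) (hp : c.pot p t < 1) {a : Option ℕ}
    (ha : a ∈ insertNone (range c.N)) (x : Pt F) : lsum ((c.st p t).1 a) x ≤ 2 * c.K₁ * c.q := by
  have h1 := h.X_le ht hp ha x
  have h2 := h.g_all ht a x
  have h3 := h.lsum_nonneg a x
  have h4 := c.K₁_ge
  have h5 := c.hη
  have h6 := c.q_pos
  unfold X at h1
  calc lsum ((c.st p t).1 a) x ≤ (c.K₁ * (c.st p t).2 a x) * lsum ((c.st p t).1 a) x :=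
        le_mul_of_one_le_left h3 h2
    _ = c.K₁ * ((c.st p t).2 a x * lsum ((c.st p t).1 a) x) := by ring
    _ ≤ c.K₁ * (2 * c.q) := mul_le_mul_of_nonneg_left (by nlinarith) (by linarith)
    _ = _ := by ring

theorem Inv.lsum_gen (h : c.Inv p t) (ht : t ≤ c.N) (hp : c.pot p t < 1) {a : Option ℕ}
    (ha : a ∈ insertNone (range c.N)) {x : Pt F} (hx : x.1 ∉ c.own a) :
    lsum ((c.st p t).1 a) x ≤ (1 + 2 * c.η) * c.q := by
  have h1 := h.X_le ht hp ha x
  have h2 := h.g_gen ht hx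
  have h3 := h.lsum_nonneg a x
  have h5 := c.hη
  have h6 := c.q_pos
  have h7 := c.hη0
  unfold X at h1
  have h8 : (1 - c.η / 2) * lsum ((c.st p t).1 a) x ≤ (1 + c.η) * c.q :=
    (mul_le_mul_of_nonneg_right h2 h3).trans h1
  by_contra hc
  push Not at hc
  have h9 : (1 - c.η / 2) * ((1 + 2 * c.η) * c.q) < (1 - c.η / 2) * lsum ((c.st p t).1 a) x :=
    mul_lt_mul_of_pos_left hc (by linarith)
  have h10 : 0 ≤ c.η * (1 / 2 - c.η) * c.q := by
    have : 0 ≤ 1 / 2 - c.η := by linarith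
    positivity
  nlinarith

theorem Inv.lsum_lo (h : c.Inv p t) (ht : t ≤ c.N) (hp : c.pot p t < 1) {a : Option ℕ}
    (ha : a ∈ insertNone (range c.N)) {x : Pt F} (hx : c.al p t a x) :
    (1 - c.η) * c.q ≤ lsum ((c.st p t).1 a) x :=
  (X_near ht hp ha hx).1.trans (mul_le_of_le_one_left (h.lsum_nonneg a x) (h.g1 a x))

theorem Inv.total (h : c.Inv p t) (ht : t ≤ c.N) (hp : c.pot p t < 1) {a : Option ℕ}
    (ha : a ∈ insertNone (range c.N)) : (1 - 2 * c.η) * c.q ^ 2 ≤ ∑ w, (c.st p t).1 a w := by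
  obtain ⟨i, hi⟩ : ∃ i, i ∉ c.own a := by
    by_contra hc
    push Not at hc
    have h1 := card_le_card (show (univ : Finset (Option F)) ⊆ c.own a from fun i _ => hc i)
    have h2 := c.own_card a
    have h3 := c.hq5
    rw [card_univ, Fintype.card_option] at h1
    omega
  set Bad : Finset F := ((range t).filter (fun s => i ∈ c.own (some s))).biUnion
    (fun s => (c.conf s a).image (fun y => (shift (p s) y).2)) with hBad
  have h1 := total_ge _ (h.w0 a) i Bad (b := (1 - c.η) * c.q) (fun v hv => by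
    refine h.lsum_lo ht hp ha ?_
    rintro s hs ⟨y, hy, e⟩
    refine hv (mem_biUnion.2 ⟨s, mem_filter.2 ⟨hs, ?_⟩, mem_image.2 ⟨y, hy, by rw [e]⟩⟩)
    have e1 : y.1 = i := congrArg Prod.fst e
    rcases c.conf_dir s a y hy with h' | h'
    · exact e1 ▸ h'
    · exact absurd (e1 ▸ h') hi)
  have h2 : (Bad.card : ℝ) ≤ c.C₁ * c.K := by
    have h3 : Bad.card ≤ ((range t).filter (fun s => i ∈ c.own (some s))).card * c.K :=
      card_biUnion_le_card_mul _ _ _ (fun s _ => card_image_le.trans (c.conf_card s a))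
    have h4 := cnt_le ht i
    calc (Bad.card : ℝ) ≤ ((range t).filter (fun s => i ∈ c.own (some s))).card * c.K := by
          exact_mod_cast h3
      _ ≤ _ := mul_le_mul_of_nonneg_right h4 (Nat.cast_nonneg _)
  rw [← c.hq] at h1
  refine le_trans ?_ h1
  have h5 := c.hq3
  have h6 := c.q_pos
  have h7 := c.hη
  have h8 := c.hη0
  calc (1 - 2 * c.η) * c.q ^ 2 ≤ ((1 - c.η) * c.q) * ((1 - c.η) * c.q) := by
        nlinarith [sq_nonneg (c.η * c.q)]
    _ ≤ _ := mul_le_mul_of_nonneg_right (by linarith) (mul_nonneg (by linarith) h6.le)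

theorem Inv.mu_facts (h : c.Inv p t) (ht : t < c.N) (hp : c.pot p t < 1) :
    (∀ w, 0 ≤ c.mu p t w) ∧ ∑ w, c.mu p t w = 1 ∧
      (∀ w, c.mu p t w ≤ (c.st p t).1 (some t) w / (c.q ^ 2 / 4)) ∧
      (∀ w, c.mu p t w ≠ 0 →
        (c.st p t).1 (some t) w ≠ 0 ∧ ∀ y ∈ c.Forb t (trunc t p), ¬ On y w) := by
  have ha : some t ∈ insertNone (range c.N) := by simpa using ht
  have hq := c.q_pos
  refine law_facts _ _ (h.w0 _) (by positivity) (h.lsum_all ht.le hp ha) ?_
  refine le_trans ?_ (h.total ht.le hp ha)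
  have h1 : ((c.Forb t (trunc t p)).card : ℝ) ≤ c.C₃ := by exact_mod_cast c.forb_card _ _
  have h2 := c.hq4
  have h3 := c.hη
  have h4 := c.K₁_ge
  have h5 : ((c.Forb t (trunc t p)).card : ℝ) * (2 * c.K₁ * c.q) ≤ c.C₃ * (2 * c.K₁ * c.q) :=
    mul_le_mul_of_nonneg_right h1 (by positivity)
  nlinarith

theorem Inv.mu_lsum (h : c.Inv p t) (ht : t < c.N) (hp : c.pot p t < 1) (x : Pt F) :
    lsum (c.mu p t) x ≤ lsum ((c.st p t).1 (some t)) x / (c.q ^ 2 / 4) := by
  rw [lsum, lsum, sum_div]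
  exact sum_le_sum (fun w _ => (h.mu_facts ht hp).2.2.1 w)

theorem Inv.mu_all (h : c.Inv p t) (ht : t < c.N) (hp : c.pot p t < 1) (x : Pt F) :
    lsum (c.mu p t) x ≤ 8 * c.K₁ / c.q := by
  have ha : some t ∈ insertNone (range c.N) := by simpa using ht
  have hq := c.q_pos
  refine (h.mu_lsum ht hp x).trans ((div_le_div_of_nonneg_right (h.lsum_all ht.le hp ha x)
    (by positivity)).trans (le_of_eq ?_))
  field_simp; ring

theorem Inv.mu_gen (h : c.Inv p t) (ht : t < c.N) (hp : c.pot p t < 1) {x : Pt F}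
    (hx : x.1 ∉ c.own (some t)) : lsum (c.mu p t) x ≤ 16 / c.q := by
  have ha : some t ∈ insertNone (range c.N) := by simpa using ht
  have hq := c.q_pos
  have h1 : lsum ((c.st p t).1 (some t)) x ≤ 4 * c.q :=
    (h.lsum_gen ht.le hp ha hx).trans (by nlinarith [c.hη])
  refine (h.mu_lsum ht hp x).trans ((div_le_div_of_nonneg_right h1
    (by positivity)).trans (le_of_eq ?_))
  field_simp; ring

theorem conf_le (s : ℕ) (a : Option ℕ) : ((c.conf s a).card : ℝ) ≤ c.K := by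
  exact_mod_cast c.conf_card s a

theorem Inv.kap_le (h : c.Inv p t) (ht : t < c.N) (hp : c.pot p t < 1) (a : Option ℕ) (w : Ln F) :
    kap (c.mu p t) (c.conf t a) w ≤ c.κ₀ := by
  refine (R34.kap_le (h.mu_facts ht hp).1 _ w (h.mu_all ht hp)).trans ?_
  have := c.K₁_ge
  have := c.q_pos
  refine (mul_le_mul_of_nonneg_right (conf_le t a) (by positivity)).trans (le_of_eq ?_)
  unfold κ₀; ring

theorem Inv.kapc_le (h : c.Inv p t) (ht : t < c.N) (hp : c.pot p t < 1) (a : Option ℕ) (x : Pt F) :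
    kapc (c.mu p t) (c.conf t a) x ≤ c.κ₀ := by
  refine (R34.kapc_le (h.mu_facts ht hp).1 _ x (fun v => h.mu_all ht hp _)).trans ?_
  have := c.K₁_ge
  have := c.q_pos
  refine (mul_le_mul_of_nonneg_right (conf_le t a) (by positivity)).trans (le_of_eq ?_)
  unfold κ₀; ring

theorem Inv.kapc_le' (h : c.Inv p t) (ht : t < c.N) (hp : c.pot p t < 1) (a : Option ℕ)
    (x : Pt F) : kapc (c.mu p t) (c.conf t a) x ≤
      (if x.1 ∈ c.own a then c.κ₁ else 0) + (if x.1 ∈ c.own (some t) then c.κ₀ else 0) := by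
  have k0 := c.κ₀_nonneg
  have k1 := c.κ₁_nonneg
  by_cases h1 : x.1 ∈ c.own (some t)
  · rw [if_pos h1]
    refine (h.kapc_le ht hp a x).trans ?_
    split_ifs <;> linarith
  · rw [if_neg h1, add_zero]
    split_ifs with h2
    · refine (R34.kapc_le (h.mu_facts ht hp).1 _ x (fun v => h.mu_gen ht hp h1)).trans ?_
      have := c.q_pos
      refine (mul_le_mul_of_nonneg_right (conf_le t a) (by positivity)).trans (le_of_eq ?_)
      unfold κ₁; ring
    · refine (kapc_eq_zero _ _ (fun y hy e => ?_)).le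
      rcases c.conf_dir t a y hy with h' | h'
      · exact h1 (e ▸ h')
      · exact h2 (e ▸ h')

theorem Inv.succ (h : c.Inv p t) (ht : t < c.N) (hp : c.pot p t < 1) (w : Ln F) :
    c.Inv (Function.update p t w) (t + 1) := by
  have hμ := (h.mu_facts ht hp).1
  have k0 := c.κ₀_le
  refine ⟨?_, ?_, ?_, ?_, ?_⟩
  · intro a w' hd
    rw [c.dead_succ_update, not_or] at hd
    rw [c.st_succ_update]
    simp only [newW, if_neg hd.2]
    rw [le_div_iff₀ (by linarith [h.kap_le ht hp a w'])]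
    linarith [h.live a w' hd.1, kap_nonneg hμ (c.conf t a) w']
  · intro a w' hd
    rw [c.dead_succ_update] at hd
    rw [c.st_succ_update]
    simp only [newW]
    rcases hd with hd | hd
    · simp [h.dead a w' hd]
    · simp [hd]
  · intro a w'
    rw [c.st_succ_update]
    simp only [newW]
    split_ifs
    · positivity
    · have h1 := h.kap_le ht hp a w'
      rw [div_le_iff₀ (by linarith)]
      refine (h.up a w').trans ?_
      calc Real.exp (2 * c.κ₀ * t)
          = Real.exp (2 * c.κ₀ * ((t + 1 : ℕ) : ℝ)) * Real.exp (-(2 * c.κ₀)) := by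
            rw [← Real.exp_add]; congr 1; push_cast; ring
        _ ≤ _ := mul_le_mul_of_nonneg_left
            ((exp_neg_two_le c.κ₀_nonneg k0).trans (by linarith)) (Real.exp_pos _).le
  · intro a x
    rw [c.st_succ_update]
    exact mul_le_one₀ (h.g1 a x) (by linarith [h.kapc_le ht hp a x])
      (by linarith [kapc_nonneg hμ (c.conf t a) x])
  · intro a x
    rw [c.st_succ_update]
    have h1 := h.kapc_le' ht hp a x
    have h2 := exp_neg_two_le (kapc_nonneg hμ (c.conf t a) x) ((h.kapc_le ht hp a x).trans k0)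
    refine le_trans ?_ (mul_le_mul (h.g0 a x) h2 (Real.exp_pos _).le (h.g_pos a x).le)
    rw [← Real.exp_add, Real.exp_le_exp, range_add_one, filter_insert]
    have h3 : t ∉ (range t).filter (fun s => x.1 ∈ c.own (some s)) := by simp
    by_cases e1 : x.1 ∈ c.own a <;> by_cases e2 : x.1 ∈ c.own (some t) <;>
      simp only [e1, e2, if_true, if_false, card_insert_of_notMem h3] at h1 ⊢ <;>
      push_cast <;> linarith

theorem Inv.pot_step (h : c.Inv p t) (ht : t < c.N) (hp : c.pot p t < 1) :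
    ∑ w, c.mu p t w * c.pot (Function.update p t w) (t + 1) ≤ c.pot p t := by
  obtain ⟨hμ, hμ1, -, -⟩ := h.mu_facts ht hp
  simp only [pot, mul_sum]
  rw [sum_comm]
  refine sum_le_sum (fun a ha => ?_)
  rw [sum_comm]
  refine sum_le_sum (fun x _ => ?_)
  by_cases hal : c.al p t a x
  · have hA : (c.st p t).2 a x * lsum ((c.st p t).1 a) x ≤ 2 * c.q :=
      (h.X_le ht.le hp ha x).trans (by nlinarith [c.hη, c.q_pos])
    have hB : 2 * c.κ₀ * (2 * c.q) + (c.conf t a).card * c.K₃ ≤ c.B := by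
      have h2 : c.κ₀ * c.q = 8 * c.K * c.K₁ := by
        have := c.q_pos
        unfold κ₀; field_simp
      have h3 := mul_le_mul_of_nonneg_right (conf_le (c := c) t a)
        (show 0 ≤ c.K₃ by linarith [c.K₃_ge])
      rw [c.hB]; nlinarith
    have s1 := step_pot (lam := c.lam) (a := c.off t) (q := c.q) hμ hμ1 (c.conf t a) _ x c.κ₀_le
      (h.kap_le ht hp a) (h.kapc_le ht hp a x) (h.w0 a) (h.wK ht.le a) (h.g_pos a x).le
      (h.g1 a x) hA hB c.lam_B
    have s2 := step_pot (lam := -c.lam) (a := c.off t) (q := c.q) hμ hμ1 (c.conf t a) _ x c.κ₀_le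
      (h.kap_le ht hp a) (h.kapc_le ht hp a x) (h.w0 a) (h.wK ht.le a) (h.g_pos a x).le
      (h.g1 a x) hA hB (by rw [abs_neg]; exact c.lam_B)
    rw [term, if_pos hal]
    refine le_trans (le_of_eq ?_) (add_le_add s1 s2)
    rw [← sum_add_distrib]
    refine sum_congr rfl (fun w _ => ?_)
    have ho : c.off (t + 1) = c.off t + c.lam ^ 2 * c.B ^ 2 := by
      unfold off; push_cast; ring
    rw [← mul_add]
    congr 1
    simp only [term, c.al_succ_update, hal, true_and, X, c.st_succ_update, ho, neg_sq]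
    split_ifs <;> simp
  · rw [term, if_neg hal]
    refine (sum_eq_zero (fun w _ => ?_)).le
    simp [term, c.al_succ_update, hal]

theorem inv_zero (p : ℕ → Ln F) : c.Inv p 0 := by
  refine ⟨fun a w _ => le_rfl, fun a w h => ?_, fun a w => by simp [st], fun a x => le_rfl,
    fun a x => by simp [st]⟩
  obtain ⟨s, hs, _⟩ := h
  omega

theorem pot_zero (p : ℕ → Ln F) :
    c.pot p 0 ≤ 12 * c.q ^ 3 * Real.exp (-(c.lam * c.η / 2 * c.q)) := by
  have h1 : ∀ a x, c.term p 0 a x = 2 * Real.exp (-(c.lam * c.η / 2 * c.q)) := by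
    intro a x
    have h2 : c.X p 0 a x = c.q := by
      simp [X, st, lsum, card_lines_on, c.hq]
    rw [term, if_pos (by simp [al]), h2]
    simp only [off]
    ring_nf
  simp only [pot, h1, sum_const, card_univ, card_Pt, nsmul_eq_mul, card_insertNone, card_range]
  push_cast
  rw [← c.hq]
  have h3 := c.N_le
  have h4 : 1 ≤ c.q := by rw [c.hq]; exact_mod_cast Fintype.card_pos
  have h5 := Real.exp_pos (-(c.lam * c.η / 2 * c.q))
  have h6 : ((c.N : ℝ) + 1) * ((c.q + 1) * c.q) ≤ 6 * c.q ^ 3 := by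
    calc ((c.N : ℝ) + 1) * ((c.q + 1) * c.q) ≤ (3 * c.q) * ((2 * c.q) * c.q) := by
          gcongr <;> linarith
      _ = _ := by ring
  nlinarith

variable (c)

theorem run (P : (ℕ → Ln F) → Prop) (hP : Testable (1 / (4 * c.K₃)) c.N (1 / 2) P)
    (h0 : 12 * c.q ^ 3 * Real.exp (-(c.lam * c.η / 2 * c.q)) < 1 / 2) :
    ∃ p : ℕ → Ln F, P p ∧ c.Inv p c.N ∧ c.pot p c.N < 1 ∧
      ∀ t < c.N, ¬ c.dead p t (some t) (p t) ∧ ∀ y ∈ c.Forb t (trunc t p), ¬ On y (p t) := by
  obtain ⟨Ψ, hΨ0, hΨ1, hΨ2, hΨ3⟩ := hP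
  have key : ∀ t ≤ c.N, ∃ p : ℕ → Ln F, c.Inv p t ∧ c.pot p t + Ψ t p < 1 ∧
      ∀ s < t, ¬ c.dead p s (some s) (p s) ∧ ∀ y ∈ c.Forb s (trunc s p), ¬ On y (p s) := by
    intro t
    induction t with
    | zero =>
      intro _
      refine ⟨0, inv_zero 0, ?_, fun s hs => absurd hs (by omega)⟩
      linarith [pot_zero (c := c) 0, hΨ1 0]
    | succ t ih =>
      intro ht
      obtain ⟨p, hI, hlt, hv⟩ := ih (by omega)
      have ht' : t < c.N := ht
      have hp : c.pot p t < 1 := by linarith [hΨ0 t p]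
      obtain ⟨hμ, hμ1, hμ2, hμ3⟩ := hI.mu_facts ht' hp
      have hq := c.q_pos
      have hK := c.K₃_ge
      have a1 := hI.pot_step ht' hp
      have a2 := hΨ2 t ht' p (c.mu p t) hμ hμ1 (fun w => by
        refine (hμ2 w).trans ((div_le_div_of_nonneg_right (hI.wK ht'.le _ w)
          (by positivity)).trans (le_of_eq ?_))
        rw [← c.hq]; field_simp)
      obtain ⟨w, hw0, hw⟩ : ∃ w, c.mu p t w ≠ 0 ∧
          c.pot (Function.update p t w) (t + 1) + Ψ (t + 1) (Function.update p t w) < 1 := by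
        by_contra hc
        push Not at hc
        have : ∑ w, c.mu p t w ≤ ∑ w, (c.mu p t w * c.pot (Function.update p t w) (t + 1) +
            c.mu p t w * Ψ (t + 1) (Function.update p t w)) := by
          refine sum_le_sum (fun w _ => ?_)
          by_cases e : c.mu p t w = 0
          · simp [e]
          · rw [← mul_add]
            exact le_mul_of_one_le_right (hμ w) (hc w e)
        rw [sum_add_distrib] at this
        linarith
      refine ⟨Function.update p t w, hI.succ ht' hp w, hw, fun s hs => ?_⟩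
      have hd : ∀ s ≤ t, ∀ w', c.dead (Function.update p t w) s (some s) w' →
          c.dead p s (some s) w' := by
        rintro s hs w' ⟨r, hr, hk⟩
        exact ⟨r, hr, by rwa [Function.update_of_ne (by omega)] at hk⟩
      rcases Nat.lt_succ_iff_lt_or_eq.1 hs with h | rfl
      · rw [trunc_update_of_le h.le, Function.update_of_ne h.ne]
        exact ⟨fun e => (hv s h).1 (hd s h.le _ e), (hv s h).2⟩
      · rw [trunc_update_of_le le_rfl, Function.update_self]
        exact ⟨fun e => (hμ3 w hw0).1 (hI.dead _ _ (hd s le_rfl _ e)), (hμ3 w hw0).2⟩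
  obtain ⟨p, hI, hlt, hv⟩ := key c.N le_rfl
  exact ⟨p, hΨ3 p (by linarith [c.pot_nonneg p c.N]), hI, by linarith [hΨ0 c.N p], hv⟩

theorem reg (hown : c.own none = ∅) {p : ℕ → Ln F} (h : c.Inv p c.N) (hp : c.pot p c.N < 1)
    {η : ℝ} (hη : 2 * c.η ≤ η) : Reg (Zof c.N (fun s => c.conf s none) p) η c.K₃ := by
  have ha : none ∈ insertNone (range c.N) := none_mem_insertNone
  have hq := c.q_pos
  have h0 := c.hη0
  have hm : ∀ l, l ∈ miss (Zof c.N (fun s => c.conf s none) p) ↔ ¬ c.dead p c.N none l := by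
    intro l
    rw [mem_miss]
    constructor
    · rintro h ⟨s, hs, y, hy, hk⟩
      exact h _ (mem_Zof.2 ⟨s, hs, y, hy, rfl⟩) ((on_shift' _ _ _).2 hk)
    · intro h x hx hxl
      obtain ⟨s, hs, y, hy, rfl⟩ := mem_Zof.1 hx
      exact h ⟨s, hs, y, hy, (on_shift' _ _ _).1 hxl⟩
  refine ⟨(c.st p c.N).1 none, fun l hl => ⟨h.live _ _ ((hm l).1 hl), h.wK le_rfl _ _⟩,
    fun l hl => h.dead _ _ (by rwa [hm, not_not] at hl), fun x hx => ?_, ?_⟩
  · have hal : c.al p c.N none x := by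
      rintro s hs ⟨y, hy, e⟩
      exact hx (mem_Zof.2 ⟨s, mem_range.1 hs, y, hy, e⟩)
    rw [← c.hq]
    refine ⟨le_trans ?_ (h.lsum_lo le_rfl hp ha hal),
      (h.lsum_gen le_rfl hp ha (by simp [hown])).trans ?_⟩
    · nlinarith
    · nlinarith
  · rw [← c.hq]
    refine le_trans ?_ (h.total le_rfl hp ha)
    nlinarith [sq_nonneg c.q]

end Ctx

theorem eventually_cube_exp {a : ℝ} (ha : 0 < a) :
    ∃ q₀ : ℕ, ∀ q : ℕ, q₀ ≤ q → 12 * (q : ℝ) ^ 3 * Real.exp (-(a * q)) < 1 / 2 := by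
  have h1 := (Real.tendsto_pow_mul_exp_neg_atTop_nhds_zero 3).comp
    (tendsto_natCast_atTop_atTop.const_mul_atTop ha)
  have h2 := h1.eventually (gt_mem_nhds (show (0 : ℝ) < a ^ 3 / 24 by positivity))
  obtain ⟨q₀, hq₀⟩ := Filter.eventually_atTop.1 h2
  refine ⟨q₀, fun q hq => ?_⟩
  have h3 := hq₀ q hq
  simp only [Function.comp] at h3
  have h4 : 0 < a ^ 3 := by positivity
  rw [mul_pow] at h3
  nlinarith

theorem procStmt : ProcStmt := by
  intro K C₁ C₃
  set K₁ : ℝ := Real.exp (64 * K + 1) with hK₁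
  set K₃ : ℝ := Real.exp (32 * K * K₁) with hK₃
  have k1 : 0 < K₁ := Real.exp_pos _
  have k3 : 1 ≤ K₃ := Real.one_le_exp (by positivity)
  refine ⟨1 / (4 * K₃), K₃, by positivity, k3, fun η hη => ?_⟩
  set η' : ℝ := min (η / 2) (1 / 4) with hη'
  have e0 : 0 < η' := lt_min (by linarith) (by norm_num)
  set B : ℝ := 32 * K * K₁ + K * K₃ + 1 with hB
  have b0 : 0 < B := by positivity
  set lam : ℝ := η' / (4 * B ^ 2) with hlam
  obtain ⟨q₁, hq₁⟩ := eventually_cube_exp (a := lam * η' / 2) (by positivity)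
  obtain ⟨q₂, hq₂⟩ := exists_nat_ge
    (16 * K * K₁ + 32 * K * K₁ * C₁ / η' + C₁ * K / η' + 8 * C₃ * K₁)
  refine ⟨max q₁ (max q₂ K), fun F _ _ _ hq N own conf Forb P hN hown h1 h2 h3 h4 h5 hP => ?_⟩
  have r1 : q₁ ≤ Fintype.card F := le_trans (le_max_left _ _) hq
  have r2 : (q₂ : ℝ) ≤ Fintype.card F := by
    exact_mod_cast le_trans (le_trans (le_max_left _ _) (le_max_right _ _)) hq
  have r3 : K ≤ Fintype.card F := le_trans (le_trans (le_max_right _ _) (le_max_right _ _)) hq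
  have t1 : 0 ≤ 16 * K * K₁ := by positivity
  have t2 : 0 ≤ 32 * K * K₁ * C₁ / η' := by positivity
  have t3 : 0 ≤ (C₁ : ℝ) * K / η' := by positivity
  have t4 : 0 ≤ 8 * C₃ * K₁ := by positivity
  let c : Ctx F :=
    { N := N, own := own, conf := conf, Forb := Forb, K := K, C₁ := C₁, C₃ := C₃, K₁ := K₁,
      K₃ := K₃, η := η', B := B, lam := lam, q := Fintype.card F, hq := rfl, hN := hN,
      own_card := h1, own_mult := h2, conf_card := h3, conf_dir := h4, forb_card := h5,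
      hK₁ := rfl, hK₃ := rfl, hη0 := e0, hη := min_le_right _ _, hB := rfl, hlam := rfl,
      hq1 := by linarith
      hq2 := by
        have : 32 * K * K₁ * C₁ / η' ≤ Fintype.card F := by linarith
        rw [div_le_iff₀ e0] at this; linarith
      hq3 := by
        have : (C₁ : ℝ) * K / η' ≤ Fintype.card F := by linarith
        rw [div_le_iff₀ e0] at this; linarith
      hq4 := by linarith
      hq5 := r3 }
  obtain ⟨p, hp, hI, hlt, hv⟩ := c.run P hP (hq₁ _ r1)
  refine ⟨p, hp, fun s t hs ht x hx hon => (hv t ht).1 ⟨s, hs, x, hx, hon⟩,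
    fun t ht => (hv t ht).2, c.reg hown hI hlt ?_⟩
  have : η' ≤ η / 2 := min_le_left _ _
  show 2 * η' ≤ η
  linarith

end Crest.Agent.R34
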