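import Crest.Agent.R34.Plane

/-! Row 34, part A: the Szőnyi–Weiner inequality and near-blocking sets. -/

set_option autoImplicit false
set_option linter.unusedSectionVars false
open Finset Polynomial

namespace Crest.Agent.R34

namespace SW

variable {F : Type} [Field F]

/-- the two-variable product of affine forms -/
noncomputable def W {ι : Type} (S : Finset ι) (a b c : ι → F) : F[X][X] :=
  ∏ k ∈ S, (C (C (a k) * X + C (c k)) + C (C (b k)) * X)

theorem W_coeff {ι : Type} [DecidableEq ι] (S : Finset ι) (a b c : ι → F) :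
    ∀ d e : ℕ, S.card < d + e → ((W S a b c).coeff d).coeff e = 0 := by
  induction S using Finset.induction_on with
  | empty =>
    intro d e h
    simp only [W, prod_empty, coeff_one]
    split_ifs with hd
    · subst hd
      rw [coeff_one, if_neg]
      simp at h
      omega
    · simp
  | insert k S hk ih =>
    intro d e h
    rw [card_insert_of_notMem hk] at h
    have hW : W (insert k S) a b c =
        (C (C (a k) * X + C (c k)) + C (C (b k)) * X) * W S a b c := by
      simp only [W]
      rw [prod_insert hk]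
    rw [hW, add_mul, coeff_add, coeff_C_mul, mul_assoc, coeff_C_mul, coeff_add, add_mul, coeff_add,
      mul_assoc, coeff_C_mul, coeff_C_mul, coeff_C_mul, ih d e (by omega)]
    have h1 : (X * (W S a b c).coeff d).coeff e = 0 := by
      rcases e with _ | e
      · simp
      · rw [coeff_X_mul]; exact ih d e (by omega)
    have h2 : ((X * W S a b c).coeff d).coeff e = 0 := by
      rcases d with _ | d
      · simp
      · rw [coeff_X_mul]; exact ih d e (by omega)
    rw [h1, h2]
    simp

/-- the product of the forms at `t`, a polynomial in the second variable -/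
noncomputable def U {ι : Type} (S : Finset ι) (a b c : ι → F) (t : F) : F[X] :=
  (W S a b c).map (evalRingHom t)

theorem U_eval {ι : Type} (S : Finset ι) (a b c : ι → F) (t y : F) :
    (U S a b c t).eval y = ∏ k ∈ S, (a k * t + b k * y + c k) := by
  simp only [U, W, Polynomial.map_prod, eval_prod]
  refine prod_congr rfl (fun k _ => ?_)
  simp
  ring

variable [Fintype F] [DecidableEq F]

/-- the Hankel matrix -/
noncomputable def H {ι : Type} (S : Finset ι) (a b c : ι → F) (s : ℕ) :
    Matrix (Fin s) (Fin s) F[X] :=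
  Matrix.of (fun r r' => ∑ t : F, C (t ^ ((r : ℕ) + r')) * U S a b c t)

theorem H_coeff {ι : Type} [DecidableEq ι] (S : Finset ι) (a b c : ι → F) (s : ℕ) (r r' : Fin s)
    (d : ℕ) (h : S.card + r + r' + 1 < Fintype.card F + d) : (H S a b c s r r').coeff d = 0 := by
  simp only [H, Matrix.of_apply, finsetSum_coeff, coeff_C_mul, U, coeff_map, coe_evalRingHom]
  simp only [eval_eq_sum_range, mul_sum]
  rw [sum_comm]
  refine sum_eq_zero (fun e _ => ?_)
  by_cases he : S.card < d + e
  · simp [W_coeff S a b c d e he]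
  · have : ∀ t : F, t ^ ((r : ℕ) + r') * (((W S a b c).coeff d).coeff e * t ^ e) =
        ((W S a b c).coeff d).coeff e * t ^ ((r : ℕ) + r' + e) := by
      intro t; ring
    simp only [this]
    rw [← mul_sum, FiniteField.sum_pow_lt_card_sub_one F _ (by omega), mul_zero]

theorem H_deg {ι : Type} [DecidableEq ι] (S : Finset ι) (a b c : ι → F) (s : ℕ) (r r' : Fin s)
    (h : H S a b c s r r' ≠ 0) :
    Fintype.card F + (H S a b c s r r').natDegree ≤ S.card + r + r' + 1 := by
  by_contra hlt
  exact h (leadingCoeff_eq_zero.1 (H_coeff S a b c s r r' _ (by omega)))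

theorem det_deg {ι : Type} [DecidableEq ι] (S : Finset ι) (a b c : ι → F) (s : ℕ)
    (h : (H S a b c s).det ≠ 0) :
    s * Fintype.card F + (H S a b c s).det.natDegree ≤ s * (S.card + s) := by
  by_contra hlt
  apply h
  rw [← leadingCoeff_eq_zero, leadingCoeff]
  generalize (H S a b c s).det.natDegree = D at hlt
  rw [Matrix.det_apply, finsetSum_coeff]
  refine sum_eq_zero (fun σ _ => ?_)
  have key : (∏ i, H S a b c s (σ i) i).coeff D = 0 := by
    by_cases h0 : ∃ i, H S a b c s (σ i) i = 0
    · obtain ⟨i, hi⟩ := h0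
      rw [prod_eq_zero (f := fun i => H S a b c s (σ i) i) (mem_univ i) hi, coeff_zero]
    · push Not at h0
      apply coeff_eq_zero_of_natDegree_lt
      refine lt_of_le_of_lt (natDegree_prod_le _ _) ?_
      have h1 : ∑ i : Fin s, (Fintype.card F + (H S a b c s (σ i) i).natDegree) ≤
          ∑ i : Fin s, (S.card + (σ i : ℕ) + i + 1) :=
        sum_le_sum (fun i _ => H_deg S a b c s _ _ (h0 i))
      have h2 : ∑ i : Fin s, ((σ i : Fin s) : ℕ) = ∑ i : Fin s, (i : ℕ) :=
        Equiv.sum_comp σ (fun i : Fin s => (i : ℕ))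
      have h3 : (∑ i : Fin s, (i : ℕ)) * 2 = s * (s - 1) := by
        rw [Fin.sum_univ_eq_sum_range (fun i => i) s, sum_range_id_mul_two]
      simp only [sum_add_distrib, sum_const, card_univ, Fintype.card_fin, smul_eq_mul, h2] at h1
      have h4 : s * (s - 1) + s = s * s := by
        rcases s with _ | s
        · simp
        · simp; ring
      have h5 : s * (S.card + s) = s * S.card + s * s := by ring
      omega
  rw [Units.smul_def, zsmul_eq_mul, ← C_eq_intCast, coeff_C_mul, key, mul_zero]

theorem det_expand {ι : Type} (S : Finset ι) (a b c : ι → F) (s : ℕ) :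
    (H S a b c s).det = ∑ f : Fin s → F,
      (∏ i, U S a b c (f i)) * C ((∏ i : Fin s, f i ^ (i : ℕ)) * (Matrix.vandermonde f).det) := by
  rw [Matrix.det_apply']
  simp only [H, Matrix.of_apply, prod_univ_sum, mul_sum, Fintype.piFinset_univ]
  rw [sum_comm]
  refine sum_congr rfl (fun f _ => ?_)
  rw [← Matrix.det_transpose, Matrix.det_apply', mul_sum, map_sum, mul_sum]
  refine sum_congr rfl (fun σ _ => ?_)
  simp only [Matrix.transpose_apply, Matrix.vandermonde_apply, pow_add, prod_mul_distrib, map_mul,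
    map_prod, map_intCast]
  ring

theorem det_dvd {ι : Type} (S : Finset ι) (a b c : ι → F) (s : ℕ) (y : F) :
    (X - C y) ^ (s - (univ.filter (fun t => (U S a b c t).eval y ≠ 0)).card) ∣
      (H S a b c s).det := by
  rw [det_expand]
  refine dvd_sum (fun f _ => ?_)
  by_cases hf : Function.Injective f
  · refine Dvd.dvd.mul_right ?_ _
    have h1 : (univ.filter (fun i : Fin s => (U S a b c (f i)).eval y ≠ 0)).card ≤
        (univ.filter (fun t => (U S a b c t).eval y ≠ 0)).card :=
      card_le_card_of_injOn f (fun i hi => by simpa using hi) hf.injOn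
    have h2 := card_filter_add_card_filter_not (s := (univ : Finset (Fin s)))
      (fun i => (U S a b c (f i)).eval y = 0)
    rw [card_univ, Fintype.card_fin] at h2
    refine (pow_dvd_pow _ (show _ ≤ (univ.filter
      (fun i : Fin s => (U S a b c (f i)).eval y = 0)).card by
        simp only [ne_eq] at h1 ⊢; omega)).trans ?_
    rw [← prod_const]
    refine (prod_dvd_prod_of_dvd _ (fun i => U S a b c (f i)) (fun i hi => ?_)).trans
      (prod_dvd_prod_of_subset _ _ _ (subset_univ _))
    exact dvd_iff_isRoot.2 (mem_filter.1 hi).2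
  · have : (Matrix.vandermonde f).det = 0 := by
      by_contra hne
      exact hf (Matrix.det_vandermonde_ne_zero_iff.1 hne)
    simp [this]

theorem det_ne {ι : Type} (S : Finset ι) (a b c : ι → F) (y : F) :
    (H S a b c (univ.filter (fun t => (U S a b c t).eval y ≠ 0)).card).det ≠ 0 := by
  set T := univ.filter (fun t => (U S a b c t).eval y ≠ 0) with hT
  intro h0
  have h1 : ((H S a b c T.card).map (evalRingHom y)).det = 0 := by
    have := (evalRingHom y).map_det (H S a b c T.card)
    rw [RingHom.mapMatrix_apply] at this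
    rw [← this, h0, map_zero]
  let e : Fin T.card → F := fun i => (T.equivFin.symm i : F)
  have he : Function.Injective e := fun i j h => T.equivFin.symm.injective (Subtype.ext h)
  have h2 : (H S a b c T.card).map (evalRingHom y) =
      (Matrix.vandermonde e).transpose * Matrix.diagonal (fun i => (U S a b c (e i)).eval y) *
        Matrix.vandermonde e := by
    ext r r'
    simp only [Matrix.map_apply, H, Matrix.of_apply, coe_evalRingHom, eval_finsetSum, eval_mul,
      eval_C, Matrix.mul_apply (N := Matrix.vandermonde e), Matrix.mul_diagonal,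
      Matrix.transpose_apply, Matrix.vandermonde_apply]
    rw [← sum_subset (subset_univ T), ← sum_coe_sort T, ← Equiv.sum_comp T.equivFin.symm]
    · refine sum_congr rfl (fun i _ => ?_)
      simp only [e]
      ring
    · intro t _ ht
      simp only [hT, mem_filter, mem_univ, true_and, not_not] at ht
      rw [ht, mul_zero]
  rw [h2, Matrix.det_mul, Matrix.det_mul, Matrix.det_transpose, Matrix.det_diagonal] at h1
  have hv := Matrix.det_vandermonde_ne_zero_iff.2 he
  have hp : ∏ i, (U S a b c (e i)).eval y ≠ 0 :=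
    prod_ne_zero_iff.2 (fun i _ => (mem_filter.1 (T.equivFin.symm i).2).2)
  exact mul_ne_zero (mul_ne_zero hv hp) hv h1

/-- the abstract inequality -/
theorem main {ι : Type} [DecidableEq ι] (S : Finset ι) (a b c : ι → F) (z : F → ℕ)
    (hz : ∀ y, z y = (univ.filter (fun t => ∀ k ∈ S, a k * t + b k * y + c k ≠ 0)).card) (y₀ : F) :
    (z y₀ : ℤ) * (2 * Fintype.card F - S.card - z y₀) ≤ ∑ y, (z y : ℤ) := by
  have hz' : ∀ y, (univ.filter (fun t => (U S a b c t).eval y ≠ 0)).card = z y := by
    intro y
    rw [hz]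
    congr 1
    ext t
    simp only [mem_filter, U_eval, prod_ne_zero_iff]
  have hne := det_ne S a b c y₀
  rw [hz'] at hne
  have hdeg := det_deg S a b c _ hne
  have hdvd : ∏ y : F, (X - C y) ^ (z y₀ - z y) ∣ (H S a b c (z y₀)).det := by
    refine prod_dvd_of_coprime (fun y _ y' _ hyy => ?_) (fun y _ => ?_)
    · exact (pairwise_coprime_X_sub_C Function.injective_id hyy).pow
    · rw [← hz' y]; exact det_dvd S a b c _ y
  have hle := natDegree_le_of_dvd hdvd hne
  rw [natDegree_prod_of_monic _ _ (fun y _ => (monic_X_sub_C y).pow _)] at hle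
  simp only [natDegree_pow, natDegree_X_sub_C, mul_one] at hle
  have h1 : ∑ y : F, ((z y₀ : ℤ) - z y) ≤ ∑ y : F, ((z y₀ - z y : ℕ) : ℤ) :=
    sum_le_sum (fun y _ => by omega)
  rw [sum_sub_distrib, sum_const, card_univ, nsmul_eq_mul, ← Nat.cast_sum] at h1
  have h2 : ((∑ y : F, (z y₀ - z y) : ℕ) : ℤ) ≤ ((H S a b c (z y₀)).det.natDegree : ℤ) := by
    exact_mod_cast hle
  have h3 : (z y₀ : ℤ) * Fintype.card F + ((H S a b c (z y₀)).det.natDegree : ℤ) ≤
      z y₀ * (S.card + z y₀) := by exact_mod_cast hdeg
  rw [← Nat.cast_sum] at h1 ⊢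
  linarith

/-- coordinates of lines adapted to the part `i` -/
def w : Option F → F → F → Ln F
  | none, t, y => (y, t)
  | some c, t, y => (t, y - c * t)

theorem u_w (i : Option F) (t y : F) : u i (w i t y) = y := by
  cases i <;> simp [u, w]

theorem u_w_aff (i j : Option F) (t y : F) :
    u j (w i t y) = u j (w i 1 0) * t + u j (w i 0 1) * y := by
  cases i <;> cases j <;> simp [u, w]
  all_goals ring

theorem w_inj (i : Option F) (y : F) : Function.Injective (fun t => w i t y) := by
  intro t t' h
  cases i <;> simp only [w, Prod.mk.injEq] at h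
  · exact h.2
  · exact h.1

theorem w_surj (i : Option F) (l : Ln F) : ∃ t, w i t (u i l) = l := by
  cases i
  · exact ⟨l.2, rfl⟩
  · exact ⟨l.1, by simp [w, u]⟩

end SW

theorem swStmt : SWStmt := by
  intro F _ _ _ S x
  obtain ⟨i, y₀⟩ := x
  have h := SW.main S (fun k => u k.1 (SW.w i 1 0)) (fun k => u k.1 (SW.w i 0 1)) (fun k => -k.2)
    (fun y => deg (miss S) (i, y)) ?_ y₀
  · refine h.trans (le_of_eq ?_)
    rw [← Nat.cast_sum, card_eq_sum_card_fiberwise (f := u i) (t := univ) (fun _ _ => mem_univ _)]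
    rfl
  · intro y
    symm
    refine card_bij (fun t _ => SW.w i t y) ?_ (fun t _ t' _ h => SW.w_inj i y h) ?_
    · intro t ht
      simp only [mem_filter, mem_univ, true_and] at ht
      simp only [mem_filter, mem_miss]
      refine ⟨fun k hk hon => ht k hk ?_, SW.u_w i t y⟩
      unfold On at hon
      rw [← SW.u_w_aff, hon, add_neg_cancel]
    · intro l hl
      simp only [mem_filter, mem_miss] at hl
      obtain ⟨t, ht⟩ := SW.w_surj i l
      have hy : u i l = y := hl.2
      rw [hy] at ht
      refine ⟨t, ?_, ht⟩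
      simp only [mem_filter, mem_univ, true_and]
      intro k hk h0
      apply hl.1 k hk
      unfold On
      rw [← SW.u_w_aff, ht] at h0
      linear_combination h0

namespace Near

variable {F : Type} [Field F] [Fintype F] [DecidableEq F]

theorem card_le_of_deg (Λ : Finset (Ln F)) {l : Ln F} (hl : l ∈ Λ) (s : ℕ)
    (hs : ∀ x, deg Λ x ≤ s + 1) : Λ.card ≤ 1 + (Fintype.card F + 1) * s := by
  have h1 : Λ.erase l ⊆ (univ.filter (fun x : Pt F => On x l)).biUnion
      (fun x => (Λ.filter (fun l' => On x l')).erase l) := by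
    intro l' hl'
    obtain ⟨x, hx, hx'⟩ := exists_meet l l'
    simp only [mem_biUnion, mem_filter, mem_univ, true_and, mem_erase] at hl' ⊢
    exact ⟨x, hx, hl'.1, hl'.2, hx'⟩
  have h2 := (card_le_card h1).trans card_biUnion_le
  have h3 : ∑ x ∈ univ.filter (fun x : Pt F => On x l),
      ((Λ.filter (fun l' => On x l')).erase l).card ≤
      ∑ x ∈ univ.filter (fun x : Pt F => On x l), s := by
    refine sum_le_sum (fun x hx => ?_)
    rw [card_erase_of_mem (mem_filter.2 ⟨hl, (mem_filter.1 hx).2⟩)]
    exact Nat.sub_le_of_le_add (hs x)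
  rw [sum_const, card_points_on, smul_eq_mul] at h3
  rw [card_erase_of_mem hl] at h2
  omega

/-- lines through a point off `B` carry different points of `B` -/
theorem card_le_of_block (B A : Finset (Pt F)) (x : Pt F) (hx : x ∉ B) (Λ : Finset (Ln F))
    (hΛ : ∀ l ∈ Λ, On x l ∧ ∃ y ∈ A, On y l) (hA : A ⊆ B) : Λ.card ≤ A.card := by
  have : ∀ l : Λ, ∃ y : A, On (y : Pt F) l := fun l => by
    obtain ⟨y, hy, h⟩ := (hΛ l l.2).2
    exact ⟨⟨y, hy⟩, h⟩
  choose g hg using this
  rw [← Fintype.card_coe, ← Fintype.card_coe]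
  refine Fintype.card_le_of_injective g (fun l l' h => Subtype.ext ?_)
  have hne : x ≠ (g l : Pt F) := fun e => hx (e ▸ hA (g l).2)
  exact line_unique hne (hΛ l l.2).1 (hg l) (hΛ l' l'.2).1 (h ▸ hg l')

theorem line_bound (B : Finset (Pt F)) (hm : miss B = ∅) (l : Ln F) (x : Pt F) (hxl : On x l)
    (hx : x ∉ B) : nOn B l + Fintype.card F ≤ B.card + 1 := by
  have h := card_le_of_block B (B.filter (fun y => ¬ On y l)) x hx
    ((univ.filter (fun l' : Ln F => On x l')).erase l) ?_ (filter_subset _ _)
  · rw [card_erase_of_mem (by simpa using hxl), card_lines_on] at h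
    have h2 := card_filter_add_card_filter_not (s := B) (fun y => On y l)
    unfold nOn
    omega
  · intro l' hl'
    simp only [mem_erase, mem_filter, mem_univ, true_and] at hl'
    refine ⟨hl'.2, ?_⟩
    have : l' ∉ miss B := by simp [hm]
    rw [mem_miss] at this
    push Not at this
    obtain ⟨y, hy, hyl⟩ := this
    refine ⟨y, mem_filter.2 ⟨hy, fun h => hx ?_⟩, hyl⟩
    rwa [point_unique hl'.1 hl'.2 hxl hyl h]

theorem part_bound (B : Finset (Pt F)) (hm : miss B = ∅) (x : Pt F) (hx : x ∉ B) :
    Fintype.card F ≤ (B.filter (fun y => y.1 ≠ x.1)).card := by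
  have h := card_le_of_block B (B.filter (fun y => y.1 ≠ x.1)) x hx
    (univ.filter (fun l' : Ln F => On x l')) ?_ (filter_subset _ _)
  · rwa [card_lines_on] at h
  · intro l' hl'
    simp only [mem_filter, mem_univ, true_and] at hl'
    refine ⟨hl', ?_⟩
    have : l' ∉ miss B := by simp [hm]
    rw [mem_miss] at this
    push Not at this
    obtain ⟨y, hy, hyl⟩ := this
    refine ⟨y, mem_filter.2 ⟨hy, fun h => hx ?_⟩, hyl⟩
    rwa [← eq_of_on_of_fst hyl hl' h]

theorem sum_sq_ge (B : Finset (Pt F))
    (hp : ∀ i, Fintype.card F ≤ (B.filter (fun y => y.1 ≠ i)).card) :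
    B.card * (2 * Fintype.card F) ≤ ∑ l, nOn B l ^ 2 := by
  have h : ∀ l : Ln F, nOn B l ^ 2 = ∑ x ∈ B, ∑ y ∈ B, if On x l ∧ On y l then 1 else 0 := by
    intro l
    rw [sq, nOn, card_filter, sum_mul_sum]
    refine sum_congr rfl (fun x _ => sum_congr rfl (fun y _ => ?_))
    by_cases h1 : On x l <;> by_cases h2 : On y l <;> simp [h1, h2]
  simp only [h]
  rw [sum_comm, ← smul_eq_mul, ← sum_const]
  refine sum_le_sum (fun x hx => ?_)
  rw [sum_comm, ← add_sum_erase B _ hx, two_mul]
  refine Nat.add_le_add ?_ ?_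
  · rw [← card_filter]
    simp only [and_self]
    exact (card_lines_on x).ge
  · refine (hp x.1).trans ?_
    rw [card_eq_sum_ones]
    refine le_trans (sum_le_sum (fun y hy => ?_)) (sum_le_sum_of_subset (fun y hy => ?_))
    · rw [← card_filter]
      obtain ⟨l, h1, h2⟩ := exists_line (mem_filter.1 hy).2
      exact card_pos.2 ⟨l, mem_filter.2 ⟨mem_univ _, h2, h1⟩⟩
    · simp only [mem_filter, mem_erase] at hy ⊢
      exact ⟨fun e => hy.2 (by rw [e]), hy.1⟩

end Near

theorem nearStmt_of (h : SWStmt) : NearStmt := by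
  intro F _ _ _ B j hB
  by_cases hl : ∃ l : Ln F, ∀ x, On x l → x ∈ B
  · exact Or.inl hl
  by_cases hi : ∃ i : Option F, ∀ v : F, (i, v) ∈ B
  · exact Or.inr (Or.inl hi)
  push Not at hl hi
  refine Or.inr (Or.inr ?_)
  rcases (miss B).eq_empty_or_nonempty with hm | ⟨l, hl0⟩
  · refine Or.inl ⟨hm, ?_⟩
    have hp : ∀ i, Fintype.card F ≤ (B.filter (fun y => y.1 ≠ i)).card := fun i => by
      obtain ⟨v, hv⟩ := hi i
      exact Near.part_bound B hm (i, v) hv
    have hqb : Fintype.card F ≤ B.card := (hp none).trans (card_filter_le _ _)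
    obtain ⟨m, hm'⟩ := Nat.exists_eq_add_of_le hqb
    have hup : ∀ l, nOn B l ≤ m + 1 := fun l => by
      obtain ⟨x, hx, hxB⟩ := hl l
      have := Near.line_bound B hm l x hx hxB
      omega
    have hlo : ∀ l, 1 ≤ nOn B l := fun l => by
      have : l ∉ miss B := by simp [hm]
      rw [mem_miss_iff_nOn] at this
      omega
    have h1 : ∑ l : Ln F, (nOn B l ^ 2 + (m + 1)) ≤ ∑ l : Ln F, (m + 2) * nOn B l := by
      refine sum_le_sum (fun l _ => ?_)
      have a1 := hup l
      have a2 := hlo l
      nlinarith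
    rw [sum_add_distrib, ← mul_sum, sum_nOn, sum_const, card_univ, card_Ln, smul_eq_mul] at h1
    have h2 := Near.sum_sq_ge B hp
    have hq : 0 < Fintype.card F := Fintype.card_pos
    rw [hm'] at h1 h2 hB
    generalize Fintype.card F = q at *
    have h3 : q * q ≤ q * m ^ 2 := by nlinarith
    have h4 : q ≤ m ^ 2 := Nat.le_of_mul_le_mul_left h3 hq
    exact h4.trans (Nat.pow_le_pow_left (by omega) 2)
  · refine Or.inr ?_
    obtain ⟨x, -, hx⟩ := exists_max_image (univ : Finset (Pt F)) (deg (miss B)) univ_nonempty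
    have h1 : 1 ≤ deg (miss B) x := by
      refine le_trans ?_ (hx (none, u none l) (mem_univ _))
      exact card_pos.2 ⟨l, mem_filter.2 ⟨hl0, on_mk none l⟩⟩
    refine ⟨x, h1, ?_⟩
    have h2 := h F B x
    obtain ⟨s, hs⟩ := Nat.exists_eq_add_of_le' h1
    have h3 := Near.card_le_of_deg (miss B) hl0 s (fun y => hs ▸ hx y (mem_univ _))
    rw [hs] at h2 ⊢
    have h4 : ((miss B).card : ℤ) ≤ 1 + (Fintype.card F + 1) * s := by exact_mod_cast h3
    have h5 : (B.card : ℤ) ≤ Fintype.card F + j := by exact_mod_cast hB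
    have h6 : ((s : ℤ) + 1) * B.card ≤ (s + 1) * (Fintype.card F + j) :=
      mul_le_mul_of_nonneg_left h5 (by positivity)
    push_cast at h2
    have h7 : (Fintype.card F : ℤ) ≤ (s + 1) * (j + (s + 1) + 1) := by nlinarith
    exact_mod_cast h7

theorem nearStmt : NearStmt := nearStmt_of swStmt

end Crest.Agent.R34
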