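import Crest.Agent.R34.Plane

/-! First step of stability: few lines miss a small blocking set (`step1Stmt_of`). -/

set_option autoImplicit false
set_option linter.unusedSectionVars false
open Finset

namespace Crest.Agent.R34

namespace Step1

variable {F : Type} [Field F] [Fintype F] [DecidableEq F]

theorem sec_mono {X S : Finset (Pt F)} (h : X ⊆ S) : sec X ⊆ sec S := by
  intro l hl
  rw [mem_sec] at hl ⊢
  exact hl.trans (card_le_card (filter_subset_filter _ h))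

/-- efficiency of a small blocking set -/
theorem eff {Z S : Finset (Pt F)} {η K : ℝ} (hR : Reg Z η K) (hd : Disjoint S Z)
    (hb : ∀ l ∈ miss Z, ∃ x ∈ S, On x l) :
    ((sec S ∩ miss Z).card : ℝ) ≤
      S.card * ((1 + η) * Fintype.card F) - (1 - η) * (Fintype.card F : ℝ) ^ 2 := by
  obtain ⟨ω, h1, h2, h3, h4⟩ := hR
  have e1 : ∑ l, ω l * (nOn S l : ℝ) = ∑ x ∈ S, ∑ l ∈ univ.filter (fun l => On x l), ω l := by
    simp only [nOn, card_filter, sum_filter]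
    push_cast
    simp only [mul_sum]
    rw [sum_comm]
    refine sum_congr rfl fun x _ => sum_congr rfl fun l _ => ?_
    split_ifs <;> simp
  have e2 : ∑ x ∈ S, ∑ l ∈ univ.filter (fun l => On x l), ω l ≤
      S.card * ((1 + η) * Fintype.card F) := by
    rw [← nsmul_eq_mul]
    exact sum_le_card_nsmul _ _ _ fun x hx => (h3 x (disjoint_left.1 hd hx)).2
  have e3 : ((sec S ∩ miss Z).card : ℝ) ≤ ∑ l, (ω l * (nOn S l : ℝ) - ω l) := by
    have : ((sec S ∩ miss Z).card : ℝ) = ∑ l, if l ∈ sec S ∩ miss Z then (1 : ℝ) else 0 := by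
      rw [sum_ite_mem, univ_inter]; simp
    rw [this]
    refine sum_le_sum fun l _ => ?_
    by_cases hl : l ∈ miss Z
    · have h5 := (h1 l hl).1
      obtain ⟨x, hx, hxl⟩ := hb l hl
      have h6 : (1 : ℝ) ≤ nOn S l := by
        exact_mod_cast card_pos.2 ⟨x, mem_filter.2 ⟨hx, hxl⟩⟩
      split_ifs with h7
      · have h8 : (2 : ℝ) ≤ nOn S l := by exact_mod_cast mem_sec.1 (mem_inter.1 h7).1
        nlinarith
      · nlinarith
    · rw [h2 l hl, if_neg fun h => hl (mem_inter.1 h).2]; simp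
  rw [sum_sub_distrib, e1] at e3
  linarith

/-- many secants -/
theorem sec_lower (S : Finset (Pt F)) {E : ℝ} (hE : 0 ≤ E)
    (h : E ≤ S.card * Fintype.card F - (Fintype.card F : ℝ) ^ 2 + (miss S).card) :
    E ^ 2 ≤ (sec S).card * (S.card : ℝ) ^ 2 := by
  have h1 : ∑ l, (nOn S l : ℝ) = S.card * Fintype.card F := by exact_mod_cast sum_nOn S
  have h2 : ∑ l, (nOn S l : ℝ) ^ 2 ≤ S.card * Fintype.card F + (S.card : ℝ) ^ 2 := by
    have h3 : ∑ l, nOn S l ^ 2 ≤ S.card * Fintype.card F + S.card ^ 2 :=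
      (sum_nOn_sq S).trans (Nat.add_le_add_left
        ((Nat.mul_le_mul_left _ (Nat.sub_le _ _)).trans (le_of_eq (sq _).symm)) _)
    exact_mod_cast h3
  have h3 : ∑ l, (nOn S l : ℝ) =
      ∑ l ∈ sec S, ((nOn S l : ℝ) - 1) + (Fintype.card F : ℝ) ^ 2 - (miss S).card := by
    have e1 : ∑ l ∈ sec S, ((nOn S l : ℝ) - 1) =
        ∑ l, if l ∈ sec S then ((nOn S l : ℝ) - 1) else 0 := by rw [sum_ite_mem, univ_inter]
    have e2 : ((miss S).card : ℝ) = ∑ l, if l ∈ miss S then (1 : ℝ) else 0 := by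
      rw [sum_ite_mem, univ_inter]; simp
    have e3 : (Fintype.card F : ℝ) ^ 2 = ∑ _l : Ln F, (1 : ℝ) := by
      rw [sum_const, card_univ, card_Ln]; simp
    rw [e1, e2, e3, ← sum_add_distrib, ← sum_sub_distrib]
    refine sum_congr rfl fun l _ => ?_
    simp only [mem_sec, mem_miss_iff_nOn]
    rcases nOn S l with _ | _ | m
    · simp
    · simp
    · simp
  have h4 : ∑ l ∈ sec S, ((nOn S l : ℝ) - 1) ^ 2 ≤ (S.card : ℝ) ^ 2 := by
    calc ∑ l ∈ sec S, ((nOn S l : ℝ) - 1) ^ 2 ≤ ∑ l ∈ sec S, ((nOn S l : ℝ) ^ 2 - nOn S l) := by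
          refine sum_le_sum fun l hl => ?_
          have : (2 : ℝ) ≤ nOn S l := by exact_mod_cast mem_sec.1 hl
          nlinarith
      _ ≤ ∑ l, ((nOn S l : ℝ) ^ 2 - nOn S l) := by
          refine sum_le_sum_of_subset_of_nonneg (subset_univ _) fun l _ _ => ?_
          rcases nOn S l with _ | m
          · simp
          · push_cast; nlinarith [(Nat.cast_nonneg m : (0 : ℝ) ≤ m)]
      _ ≤ _ := by rw [sum_sub_distrib]; linarith
  have h5 := sq_sum_le_card_mul_sum_sq (s := sec S) (f := fun l => (nOn S l : ℝ) - 1)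
  calc E ^ 2 ≤ (∑ l ∈ sec S, ((nOn S l : ℝ) - 1)) ^ 2 := pow_le_pow_left₀ hE (by linarith) 2
    _ ≤ _ := h5.trans (mul_le_mul_of_nonneg_left h4 (Nat.cast_nonneg _))

/-- some point kills few secants -/
theorem erase_one (X : Finset (Pt F)) (hX : X.Nonempty) :
    ∃ x ∈ X, (sec X).card * X.card ≤ (sec (X.erase x)).card * X.card + 2 * (sec X).card := by
  have h1 : ∑ x ∈ X, (sec X \ sec (X.erase x)).card * X.card ≤ ∑ _x ∈ X, 2 * (sec X).card := by
    rw [← sum_mul, sum_const, smul_eq_mul, mul_comm]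
    refine Nat.mul_le_mul_left _ ?_
    have e : ∀ x, (sec X \ sec (X.erase x)).card =
        ∑ l ∈ sec X, if l ∉ sec (X.erase x) then 1 else 0 := by
      intro x; rw [← card_filter, sdiff_eq_filter]
    simp only [e]
    rw [sum_comm, mul_comm, ← smul_eq_mul, ← sum_const]
    refine sum_le_sum fun l hl => ?_
    rw [← card_filter]
    have hl2 := mem_sec.1 hl
    by_cases h3 : 3 ≤ nOn X l
    · rw [filter_eq_empty_iff.2, card_empty]
      · omega
      intro x _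
      rw [not_not, mem_sec, nOn, filter_erase]
      have := pred_card_le_card_erase (s := X.filter fun y => On y l) (a := x)
      unfold nOn at h3
      omega
    · refine le_trans (card_le_card (t := X.filter fun y => On y l) ?_) (by unfold nOn at h3; omega)
      intro x hx
      rw [mem_filter] at hx ⊢
      refine ⟨hx.1, ?_⟩
      by_contra hxl
      apply hx.2
      have hn : x ∉ X.filter fun y => On y l := fun h => hxl (mem_filter.1 h).2
      rw [mem_sec, nOn, filter_erase, erase_eq_of_notMem hn]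
      exact hl2
  obtain ⟨x, hx, h2⟩ := exists_le_of_sum_le hX h1
  refine ⟨x, hx, ?_⟩
  have h3 : (sec X).card ≤ (sec (X.erase x)).card + (sec X \ sec (X.erase x)).card := by
    have := le_card_sdiff (sec (X.erase x)) (sec X)
    omega
  nlinarith [Nat.mul_le_mul_right X.card h3]

theorem shrink (S : Finset (Pt F)) (d : ℕ) : ∀ k : ℕ, k + d = S.card →
    ∃ X ⊆ S, X.card = k ∧
      ((sec S).card : ℝ) * (k * (k - 1)) ≤ (sec X).card * (S.card : ℝ) ^ 2 := by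
  induction d with
  | zero =>
    intro k hk
    refine ⟨S, Subset.rfl, by omega, mul_le_mul_of_nonneg_left ?_ (Nat.cast_nonneg _)⟩
    rw [← hk]
    simp only [add_zero]
    nlinarith [(Nat.cast_nonneg k : (0 : ℝ) ≤ k)]
  | succ d ih =>
    intro k hk
    obtain ⟨X, hXS, hX, h⟩ := ih (k + 1) (by omega)
    obtain ⟨x, hx, h2⟩ := erase_one X (card_pos.1 (by omega))
    refine ⟨X.erase x, (erase_subset _ _).trans hXS, by rw [card_erase_of_mem hx]; omega, ?_⟩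
    rcases Nat.eq_zero_or_pos k with rfl | hk0
    · simp only [Nat.cast_zero, zero_mul, mul_zero]; positivity
    have hk1 : (1 : ℝ) ≤ k := by exact_mod_cast hk0
    rw [hX] at h2
    have h3 : ((sec X).card : ℝ) * (k + 1) ≤ (sec (X.erase x)).card * (k + 1) + 2 * (sec X).card := by
      exact_mod_cast h2
    push_cast at h
    refine le_of_mul_le_mul_right ?_ (by linarith : (0 : ℝ) < k + 1)
    have h4 := mul_le_mul_of_nonneg_right h (by linarith : (0 : ℝ) ≤ k - 1)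
    have h5 := mul_le_mul_of_nonneg_right h3 (sq_nonneg (S.card : ℝ))
    nlinarith

theorem deg_sec_le (X : Finset (Pt F)) (z : Pt F) : deg (sec X) z ≤ X.card := by
  refine le_trans (card_le_card ?_) (cnt_le_card X z)
  intro l hl
  simp only [mem_filter, mem_univ, true_and, mem_sec] at hl ⊢
  obtain ⟨x, hx, hxz⟩ := exists_mem_ne hl.1 z
  exact ⟨hl.2, x, (mem_filter.1 hx).1, hxz, (mem_filter.1 hx).2⟩

/-- few points see `X` along few lines -/
theorem dec_small (X : Finset (Pt F)) {J a : ℕ} (hJ : J + a ≤ X.card)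
    (ha : 2 * (X.card : ℝ) ^ 2 ≤ a * Fintype.card F) :
    ((dec X J).card : ℝ) * (a : ℝ) ^ 2 ≤ 4 * (Fintype.card F : ℝ) ^ 3 + X.card * (a : ℝ) ^ 2 := by
  have hq : (0 : ℝ) < Fintype.card F := card_pos_real
  set q : ℝ := (Fintype.card F : ℝ) with hqd
  have h1 : ∑ l, (nOn X l : ℝ) = X.card * q := by rw [hqd]; exact_mod_cast sum_nOn X
  have h2 : ∑ l, (nOn X l : ℝ) ^ 2 ≤ X.card * q + (X.card : ℝ) ^ 2 := by
    have h3 : ∑ l, nOn X l ^ 2 ≤ X.card * Fintype.card F + X.card ^ 2 :=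
      (sum_nOn_sq X).trans (Nat.add_le_add_left
        ((Nat.mul_le_mul_left _ (Nat.sub_le _ _)).trans (le_of_eq (sq _).symm)) _)
    rw [hqd]; exact_mod_cast h3
  have e3 : q ^ 2 = ∑ _l : Ln F, (1 : ℝ) := by
    rw [sum_const, card_univ, card_Ln]; simp [hqd]
  have h3 : ((miss X).card : ℝ) ≤ q ^ 2 - X.card * q + (X.card : ℝ) ^ 2 := by
    have e2 : ((miss X).card : ℝ) = ∑ l, if l ∈ miss X then (1 : ℝ) else 0 := by
      rw [sum_ite_mem, univ_inter]; simp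
    have e4 : ((miss X).card : ℝ) ≤ ∑ l, (1 - 2 * (nOn X l : ℝ) + (nOn X l : ℝ) ^ 2) := by
      rw [e2]
      refine sum_le_sum fun l _ => ?_
      split_ifs with hl
      · rw [mem_miss_iff_nOn.1 hl]; simp
      · nlinarith [sq_nonneg ((nOn X l : ℝ) - 1)]
    rw [sum_add_distrib, sum_sub_distrib, ← mul_sum, ← e3, h1] at e4
    linarith
  have h4 : ((miss X).card : ℝ) ≤ q ^ 2 := by
    have := card_le_univ (miss X)
    rw [card_Ln] at this
    rw [hqd]; exact_mod_cast this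
  have h5 := mixing_card (miss X) (dec X J \ X) (a / 2) (by positivity) (by
    intro y hy
    obtain ⟨hy1, hy2⟩ := mem_sdiff.1 hy
    have h6 : (cnt X y : ℝ) + deg (miss X) y = q := by
      rw [hqd]; exact_mod_cast cnt_add_deg_miss hy2
    have h7 : (cnt X y : ℝ) + a ≤ X.card := by
      exact_mod_cast le_trans (Nat.add_le_add_right (mem_dec.1 hy1) a) hJ
    refine le_trans ?_ (le_abs_self _)
    have h8 : ((miss X).card : ℝ) / q ≤ q - X.card + a / 2 := by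
      rw [div_le_iff₀ hq]; nlinarith
    linarith)
  have h6 : ((dec X J).card : ℝ) ≤ (dec X J \ X).card + X.card := by
    exact_mod_cast card_le_card_sdiff_add_card (s := dec X J) (t := X)
  have h7 := mul_le_mul_of_nonneg_left h4 hq.le
  have h8 := mul_le_mul_of_nonneg_right h6 (sq_nonneg (a : ℝ))
  rw [← hqd] at h5
  nlinarith

/-- the class of `x` seen from `z` -/
noncomputable def cl (z x : Pt F) : Option (Ln F) :=
  if h : x.1 = z.1 then none else some (exists_line h).choose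

theorem cl_eq {z x : Pt F} {l : Ln F} (hne : x ≠ z) (hx : On x l) (hz : On z l) :
    cl z x = some l := by
  have h : ¬ x.1 = z.1 := fun e => hne (eq_of_on_of_fst hx hz e)
  rw [cl, dif_neg h]
  have := (exists_line h).choose_spec
  exact congrArg some (line_unique hne this.1 this.2 hx hz)

theorem detect (h : DetStmt) (X Y : Finset (Pt F)) (hd : Disjoint X Y) {k a : ℕ} {β : ℝ}
    (hβ : 0 < β) (ha : 3 ≤ a) (hk : 1 ≤ k) (hk4 : 4 * k ≤ X.card)
    (h64 : 64 * (X.card : ℝ) * a ≤ β * k ^ 2) (hY : ∀ z ∈ Y, β * X.card ≤ deg (sec X) z) :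
    ∃ X' ⊆ X, X'.card = 2 * k ∧ Y.card ≤ 2 * (Y ∩ dec X' (2 * k - a)).card := by
  obtain ⟨X', h1, h2, h3, -⟩ := h (Pt F) (Option (Ln F)) (Pt F) Unit X Y cl ∅ (fun _ => ∅) 1 k a β
    le_rfl hβ ha hk hk4 (by omega) (by simpa using h64) (by
      intro z hz
      refine (hY z hz).trans (Nat.cast_le.2 ?_)
      have hzX : z ∉ X := disjoint_right.1 hd hz
      rw [deg, ← card_image_of_injective _ (Option.some_injective _)]
      refine le_trans (card_le_card ?_) (card_image_le (f := cl z))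
      intro o ho
      obtain ⟨l, hl, rfl⟩ := mem_image.1 ho
      obtain ⟨hl1, hl2⟩ := mem_filter.1 hl
      have hl3 : 2 ≤ (X.filter fun x => On x l).card := mem_sec.1 hl1
      obtain ⟨x, hx⟩ := card_pos.1 (by omega : 0 < (X.filter fun x => On x l).card)
      have hc : ∀ x ∈ X.filter fun x => On x l, cl z x = some l := fun x hx =>
        cl_eq (fun e => hzX (e ▸ (mem_filter.1 hx).1)) (mem_filter.1 hx).2 hl2
      refine mem_image.2 ⟨x, mem_filter.2 ⟨(mem_filter.1 hx).1, hl3.trans (card_le_card ?_)⟩,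
        hc x hx⟩
      intro x' hx'
      exact mem_filter.2 ⟨(mem_filter.1 hx').1, (hc x' hx').trans (hc x hx).symm⟩)
    (by simp) (by simp)
  refine ⟨X', h1, h2, h3.trans (Nat.mul_le_mul_left _ (card_le_card ?_))⟩
  intro z hz
  obtain ⟨hz1, hz2⟩ := mem_filter.1 hz
  refine mem_inter.2 ⟨hz1, mem_dec.2 ?_⟩
  have : cnt X' z ≤ (X'.image (cl z)).card := by
    rw [cnt, ← card_image_of_injective _ (Option.some_injective _)]
    refine card_le_card fun o ho => ?_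
    obtain ⟨l, hl, rfl⟩ := mem_image.1 ho
    simp only [mem_filter, mem_univ, true_and] at hl
    obtain ⟨hl1, x, hx, hxz, hxl⟩ := hl
    exact mem_image.2 ⟨x, hx, cl_eq hxz hxl hl1⟩
  omega

theorem floor_ge {x : ℝ} (hx : 2 ≤ x) : x / 2 ≤ (⌊x⌋₊ : ℝ) := by
  have := Nat.lt_floor_add_one x
  linarith

/-- the integer parameters -/
theorem numbers {ρ e q : ℝ} (hρ0 : 0 < ρ) (he0 : 0 < e) (hρ1 : ρ ≤ 1 / 128) (he1 : e ≤ 1 / 32768)
    (hq : 0 < q) (hA : 6 ≤ (ρ * e) ^ 2 * q) :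
    ∃ k₁ k a : ℕ, (k₁ : ℝ) ≤ e * q ∧ e * q / 2 ≤ k₁ ∧ (3 : ℝ) ≤ k₁ ∧ (k : ℝ) ≤ ρ * k₁ ∧
      (ρ * e) ^ 2 * q * q ≤ 16 * (k : ℝ) ^ 2 ∧ 1 ≤ k ∧ 4 * k ≤ k₁ ∧ 3 ≤ a ∧ a ≤ k ∧
      64 * (k₁ : ℝ) * a ≤ 1024 * e * k ^ 2 ∧ (ρ * e) ^ 2 * q / 2 ≤ a ∧ 8 * (k : ℝ) ^ 2 ≤ a * q := by
  have hρe : ρ * e ≤ 1 := by nlinarith
  have hρe0 : 0 < ρ * e := mul_pos hρ0 he0
  have hA1 : 6 ≤ ρ * e * q := by
    have : (ρ * e) ^ 2 ≤ ρ * e := by nlinarith
    exact hA.trans (mul_le_mul_of_nonneg_right this hq.le)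
  have heq : 0 < e * q := mul_pos he0 hq
  have hA2 : 6 ≤ e * q := by
    have : ρ * (e * q) ≤ 1 * (e * q) := mul_le_mul_of_nonneg_right (by linarith) heq.le
    linarith
  obtain ⟨k₁, hk₁u, hk₁l⟩ : ∃ k₁ : ℕ, (k₁ : ℝ) ≤ e * q ∧ e * q / 2 ≤ k₁ :=
    ⟨⌊e * q⌋₊, Nat.floor_le (by positivity), floor_ge (by linarith)⟩
  have hk₁3 : (3 : ℝ) ≤ k₁ := by linarith
  have hρk : ρ * e * q / 2 ≤ ρ * k₁ := by
    have := mul_le_mul_of_nonneg_left hk₁l hρ0.le
    linarith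
  obtain ⟨k, hku, hkl⟩ : ∃ k : ℕ, (k : ℝ) ≤ ρ * k₁ ∧ ρ * k₁ / 2 ≤ k :=
    ⟨⌊ρ * k₁⌋₊, Nat.floor_le (by positivity), floor_ge (by linarith)⟩
  have hkl' : ρ * e * q / 4 ≤ k := by linarith
  have hk1 : (1 : ℝ) ≤ k := by linarith
  have hksq : (ρ * e) ^ 2 * q * q ≤ 16 * (k : ℝ) ^ 2 := by
    have := pow_le_pow_left₀ (by positivity) hkl' 2
    linarith
  have hx : 16 * (k : ℝ) ^ 2 / q ≤ 1024 * e * k ^ 2 / (64 * k₁) := by
    rw [div_le_div_iff₀ hq (by positivity)]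
    linarith [mul_le_mul_of_nonneg_left hk₁u (sq_nonneg (k : ℝ))]
  have hx' : (ρ * e) ^ 2 * q ≤ 16 * (k : ℝ) ^ 2 / q := by rw [le_div_iff₀ hq]; exact hksq
  obtain ⟨a, hau, hal⟩ : ∃ a : ℕ, (a : ℝ) ≤ 1024 * e * k ^ 2 / (64 * k₁) ∧
      1024 * e * k ^ 2 / (64 * k₁) / 2 ≤ a :=
    ⟨⌊1024 * e * k ^ 2 / (64 * k₁)⌋₊, Nat.floor_le (by positivity), floor_ge (by linarith)⟩
  rw [le_div_iff₀ (by positivity)] at hau
  have hal1 : (ρ * e) ^ 2 * q / 2 ≤ a := by linarith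
  have hal2 : 8 * (k : ℝ) ^ 2 ≤ a * q := by
    have : 16 * (k : ℝ) ^ 2 / q ≤ 2 * a := by linarith
    rw [div_le_iff₀ hq] at this
    linarith
  have ha3 : (3 : ℝ) ≤ a := by linarith
  have hk4 : 4 * (k : ℝ) ≤ k₁ := by
    have : ρ * k₁ ≤ 1 / 128 * k₁ := mul_le_mul_of_nonneg_right hρ1 (by positivity)
    linarith
  have hak : (a : ℝ) ≤ k := by
    refine le_of_mul_le_mul_right ?_ (by positivity : (0 : ℝ) < 64 * k₁)
    have t1 : e * (k : ℝ) ^ 2 ≤ 1 / 32768 * k ^ 2 := mul_le_mul_of_nonneg_right he1 (sq_nonneg _)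
    have t2 : (k : ℝ) * (4 * k) ≤ k * k₁ := mul_le_mul_of_nonneg_left hk4 (by positivity)
    have t3 : 0 ≤ (k : ℝ) ^ 2 := sq_nonneg _
    linarith
  exact ⟨k₁, k, a, hk₁u, hk₁l, hk₁3, hku, hksq, by exact_mod_cast hk1, by exact_mod_cast hk4,
    by exact_mod_cast ha3, by exact_mod_cast hak, by linarith, hal1, hal2⟩

/-- consequences of the efficiency inequality -/
theorem eff' {Z S : Finset (Pt F)} {η K g : ℝ} (hη0 : 0 ≤ η) (hη : η ≤ g / 4) (hg1 : g ≤ 1)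
    (hR : Reg Z η K) (hd : Disjoint S Z) (hS : S.card ≤ Fintype.card F)
    (hb : ∀ l ∈ miss Z, ∃ x ∈ S, On x l) (hm : g * (Fintype.card F : ℝ) ^ 2 < (miss S).card) :
    ((sec S ∩ miss Z).card : ℝ) ≤ 2 * η * (Fintype.card F : ℝ) ^ 2 ∧
      (Fintype.card F : ℝ) / 2 ≤ S.card ∧
      g ^ 2 * (Fintype.card F : ℝ) ^ 2 / 4 ≤ (sec S).card := by
  have hq : (0 : ℝ) < Fintype.card F := card_pos_real
  have h1 := eff hR hd hb
  have hs := sec_lower S (E := g * (Fintype.card F : ℝ) ^ 2 / 2)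
  have hn : (S.card : ℝ) ≤ Fintype.card F := by exact_mod_cast hS
  generalize (Fintype.card F : ℝ) = q at *
  have hn0 : (0 : ℝ) ≤ S.card := Nat.cast_nonneg _
  have h0 : (0 : ℝ) ≤ (sec S ∩ miss Z).card := Nat.cast_nonneg _
  have hs0 : (0 : ℝ) ≤ (sec S).card := Nat.cast_nonneg _
  generalize (S.card : ℝ) = n at *
  have hg0 : 0 ≤ g := by linarith
  have hnq : n * q ≤ q * q := mul_le_mul_of_nonneg_right hn hq.le
  have hnq' : η * (n * q) ≤ η * (q * q) := mul_le_mul_of_nonneg_left hnq hη0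
  have hq2 : η * (q * q) ≤ g / 4 * (q * q) := mul_le_mul_of_nonneg_right hη (by positivity)
  have hq3 : g * (q * q) ≤ 1 * (q * q) := mul_le_mul_of_nonneg_right hg1 (by positivity)
  refine ⟨by linarith, le_of_mul_le_mul_right (by linarith) hq, ?_⟩
  have h4 := hs (by positivity) (by linarith)
  refine le_of_mul_le_mul_right ?_ (by positivity : 0 < q ^ 2)
  have := mul_le_mul_of_nonneg_left (pow_le_pow_left₀ hn0 hn 2) hs0
  linarith

theorem shrink' {S : Finset (Pt F)} {g : ℝ} (hS : S.card ≤ Fintype.card F) {k₁ : ℕ}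
    (hk : k₁ ≤ S.card) (hk3 : (3 : ℝ) ≤ k₁)
    (h5 : g ^ 2 * (Fintype.card F : ℝ) ^ 2 / 4 ≤ (sec S).card) :
    ∃ X ⊆ S, X.card = k₁ ∧ g ^ 2 * (k₁ : ℝ) ^ 2 / 8 ≤ (sec X).card := by
  obtain ⟨X, hXS, hX, h6⟩ := shrink S (S.card - k₁) k₁ (by omega)
  refine ⟨X, hXS, hX, ?_⟩
  have hq : (0 : ℝ) < Fintype.card F := card_pos_real
  have hn : (S.card : ℝ) ≤ Fintype.card F := by exact_mod_cast hS
  refine le_of_mul_le_mul_right ?_ (by positivity : 0 < (Fintype.card F : ℝ) ^ 2)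
  have t1 := pow_le_pow_left₀ (Nat.cast_nonneg _) hn 2
  have t2 := mul_le_mul_of_nonneg_left t1 (Nat.cast_nonneg (sec X).card : (0 : ℝ) ≤ _)
  have t3 : (k₁ : ℝ) ^ 2 / 2 ≤ k₁ * (k₁ - 1) := by nlinarith
  have t4 := mul_le_mul h5 t3 (by positivity) (Nat.cast_nonneg _)
  linarith

theorem sum_deg_le (X Z₁ : Finset (Pt F)) {β : ℝ} (hβ : 0 ≤ β) :
    ∑ z ∈ Z₁, (deg (sec X) z : ℝ) ≤
      (Z₁.filter fun z => β * (X.card : ℝ) ≤ deg (sec X) z).card * (X.card : ℝ) +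
        Z₁.card * (β * X.card) := by
  have e1 : ((Z₁.filter fun z => β * (X.card : ℝ) ≤ deg (sec X) z).card : ℝ) * X.card =
      ∑ z ∈ Z₁, if β * (X.card : ℝ) ≤ deg (sec X) z then (X.card : ℝ) else 0 := by
    rw [← sum_filter, sum_const, nsmul_eq_mul]
  rw [e1, ← nsmul_eq_mul, ← sum_const, ← sum_add_distrib]
  refine sum_le_sum fun z _ => ?_
  have t1 : (deg (sec X) z : ℝ) ≤ X.card := by exact_mod_cast deg_sec_le X z
  have t2 : 0 ≤ β * (X.card : ℝ) := by positivity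
  split_ifs with t3 <;> linarith

theorem dec_small' (X : Finset (Pt F)) {k a : ℕ} {r : ℝ} (hr : 0 < r) (hX : X.card = 2 * k)
    (hak : a ≤ k) (h1 : r ^ 2 * Fintype.card F / 2 ≤ a)
    (h2 : 8 * (k : ℝ) ^ 2 ≤ a * Fintype.card F) (h3 : 2 * (k : ℝ) ≤ Fintype.card F) :
    ((dec X (2 * k - a)).card : ℝ) ≤ (16 / r ^ 4 + 1) * Fintype.card F := by
  have hq : (0 : ℝ) < Fintype.card F := card_pos_real
  have hXr : (X.card : ℝ) = 2 * k := by rw [hX]; push_cast; rfl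
  have h12 := dec_small X (J := 2 * k - a) (a := a) (by omega) (by rw [hXr]; linarith)
  rw [hXr] at h12
  generalize (Fintype.card F : ℝ) = q at *
  have ha : (0 : ℝ) < a := lt_of_lt_of_le (by positivity) h1
  refine le_of_mul_le_mul_right ?_ (by positivity : (0 : ℝ) < (a : ℝ) ^ 2)
  have t1 := pow_le_pow_left₀ (by positivity) h1 2
  have t2 : 4 * q ^ 3 ≤ 16 / r ^ 4 * q * (a : ℝ) ^ 2 := by
    calc 4 * q ^ 3 = 16 / r ^ 4 * q * (r ^ 2 * q / 2) ^ 2 := by field_simp; ring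
      _ ≤ _ := mul_le_mul_of_nonneg_left t1 (by positivity)
  have t4 := mul_le_mul_of_nonneg_right h3 (sq_nonneg (a : ℝ))
  linarith

theorem final {c L g κ ρ e η q k₁ k s y z u w : ℝ} (hL : 1 ≤ L) (hc : 0 < c) (hκ0 : 0 < κ)
    (he0 : 0 < e) (hκc : κ ≤ c * g ^ 2) (hρ : ρ * (128 * L) = κ) (he : e * (32768 * L) = κ)
    (hη : η = κ * e ^ 2 / 256) (hk₁ : 3 ≤ k₁) (hk : k ≤ ρ * k₁) (hsq : e ^ 2 * q ^ 2 ≤ 4 * k₁ ^ 2)
    (h7 : g ^ 2 * k₁ ^ 2 / 8 ≤ s) (h8 : c * s ≤ u + w) (h9 : u ≤ 2 * η * q ^ 2)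
    (h10 : w ≤ y * k₁ + z * (1024 * e * k₁)) (hz : z ≤ L * k₁) (hy : y ≤ 4 * L * k) : False := by
  have h16 : y * k₁ ≤ κ / 32 * k₁ ^ 2 := by
    have t1 : y ≤ κ / 32 * k₁ := by
      rw [← hρ]
      linarith [mul_le_mul_of_nonneg_left hk (by linarith : 0 ≤ L)]
    linarith [mul_le_mul_of_nonneg_right t1 (by positivity : (0 : ℝ) ≤ k₁)]
  have h17 : z * (1024 * e * k₁) ≤ κ / 32 * k₁ ^ 2 := by
    rw [← he]
    linarith [mul_le_mul_of_nonneg_right hz (by positivity : (0 : ℝ) ≤ 1024 * e * k₁)]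
  have h18 : 2 * η * q ^ 2 ≤ κ / 32 * k₁ ^ 2 := by
    rw [hη]
    linarith [mul_le_mul_of_nonneg_left hsq hκ0.le]
  have h19 : κ / 8 * k₁ ^ 2 ≤ c * s := by
    linarith [mul_le_mul_of_nonneg_left h7 hc.le, mul_le_mul_of_nonneg_right hκc (sq_nonneg k₁)]
  have h20 : 0 < κ * k₁ ^ 2 := by positivity
  linarith

/-- the core contradiction, with all numerical conditions explicit -/
theorem core (h : DetStmt) {c L g κ ρ e η : ℝ} (hL : 1 ≤ L) (hc : 0 < c) (hg0 : 0 < g)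
    (hg1 : g ≤ 1) (hκ0 : 0 < κ) (hρ0 : 0 < ρ) (he0 : 0 < e) (hκg : κ ≤ g) (hκc : κ ≤ c * g ^ 2)
    (hρ : ρ * (128 * L) = κ) (he : e * (32768 * L) = κ) (hη : η = κ * e ^ 2 / 256)
    (hA : 6 ≤ (ρ * e) ^ 2 * Fintype.card F) (hB : 11 ≤ (g * e) ^ 4 * Fintype.card F)
    {Z : Finset (Pt F)} {K : ℝ} (hR : Reg Z η K)
    (hH : Hit Z (ρ * e / 2) (16 / (ρ * e) ^ 4 + 1) L) (hBl : Blk Z (ρ * e / 2) c L)
    {S : Finset (Pt F)} (hd : Disjoint S Z) (hS : S.card ≤ Fintype.card F)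
    (hb : ∀ l ∈ miss Z, ∃ x ∈ S, On x l)
    (hm : g * (Fintype.card F : ℝ) ^ 2 < (miss S).card) : False := by
  have hq : (0 : ℝ) < Fintype.card F := card_pos_real
  have hq1 : (1 : ℝ) ≤ Fintype.card F := by exact_mod_cast Fintype.card_pos
  have hρ1 : ρ ≤ 1 / 128 := by
    linarith [mul_le_mul_of_nonneg_left hL hρ0.le]
  have he1 : e ≤ 1 / 32768 := by
    linarith [mul_le_mul_of_nonneg_left hL he0.le]
  have hη0 : 0 ≤ η := by rw [hη]; positivity
  have hη1 : η ≤ g / 4 := by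
    rw [hη]
    have : e ^ 2 ≤ 1 := pow_le_one₀ he0.le (by linarith)
    linarith [mul_le_mul_of_nonneg_left this hκ0.le]
  obtain ⟨h2, h3, h5⟩ := eff' hη0 hη1 hg1 hR hd hS hb hm
  obtain ⟨k₁, k, a, hk₁u, hk₁l, hk₁3, hku, hksq, hk1, hk4, ha3, hak, hau, hal1, hal2⟩ :=
    numbers hρ0 he0 hρ1 he1 hq hA
  have heq : e * Fintype.card F ≤ 1 / 32768 * Fintype.card F :=
    mul_le_mul_of_nonneg_right he1 hq.le
  have hk₁n : k₁ ≤ S.card := by
    have : (k₁ : ℝ) ≤ S.card := by linarith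
    exact_mod_cast this
  obtain ⟨X, hXS, hX, h7⟩ := shrink' hS hk₁n hk₁3 h5
  have hk₁sq : e ^ 2 * (Fintype.card F : ℝ) ^ 2 ≤ 4 * (k₁ : ℝ) ^ 2 := by
    have := pow_le_pow_left₀ (by positivity) hk₁l 2
    linarith
  obtain ⟨Z₁, hZ₁, hZ₁c, h8⟩ := hBl X ∅ 0 (sec X) (Or.inl rfl)
    (by
      rw [hX]
      have : ρ * (e * Fintype.card F) ≤ 1 * (e * Fintype.card F) :=
        mul_le_mul_of_nonneg_right (by linarith) (by positivity)
      linarith) (by
      have t1 : (g * e) ^ 2 * (Fintype.card F : ℝ) ^ 2 / 32 ≤ (sec X).card := by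
        linarith [mul_le_mul_of_nonneg_left hk₁sq (sq_nonneg g)]
      have t2 := pow_le_pow_left₀ (by positivity) t1 2
      have t4 : 0 ≤ (Fintype.card F : ℝ) ^ 3 := by positivity
      have t3 := mul_le_mul_of_nonneg_right hB t4
      linarith)
  rw [hX, card_empty, Nat.cast_zero, add_zero] at hZ₁c
  have h9 : ((sec X ∩ miss Z).card : ℝ) ≤ 2 * η * (Fintype.card F : ℝ) ^ 2 :=
    le_trans (Nat.cast_le.2 (card_le_card (inter_subset_inter_right (sec_mono hXS)))) h2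
  have h10 := sum_deg_le X Z₁ (β := 1024 * e) (by positivity)
  set Y := Z₁.filter fun z => 1024 * e * (X.card : ℝ) ≤ deg (sec X) z with hY
  have hYZ : Y ⊆ Z := (filter_subset _ _).trans hZ₁
  obtain ⟨X', -, hX', h11⟩ := detect h X Y (hd.mono hXS hYZ) (k := k) (a := a) (β := 1024 * e)
    (by positivity) ha3 hk1 (by rw [hX]; exact hk4) (by rw [hX]; exact hau)
    fun z hz => (mem_filter.1 hz).2
  have hX'r : (X'.card : ℝ) = 2 * k := by rw [hX']; push_cast; rfl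
  have hk4' : 4 * (k : ℝ) ≤ k₁ := by exact_mod_cast hk4
  have h13 := dec_small' X' (mul_pos hρ0 he0) hX' hak hal1 hal2 (by linarith)
  have h14 := hH X' (2 * k - a) (by
    rw [hX'r]
    have := mul_le_mul_of_nonneg_left hq1 (by positivity : 0 ≤ (ρ * e) ^ 2 * Fintype.card F)
    linarith) h13
  rw [hX'r] at h14
  have h15 : (Y.card : ℝ) ≤ 4 * L * k := by
    have t1 : (Y.card : ℝ) ≤ 2 * (Z ∩ dec X' (2 * k - a)).card := by
      exact_mod_cast h11.trans (Nat.mul_le_mul_left _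
        (card_le_card (inter_subset_inter_right hYZ)))
    linarith
  rw [hX] at h10
  exact final hL hc hκ0 he0 hκc hρ he hη hk₁3 hku hk₁sq h7 h8 h9 h10 hZ₁c h15

end Step1

theorem step1Stmt_of (h : DetStmt) : Step1Stmt := by
  intro c L γ hc hL hγ
  have hg0 : 0 < min γ 1 := lt_min hγ one_pos
  have hg1 : min γ 1 ≤ 1 := min_le_right _ _
  have hgγ : min γ 1 ≤ γ := min_le_left _ _
  set g := min γ 1 with hg
  have hκ0 : 0 < min g (c * g ^ 2) := lt_min hg0 (by positivity)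
  set κ := min g (c * g ^ 2) with hκ
  have hL0 : 0 < L := by linarith
  set ρ := κ / (128 * L) with hρ
  set e := κ / (32768 * L) with he
  have hρ0 : 0 < ρ := by positivity
  have he0 : 0 < e := by positivity
  refine ⟨κ * e ^ 2 / 256, ρ * e / 2, 16 / (ρ * e) ^ 4 + 1, by positivity, by positivity,
    by positivity, ⌈6 / (ρ * e) ^ 2⌉₊ + ⌈11 / (g * e) ^ 4⌉₊, ?_⟩
  intro F _ _ _ hq Z K hR hH hB S hd hS hb
  by_contra hcon
  push Not at hcon
  have hA : 6 / (ρ * e) ^ 2 ≤ Fintype.card F := Nat.ceil_le.1 (le_trans (Nat.le_add_right _ _) hq)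
  have hB' : 11 / (g * e) ^ 4 ≤ Fintype.card F := Nat.ceil_le.1 (le_trans (Nat.le_add_left _ _) hq)
  rw [div_le_iff₀ (by positivity), mul_comm] at hA hB'
  exact Step1.core h hL hc hg0 hg1 hκ0 hρ0 he0 (min_le_left _ _) (min_le_right _ _)
    (by rw [hρ]; field_simp) (by rw [he]; field_simp) rfl hA hB' hR hH hB hd hS hb
    (lt_of_le_of_lt (mul_le_mul_of_nonneg_right hgγ (sq_nonneg _)) hcon)

end Crest.Agent.R34
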