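import Crest.Agent.R34.Test

/-! Row 34: second step of stability and the stability theorem. -/

set_option autoImplicit false
set_option linter.unusedSectionVars false
open Finset

namespace Crest.Agent.R34

namespace Step2

/-! ### generic counting -/

theorem heavy {α β : Type} [DecidableEq α] [DecidableEq β] (S : Finset α) (f : α → β) (D : ℕ) :
    S.card ≤ (S.filter (fun x => D + 1 ≤ (S.filter (fun x' => f x' = f x)).card)).card +
      (S.image f).card * D := by
  rw [← card_filter_add_card_filter_not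
    (fun x => D + 1 ≤ (S.filter (fun x' => f x' = f x)).card) (s := S)]
  refine Nat.add_le_add_left ?_ _
  rw [card_eq_sum_card_fiberwise (f := f) (t := S.image f)
    (fun x hx => mem_image_of_mem _ (mem_filter.1 hx).1), ← smul_eq_mul, ← sum_const]
  refine sum_le_sum (fun b _ => ?_)
  by_cases h : ((S.filter (fun x => ¬ D + 1 ≤ (S.filter (fun x' => f x' = f x)).card)).filter
      (fun x => f x = b)).Nonempty
  · obtain ⟨x, hx⟩ := h
    simp only [mem_filter] at hx
    obtain ⟨⟨_, h2⟩, rfl⟩ := hx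
    refine le_trans (card_le_card ?_) (Nat.lt_succ_iff.1 (not_le.1 h2))
    exact filter_subset_filter _ (filter_subset _ _)
  · rw [not_nonempty_iff_eq_empty.1 h]; simp

theorem two_mul_card_le {α β : Type} [DecidableEq α] [DecidableEq β] (S M : Finset α) (f : α → β)
    (T : Finset β) (hM : M ⊆ S)
    (hT : ∀ b ∈ T, ∃ y ∈ S, f y = b ∧ (y ∈ M → ∃ y' ∈ S, y' ≠ y ∧ f y' = b)) :
    2 * T.card + M.card ≤ 2 * S.card := by
  have h1 : ∑ y ∈ S, (if y ∈ M then 1 else 2) + M.card = 2 * S.card := by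
    have : M.card = ∑ y ∈ S, if y ∈ M then 1 else 0 := by
      rw [← card_filter, filter_mem_eq_inter, inter_eq_right.2 hM]
    rw [this, ← sum_add_distrib, mul_comm, ← smul_eq_mul, ← sum_const]
    exact sum_congr rfl (fun y _ => by split_ifs <;> rfl)
  have h2 : 2 * T.card ≤ ∑ y ∈ S, (if y ∈ M then 1 else 2) := by
    calc 2 * T.card = ∑ _b ∈ T, 2 := by rw [sum_const, smul_eq_mul, mul_comm]
      _ ≤ ∑ b ∈ T, ∑ y ∈ S.filter (fun y => f y = b), (if y ∈ M then 1 else 2) := by
          refine sum_le_sum (fun b hb => ?_)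
          obtain ⟨y, hy, hb', h⟩ := hT b hb
          by_cases hm : y ∈ M
          · obtain ⟨y', hy', hne, hb''⟩ := h hm
            have hsub : ({y', y} : Finset α) ⊆ S.filter (fun y => f y = b) := by
              intro z hz
              simp only [mem_insert, mem_singleton] at hz
              rcases hz with rfl | rfl
              · exact mem_filter.2 ⟨hy', hb''⟩
              · exact mem_filter.2 ⟨hy, hb'⟩
            refine le_trans ?_ (sum_le_sum_of_subset hsub)
            rw [sum_pair hne, if_pos hm]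
            split_ifs <;> omega
          · refine le_trans ?_ (single_le_sum (f := fun y => if y ∈ M then 1 else 2)
              (fun _ _ => Nat.zero_le _) (mem_filter.2 ⟨hy, hb'⟩))
            simp [hm]
      _ = ∑ y ∈ S.filter (fun y => f y ∈ T), (if y ∈ M then 1 else 2) :=
          sum_fiberwise_eq_sum_filter _ _ _ _
      _ ≤ _ := sum_le_sum_of_subset (filter_subset _ _)
  omega

variable {F : Type} [Field F] [Fintype F] [DecidableEq F]

/-! ### consequences of regularity -/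

theorem card_ge {Z S : Finset (Pt F)} {K : ℝ} (hR : Reg Z (1 / 4) K) (hd : Disjoint S Z)
    (hb : ∀ l ∈ miss Z, ∃ x ∈ S, On x l) : 3 * (Fintype.card F : ℝ) ≤ 5 * S.card := by
  obtain ⟨ω, h1, h2, h3, h4⟩ := hR
  have hq : (0 : ℝ) < Fintype.card F := card_pos_real
  have h0 : ∀ l, 0 ≤ ω l := fun l => by
    by_cases h : l ∈ miss Z
    · linarith [(h1 l h).1]
    · exact (h2 l h).ge
  have h5 : ∑ l, ω l ≤ ∑ x ∈ S, ∑ l ∈ univ.filter (fun l => On x l), ω l := by
    simp only [sum_filter]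
    rw [sum_comm]
    refine sum_le_sum (fun l _ => ?_)
    by_cases h : l ∈ miss Z
    · obtain ⟨x, hx, hxl⟩ := hb l h
      refine le_trans ?_ (single_le_sum (f := fun x => if On x l then ω l else 0)
        (fun y _ => by split_ifs; exacts [h0 l, le_rfl]) hx)
      simp [hxl]
    · simp [h2 l h]
  have h6 : ∑ x ∈ S, ∑ l ∈ univ.filter (fun l => On x l), ω l ≤
      S.card * ((1 + 1 / 4) * Fintype.card F) := by
    rw [← nsmul_eq_mul, ← sum_const]
    exact sum_le_sum (fun x hx => (h3 x (disjoint_left.1 hd hx)).2)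
  have h7 : (3 * (Fintype.card F : ℝ)) * Fintype.card F ≤ (5 * S.card) * Fintype.card F := by
    nlinarith
  exact le_of_mul_le_mul_right h7 hq

theorem deg_le_of_not_mem {Z S : Finset (Pt F)} {K : ℝ} (hK : 1 ≤ K) (hR : Reg Z (1 / 4) K)
    (hb : ∀ l ∈ miss Z, ∃ x ∈ S, On x l) {x : Pt F} (hx : x ∉ Z) :
    3 * (Fintype.card F : ℝ) ≤ 4 * K * (Fintype.card F - deg (miss S) x) := by
  obtain ⟨ω, h1, h2, h3, -⟩ := hR
  have h4 := (h3 x hx).1
  have h5 : ∑ l ∈ univ.filter (fun l => On x l), ω l ≤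
      ∑ l ∈ univ.filter (fun l => On x l), (K - if l ∈ miss S then K else 0) := by
    refine sum_le_sum (fun l _ => ?_)
    by_cases h : l ∈ miss Z
    · obtain ⟨y, hy, hyl⟩ := hb l h
      rw [if_neg (fun h' => mem_miss.1 h' y hy hyl), sub_zero]
      exact (h1 l h).2
    · rw [h2 l h]
      split_ifs <;> linarith
  rw [sum_sub_distrib, sum_const, card_lines_on, sum_ite_mem, sum_const, nsmul_eq_mul,
    nsmul_eq_mul] at h5
  have h6 : (univ.filter (fun l => On x l) ∩ miss S).card = deg (miss S) x := by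
    unfold deg
    congr 1
    ext l
    simp [and_comm]
  rw [h6] at h5
  nlinarith

theorem sum_cnt (B : Finset (Pt F)) :
    ∑ x ∈ B, cnt B x + 2 * Fintype.card F ^ 2 ≤
      2 * (B.card * Fintype.card F) + 2 * (miss B).card := by
  have h1 : ∑ x ∈ B, cnt B x ≤ ∑ l, if 2 ≤ nOn B l then nOn B l else 0 := by
    simp only [cnt, card_filter]
    rw [sum_comm]
    refine sum_le_sum (fun l _ => ?_)
    split_ifs with h
    · rw [nOn, card_filter]
      refine sum_le_sum (fun x _ => ?_)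
      by_cases h' : On x l <;> simp [h']
      split_ifs <;> omega
    · refine le_of_eq (sum_eq_zero (fun x hx => if_neg ?_))
      rintro ⟨hxl, y, hy, hne, hyl⟩
      exact h (one_lt_card.2 ⟨y, mem_filter.2 ⟨hy, hyl⟩, x, mem_filter.2 ⟨hx, hxl⟩, hne⟩)
  have h2 : (miss B).card = ∑ l, if nOn B l = 0 then 1 else 0 := by
    rw [← card_filter]
    congr 1
    ext l
    simp [mem_miss_iff_nOn]
  have h3 : 2 * Fintype.card F ^ 2 = ∑ _l : Ln F, 2 := by
    rw [sum_const, card_univ, card_Ln, smul_eq_mul, mul_comm]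
  rw [← sum_nOn, h2, h3, mul_sum, mul_sum, ← sum_add_distrib]
  refine (Nat.add_le_add_right h1 _).trans ?_
  rw [← sum_add_distrib]
  refine sum_le_sum (fun l _ => ?_)
  split_ifs <;> omega

/-! ### classes of points seen from a point -/

/-- the line from `z` to `x`, if any -/
noncomputable def cl (z x : Pt F) : Option (Ln F) :=
  if h : x.1 = z.1 then none else some (Classical.choose (exists_line h))

theorem cl_spec {z x : Pt F} {l : Ln F} (h : cl z x = some l) : On x l ∧ On z l ∧ x ≠ z := by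
  unfold cl at h
  split_ifs at h with h'
  rw [Option.some.injEq] at h
  subst h
  exact ⟨(Classical.choose_spec (exists_line h')).1, (Classical.choose_spec (exists_line h')).2,
    fun e => h' (by rw [e])⟩

theorem cl_eq {z x : Pt F} {l : Ln F} (hx : On x l) (hz : On z l) (hne : x ≠ z) :
    cl z x = some l := by
  have h : ¬ x.1 = z.1 := fun e => hne (eq_of_on_of_fst hx hz e)
  unfold cl
  rw [dif_neg h]
  congr 1
  exact line_unique hne (Classical.choose_spec (exists_line h)).1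
    (Classical.choose_spec (exists_line h)).2 hx hz

theorem cnt_le_image (X : Finset (Pt F)) (z : Pt F) : cnt X z ≤ (X.image (cl z)).card := by
  refine card_le_card_of_injOn some (fun l hl => ?_) (fun _ _ _ _ h => Option.some.inj h)
  simp only [coe_filter, mem_univ, true_and, Set.mem_ofPred_eq] at hl
  obtain ⟨hz, x, hx, hne, hxl⟩ := hl
  exact mem_coe.2 (mem_image.2 ⟨x, hx, cl_eq hxl hz hne⟩)

theorem image_le_cnt (X : Finset (Pt F)) (z : Pt F) : (X.image (cl z)).card ≤ cnt X z + 1 := by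
  have hsub : X.image (cl z) ⊆ insert none ((univ.filter
      (fun l : Ln F => On z l ∧ ∃ x ∈ X, x ≠ z ∧ On x l)).image some) := by
    intro b hb
    obtain ⟨x, hx, rfl⟩ := mem_image.1 hb
    rcases h : cl z x with _ | l
    · exact mem_insert_self _ _
    · obtain ⟨h1, h2, h3⟩ := cl_spec h
      exact mem_insert_of_mem (mem_image_of_mem _ (mem_filter.2 ⟨mem_univ _, h2, x, hx, h3, h1⟩))
  exact (card_le_card hsub).trans ((card_insert_le _ _).trans
    (Nat.add_le_add_right card_image_le _))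

/-- points of `S` that are not alone on their line to `o` -/
noncomputable def Ms (S : Finset (Pt F)) (o : Pt F) : Finset (Pt F) :=
  S.filter (fun y => cl o y = none ∨ ∃ y' ∈ S, y' ≠ y ∧ cl o y' = cl o y)

theorem card_Ms (S : Finset (Pt F)) (o : Pt F) : 2 * cnt S o + (Ms S o).card ≤ 2 * S.card := by
  have h := two_mul_card_le S (Ms S o) (cl o) ((univ.filter
      (fun l : Ln F => On o l ∧ ∃ x ∈ S, x ≠ o ∧ On x l)).image some) (filter_subset _ _) (by
    intro b hb
    obtain ⟨l, hl, rfl⟩ := mem_image.1 hb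
    obtain ⟨-, ho, x, hx, hne, hxl⟩ := mem_filter.1 hl
    have hc := cl_eq hxl ho hne
    refine ⟨x, hx, hc, fun hm => ?_⟩
    rcases (mem_filter.1 hm).2 with h | h
    · rw [hc] at h; exact absurd h (by simp)
    · rw [hc] at h; exact h)
  rwa [card_image_of_injective _ (Option.some_injective _)] at h

theorem card_sdiff_Ms {S X : Finset (Pt F)} (hX : X ⊆ S) (o : Pt F) :
    (X \ Ms S o).card ≤ cnt X o := by
  rw [cnt, ← card_image_of_injective _ (Option.some_injective (Ln F))]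
  refine card_le_card_of_injOn (cl o) (fun y hy => ?_) (fun y hy y' hy' h => ?_)
  · obtain ⟨h1, h2⟩ := mem_sdiff.1 (mem_coe.1 hy)
    rcases h : cl o y with _ | l
    · exact absurd (mem_filter.2 ⟨hX h1, Or.inl h⟩) h2
    · obtain ⟨h3, h4, h5⟩ := cl_spec h
      exact mem_coe.2 (mem_image_of_mem _ (mem_filter.2 ⟨mem_univ _, h4, y, h1, h5, h3⟩))
  · obtain ⟨h1, -⟩ := mem_sdiff.1 (mem_coe.1 hy)
    obtain ⟨h1', h2'⟩ := mem_sdiff.1 (mem_coe.1 hy')
    by_contra hne
    exact h2' (mem_filter.2 ⟨hX h1', Or.inr ⟨y, hX h1, hne, h⟩⟩)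

/-! ### points of large degree -/

/-- points on many lines missing `S` -/
def Big (S : Finset (Pt F)) : Finset (Pt F) :=
  univ.filter (fun x => Fintype.card F < 2 * deg (miss S) x)

theorem sw_real (hS : SWStmt) {S : Finset (Pt F)} (hn : S.card ≤ Fintype.card F) (x : Pt F) :
    (deg (miss S) x : ℝ) * (Fintype.card F - deg (miss S) x) ≤ (miss S).card := by
  have h := hS F S x
  have h1 : (deg (miss S) x : ℝ) * (2 * Fintype.card F - S.card - deg (miss S) x) ≤
      (miss S).card := by exact_mod_cast h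
  have h2 : (S.card : ℝ) ≤ Fintype.card F := by exact_mod_cast hn
  have h3 : (0 : ℝ) ≤ deg (miss S) x := by positivity
  nlinarith

theorem sw_small (hS : SWStmt) {S : Finset (Pt F)} (hn : S.card ≤ Fintype.card F) {ζ : ℝ}
    (hζ : ζ * Fintype.card F = (miss S).card) {x : Pt F} (hx : x ∉ Big S) :
    (deg (miss S) x : ℝ) ≤ 2 * ζ := by
  have hq : (0 : ℝ) < Fintype.card F := card_pos_real
  have h := sw_real hS hn x
  simp only [Big, mem_filter, mem_univ, true_and, not_lt] at hx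
  have h1 : 2 * (deg (miss S) x : ℝ) ≤ Fintype.card F := by exact_mod_cast hx
  have h3 : (0 : ℝ) ≤ deg (miss S) x := by positivity
  have : (deg (miss S) x : ℝ) * Fintype.card F ≤ 2 * ζ * Fintype.card F := by nlinarith
  exact le_of_mul_le_mul_right this hq

theorem sw_big (hS : SWStmt) {S : Finset (Pt F)} (hn : S.card ≤ Fintype.card F) {ζ : ℝ}
    (hζ : ζ * Fintype.card F = (miss S).card) {x : Pt F} (hx : x ∈ Big S) :
    (Fintype.card F : ℝ) - deg (miss S) x ≤ 2 * ζ := by
  have hq : (0 : ℝ) < Fintype.card F := card_pos_real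
  have h := sw_real hS hn x
  simp only [Big, mem_filter, mem_univ, true_and] at hx
  have h1 : (Fintype.card F : ℝ) < 2 * (deg (miss S) x : ℝ) := by exact_mod_cast hx
  have h3 : (deg (miss S) x : ℝ) ≤ Fintype.card F := by exact_mod_cast deg_le _ x
  have : ((Fintype.card F : ℝ) - deg (miss S) x) * Fintype.card F ≤ 2 * ζ * Fintype.card F := by
    nlinarith
  exact le_of_mul_le_mul_right this hq

theorem card_Big {S : Finset (Pt F)} {ζ : ℝ} (hζ : ζ * Fintype.card F = (miss S).card)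
    (h20 : 20 * ζ ≤ Fintype.card F) : ((Big S).card : ℝ) ≤ 5 * ζ := by
  have hq : (0 : ℝ) < Fintype.card F := card_pos_real
  have hζ' : ((miss S).card : ℝ) / Fintype.card F = ζ := by rw [← hζ]; field_simp
  have h := mixing_card (miss S) (Big S) (9 / 20 * Fintype.card F) (by positivity) (fun x hx => by
    simp only [Big, mem_filter, mem_univ, true_and] at hx
    have h1 : (Fintype.card F : ℝ) < 2 * (deg (miss S) x : ℝ) := by exact_mod_cast hx
    rw [hζ']
    exact le_trans (by linarith) (le_abs_self _))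
  rw [← hζ] at h
  have h0 : (0 : ℝ) ≤ (Big S).card := by positivity
  have : ((Big S).card : ℝ) * (Fintype.card F : ℝ) ^ 2 ≤ 5 * ζ * (Fintype.card F : ℝ) ^ 2 := by
    nlinarith [mul_nonneg h0 (sq_nonneg (Fintype.card F : ℝ))]
  exact le_of_mul_le_mul_right this (by positivity)

theorem deg_missB {S : Finset (Pt F)} {ζ : ℝ} (hζ0 : 0 ≤ ζ)
    (hsm : ∀ x ∉ Big S, (deg (miss S) x : ℝ) ≤ 2 * ζ) (z : Pt F) :
    (deg (miss (S ∪ Big S)) z : ℝ) ≤ 2 * ζ := by
  by_cases h : z ∈ Big S
  · rw [deg_miss_of_mem (mem_union_right _ h)]; simpa using hζ0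
  · refine le_trans ?_ (hsm z h)
    exact_mod_cast deg_mono (miss_anti subset_union_left) z

theorem case1 {Z S : Finset (Pt F)} {c L τ ε ζ : ℝ} (hL : 1 ≤ L) (hc : 0 < c) (hτ : 0 < τ)
    (hτ1 : τ ≤ 1 / 10) (hτc : 60 * L * τ ≤ c) (hε : ε ≤ τ) (hτq : 1 ≤ τ * Fintype.card F)
    (hB : Blk Z ε c L) (hb : ∀ l ∈ miss Z, ∃ x ∈ S, On x l)
    (hζ : ζ * Fintype.card F = (miss S).card) (hζ0 : 0 < ζ)
    (hsm : ∀ x ∉ Big S, (deg (miss S) x : ℝ) ≤ 2 * ζ) (hj : ((Big S).card : ℝ) ≤ 5 * ζ)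
    (hn : S.card ≤ Fintype.card F) (hn' : 3 * (Fintype.card F : ℝ) ≤ 5 * S.card)
    (h25 : (Fintype.card F : ℝ) ≤ 25 * ζ ^ 2) (hζτ : ζ ≤ τ ^ 2 * Fintype.card F)
    (hcase : (miss S).card < 2 * (miss (S ∪ Big S)).card) : False := by
  have hq : (0 : ℝ) < Fintype.card F := card_pos_real
  set q : ℝ := (Fintype.card F : ℝ) with hqd
  set B := S ∪ Big S with hBd
  have hnr : (S.card : ℝ) ≤ q := by rw [hqd]; exact_mod_cast hn
  have hB1 : (B.card : ℝ) ≤ q + 5 * ζ := by
    have : (B.card : ℝ) ≤ S.card + (Big S).card := by exact_mod_cast card_union_le _ _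
    linarith
  have hB2 : (S.card : ℝ) ≤ B.card := by exact_mod_cast card_le_card subset_union_left
  have hT1 : ((miss B).card : ℝ) ≤ ζ * q := by
    rw [hζ]; exact_mod_cast card_le_card (miss_anti subset_union_left)
  have hT2 : ζ * q < 2 * ((miss B).card : ℝ) := by rw [hζ]; exact_mod_cast hcase
  have hdeg := deg_missB hζ0.le hsm
  set J : ℕ := ⌊τ * q⌋₊ with hJ
  have hJ1 : (J : ℝ) ≤ τ * q := Nat.floor_le (by positivity)
  have hJ2 : τ * q < J + 1 := Nat.lt_floor_add_one _
  set m : ℕ := ⌊7 * ζ⌋₊ with hm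
  have hm1 : (m : ℝ) ≤ 7 * ζ := Nat.floor_le (by positivity)
  have hm2 : 7 * ζ < m + 1 := Nat.lt_floor_add_one _
  have h7 : 7 * ζ ≤ τ * q := by nlinarith [mul_pos hτ hq]
  set E := B.filter (fun x => ¬ cnt B x ≤ J) with hE
  have hE1 : (E.card : ℝ) ≤ 12 * (τ * q) := by
    have h1 : (E.card : ℝ) * (τ * q) ≤ ∑ x ∈ B, (cnt B x : ℝ) := by
      calc (E.card : ℝ) * (τ * q) = ∑ _x ∈ E, τ * q := by rw [sum_const, nsmul_eq_mul]
        _ ≤ ∑ x ∈ E, (cnt B x : ℝ) := by
            refine sum_le_sum (fun x hx => ?_)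
            have : J + 1 ≤ cnt B x := not_le.1 (mem_filter.1 hx).2
            have : (J : ℝ) + 1 ≤ cnt B x := by exact_mod_cast this
            linarith
        _ ≤ _ := sum_le_sum_of_subset_of_nonneg (filter_subset _ _) (fun _ _ _ => by positivity)
    have h2 : ∑ x ∈ B, (cnt B x : ℝ) + 2 * q ^ 2 ≤ 2 * (B.card * q) + 2 * (miss B).card := by
      rw [hqd]; exact_mod_cast sum_cnt B
    have h3 : (E.card : ℝ) * (τ * q) ≤ 12 * (τ * q) * (τ * q) := by
      nlinarith [mul_le_mul_of_nonneg_right hB1 hq.le, mul_le_mul_of_nonneg_right hζτ hq.le]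
    exact le_of_mul_le_mul_right h3 (by positivity)
  obtain ⟨X, hXB, hX⟩ : ∃ X ⊆ B, X.card = J + m + 1 := by
    refine exists_subset_card_eq ?_
    have : ((J + m + 1 : ℕ) : ℝ) ≤ B.card := by
      push_cast
      nlinarith [mul_le_mul_of_nonneg_right hτ1 hq.le]
    exact_mod_cast this
  have hXr : (X.card : ℝ) = J + m + 1 := by rw [hX]; push_cast; ring
  have hdec : dec X J ∪ E = B := by
    ext x
    simp only [mem_union, mem_dec]
    constructor
    · rintro (h | h)
      · by_contra hx'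
        have h1 : (cnt B x : ℝ) + deg (miss B) x = q := by
          rw [hqd]; exact_mod_cast cnt_add_deg_miss hx'
        have h2 : (cnt B x : ℝ) ≤ cnt X x + (B \ X).card := by exact_mod_cast cnt_le_add x
        have h3 : ((B \ X).card : ℝ) + X.card = B.card := by
          exact_mod_cast card_sdiff_add_card_eq_card hXB
        have h4 : (cnt X x : ℝ) ≤ J := by exact_mod_cast h
        linarith [hdeg x]
      · exact (mem_filter.1 h).1
    · intro h
      by_cases h' : cnt B x ≤ J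
      · exact Or.inl ((cnt_mono hXB x).trans h')
      · exact Or.inr (mem_filter.2 ⟨h, h'⟩)
  obtain ⟨Z₁, -, hZ2, hZ3⟩ := hB X E J (miss B) (Or.inr (by rw [hdec]))
    (by
      have : (0 : ℝ) ≤ m := by positivity
      nlinarith [mul_le_mul_of_nonneg_right hε hq.le])
    (by
      have h1 : (ζ * q) ^ 2 ≤ (2 * ((miss B).card : ℝ)) ^ 2 :=
        pow_le_pow_left₀ (by positivity) hT2.le 2
      nlinarith [mul_le_mul_of_nonneg_right h25 (sq_nonneg q)])
  have h0 : miss B ∩ miss Z = ∅ := by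
    rw [eq_empty_iff_forall_notMem]
    intro l hl
    obtain ⟨x, hx, hxl⟩ := hb l (mem_inter.1 hl).2
    exact mem_miss.1 (mem_inter.1 hl).1 x (mem_union_left _ hx) hxl
  rw [h0, card_empty, Nat.cast_zero, zero_add] at hZ3
  have h1 : ∑ z ∈ Z₁, (deg (miss B) z : ℝ) ≤ Z₁.card * (2 * ζ) := by
    rw [← nsmul_eq_mul, ← sum_const]
    exact sum_le_sum (fun z _ => hdeg z)
  have h2 : (Z₁.card : ℝ) ≤ L * (15 * (τ * q)) :=
    hZ2.trans (mul_le_mul_of_nonneg_left (by linarith) (by linarith))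
  have h3 : c * (ζ * q) < c * (2 * ((miss B).card : ℝ)) := mul_lt_mul_of_pos_left hT2 hc
  have h4 : (Z₁.card : ℝ) * (2 * ζ) ≤ L * (15 * (τ * q)) * (2 * ζ) :=
    mul_le_mul_of_nonneg_right h2 (by positivity)
  have h5 : 60 * L * τ * (ζ * q) ≤ c * (ζ * q) := mul_le_mul_of_nonneg_right hτc (by positivity)
  nlinarith

theorem floor_half {x : ℝ} (hx : 1 ≤ x) : x ≤ 2 * ⌊x⌋₊ := by
  have h1 : x < ⌊x⌋₊ + 1 := Nat.lt_floor_add_one _
  have h2 : 1 ≤ ⌊x⌋₊ := Nat.le_floor (by simpa using hx)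
  have h3 : (1 : ℝ) ≤ ⌊x⌋₊ := by exact_mod_cast h2
  linarith

theorem tail_bound {o q κ ζ a : ℝ} (hq : 1 ≤ q) (ho : o ≤ (q + 1) * q) (h25 : q ≤ 25 * ζ ^ 2)
    (hκ : 0 < κ) (hζ : 0 < ζ) (hbig : 145800000 ≤ κ ^ 5 * ζ) (ha : κ * ζ ≤ a) :
    o * Real.exp (-a / 3) ≤ 1 / 4 := by
  have h1 : o ≤ 1250 * ζ ^ 4 := by
    have : q ^ 2 ≤ (25 * ζ ^ 2) ^ 2 := pow_le_pow_left₀ (by linarith) h25 2
    nlinarith
  have h3 : (κ * ζ / 3) ^ 5 / 120 ≤ Real.exp (κ * ζ / 3) := by
    have := Real.pow_div_factorial_le_exp (κ * ζ / 3) (by positivity) 5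
    simpa [Nat.factorial] using this
  have h4 : Real.exp (-a / 3) ≤ 29160 / (κ ^ 5 * ζ ^ 5) := by
    calc Real.exp (-a / 3) ≤ Real.exp (-(κ * ζ / 3)) := Real.exp_le_exp.2 (by linarith)
      _ ≤ _ := by
          rw [Real.exp_neg, inv_le_comm₀ (Real.exp_pos _) (by positivity), inv_div]
          calc _ = (κ * ζ / 3) ^ 5 / 120 := by ring
            _ ≤ _ := h3
  calc o * Real.exp (-a / 3) ≤ 1250 * ζ ^ 4 * (29160 / (κ ^ 5 * ζ ^ 5)) := by gcongr
    _ = 36450000 / (κ ^ 5 * ζ) := by field_simp; ring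
    _ ≤ 1 / 4 := by rw [div_le_iff₀ (by positivity)]; linarith

theorem case2 (hD : DetStmt) {Z S : Finset (Pt F)} {L e ε ζ : ℝ} (hL : 1 ≤ L) (he : 0 < e)
    (heL : 10 * L * e ≤ 1) (hε0 : 0 < ε) (hε : 5 * ε ≤ e) (hH : Hit Z ε 2 L)
    (hd : Disjoint S Z) (hBig : Big S ⊆ Z)
    (hζ : ζ * Fintype.card F = (miss S).card) (hζ0 : 0 < ζ)
    (hsm : ∀ x ∉ Big S, (deg (miss S) x : ℝ) ≤ 2 * ζ)
    (hbg : ∀ x ∈ Big S, (Fintype.card F : ℝ) - deg (miss S) x ≤ 2 * ζ)
    (hj : ((Big S).card : ℝ) ≤ 5 * ζ)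
    (hn : S.card ≤ Fintype.card F) (hn' : 3 * (Fintype.card F : ℝ) ≤ 5 * S.card)
    (h25 : (Fintype.card F : ℝ) ≤ 25 * ζ ^ 2) (hζe : 1000000 * ζ ≤ e * Fintype.card F)
    (hbig : 145800000 ≤ (e ^ 2 / 12288) ^ 5 * ζ)
    (hcase : 2 * (miss (S ∪ Big S)).card ≤ (miss S).card) : False := by
  have hq : (0 : ℝ) < Fintype.card F := card_pos_real
  have hq1 : (1 : ℝ) ≤ Fintype.card F := by exact_mod_cast Fintype.card_pos
  set q : ℝ := (Fintype.card F : ℝ) with hqd
  set B := S ∪ Big S with hBd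
  set n : ℝ := (S.card : ℝ) with hnd
  have hnr : n ≤ q := by rw [hqd, hnd]; exact_mod_cast hn
  have hn0 : 0 < n := by linarith
  have he1 : e ≤ 1 / 10 := by nlinarith
  set κ : ℝ := e ^ 2 / 12288 with hκd
  have hκ : 0 < κ := by positivity
  have hκe : κ ≤ e := by rw [hκd]; nlinarith
  have hκ5 : κ ^ 5 ≤ κ := pow_le_of_le_one hκ.le (by linarith) (by norm_num)
  have hκζ : 3 ≤ κ * ζ := by nlinarith [mul_le_mul_of_nonneg_right hκ5 hζ0.le]
  have heζ : 1 ≤ e * ζ := by nlinarith [mul_le_mul_of_nonneg_right hκe hζ0.le]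
  have hζ1 : 1 ≤ ζ := by nlinarith
  have heq : e * q ≤ q / 10 := by nlinarith
  have h6 : 6 * ζ ≤ n := by linarith
  -- many points of large degree
  have hj2 : ζ ≤ 2 * (Big S).card := by
    have hsub : miss S ⊆ miss B ∪ (Big S).biUnion
        (fun z => univ.filter (fun l : Ln F => On z l)) := by
      intro l hl
      by_cases h : ∃ z ∈ Big S, On z l
      · obtain ⟨z, hz, hzl⟩ := h
        exact mem_union_right _ (mem_biUnion.2 ⟨z, hz, mem_filter.2 ⟨mem_univ _, hzl⟩⟩)
      · refine mem_union_left _ (mem_miss.2 (fun x hx hxl => ?_))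
        rcases mem_union.1 hx with h' | h'
        · exact mem_miss.1 hl x h' hxl
        · exact h ⟨x, h', hxl⟩
    have h1 := (card_le_card hsub).trans ((card_union_le _ _).trans
      (Nat.add_le_add_left card_biUnion_le _))
    simp only [card_lines_on, sum_const, smul_eq_mul] at h1
    have h2 : (miss S).card ≤ 2 * ((Big S).card * Fintype.card F) := by omega
    have h3 : ((miss S).card : ℝ) ≤ 2 * ((Big S).card * q) := by rw [hqd]; exact_mod_cast h2
    rw [← hζ] at h3
    have : ζ * q ≤ 2 * (Big S).card * q := by linarith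
    exact le_of_mul_le_mul_right this hq
  set D : ℕ := ⌊n / (6 * ζ)⌋₊ with hDd
  have hD0 : 1 ≤ n / (6 * ζ) := by rw [le_div_iff₀ (by positivity)]; linarith
  have hD1 : (D : ℝ) * (6 * ζ) ≤ n := by
    rw [← le_div_iff₀ (by positivity)]; exact Nat.floor_le (by positivity)
  have hD2 : n ≤ 2 * D * (6 * ζ) := by
    rw [← div_le_iff₀ (by positivity)]; exact floor_half hD0
  set k : ℕ := ⌊e * ζ⌋₊ with hkd
  have hk1 : (k : ℝ) ≤ e * ζ := Nat.floor_le (by positivity)
  have hk2 : e * ζ ≤ 2 * k := floor_half heζ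
  have hk0 : (0 : ℝ) ≤ k := by positivity
  have hD3 : (0 : ℝ) ≤ D := by positivity
  set a : ℕ := ⌊(k : ℝ) ^ 2 * D / (128 * n)⌋₊ with had
  have ha1 : (a : ℝ) * (128 * n) ≤ (k : ℝ) ^ 2 * D := by
    rw [← le_div_iff₀ (by positivity)]; exact Nat.floor_le (by positivity)
  have ha2 : κ * ζ ≤ a := by
    have h1 : (k : ℝ) ^ 2 * D / (128 * n) < a + 1 := Nat.lt_floor_add_one _
    have h2 : 2 * (κ * ζ) ≤ (k : ℝ) ^ 2 * D / (128 * n) := by
      rw [le_div_iff₀ (by positivity)]
      have h3 : (e * ζ) ^ 2 ≤ (2 * k) ^ 2 := pow_le_pow_left₀ (by positivity) hk2 2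
      calc 2 * (κ * ζ) * (128 * n) = e ^ 2 * ζ / 48 * n := by rw [hκd]; ring
        _ ≤ e ^ 2 * ζ / 48 * (2 * D * (6 * ζ)) := by gcongr
        _ = (e * ζ) ^ 2 / 4 * D := by ring
        _ ≤ (2 * k) ^ 2 / 4 * D := by gcongr
        _ = _ := by ring
    linarith
  have hkζ : (k : ℝ) ≤ ζ := by nlinarith
  obtain ⟨X, hXS, hX, hY, hO⟩ := hD (Pt F) (Option (Ln F)) (Pt F) (Pt F) S (Big S) cl
    (univ \ B) (Ms S) D k a (1 / 2) (Nat.le_floor (by simpa using hD0)) (by norm_num)
    (by have : (3 : ℝ) ≤ a := by linarith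
        exact_mod_cast this)
    (Nat.le_floor (by simpa using heζ))
    (by have : (4 : ℝ) * k ≤ S.card := by linarith
        exact_mod_cast this)
    (by have : (k : ℝ) * D ≤ 2 * S.card := by nlinarith [mul_le_mul_of_nonneg_right hkζ hD3]
        exact_mod_cast this)
    (by linarith)
    (fun z hz => by
      have hzS : z ∉ S := disjoint_right.1 hd (hBig hz)
      have h1 : (cnt S z : ℝ) + deg (miss S) z = q := by
        rw [hqd]; exact_mod_cast cnt_add_deg_miss hzS
      have h2 : ((S.image (cl z)).card : ℝ) ≤ cnt S z + 1 := by exact_mod_cast image_le_cnt S z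
      have h3 := heavy S (cl z) D
      have h4 : n ≤ ((S.filter (fun x => D + 1 ≤ (S.filter (fun x' => cl z x' = cl z x)).card)).card
          : ℝ) + (S.image (cl z)).card * D := by rw [hnd]; exact_mod_cast h3
      have h5 : ((S.image (cl z)).card : ℝ) ≤ 3 * ζ := by linarith [hbg z hz]
      nlinarith [mul_le_mul_of_nonneg_right h5 hD3])
    (fun o ho => by
      have hoB : o ∉ B := (mem_sdiff.1 ho).2
      have hoS : o ∉ S := fun h => hoB (mem_union_left _ h)
      have hoB' : o ∉ Big S := fun h => hoB (mem_union_right _ h)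
      have h1 : (cnt S o : ℝ) + deg (miss S) o = q := by
        rw [hqd]; exact_mod_cast cnt_add_deg_miss hoS
      have h2 : 2 * (cnt S o : ℝ) + (Ms S o).card ≤ 2 * n := by
        rw [hnd]; exact_mod_cast card_Ms S o
      have h3 : ((Ms S o).card : ℝ) ≤ 4 * ζ := by linarith [hsm o hoB']
      have h4 : (12 : ℝ) * k * (Ms S o).card ≤ a * n := by
        calc (12 : ℝ) * k * (Ms S o).card ≤ 12 * (e * ζ) * (4 * ζ) := by gcongr
          _ = 48 / 1000000 * (e * ζ) * (1000000 * ζ) := by ring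
          _ ≤ 48 / 1000000 * (e * ζ) * (e * q) := by gcongr
          _ ≤ 1 / 20480 * (e * ζ) * (e * q) :=
              mul_le_mul_of_nonneg_right (mul_le_mul_of_nonneg_right (by norm_num)
                (by positivity)) (by positivity)
          _ = κ * ζ * (3 * q / 5) := by rw [hκd]; ring
          _ ≤ a * n := by gcongr; linarith
      rw [hnd] at h4
      exact_mod_cast h4)
    (by
      refine tail_bound hq1 ?_ h25 hκ hζ0 hbig ha2
      have : (univ \ B).card ≤ (Fintype.card F + 1) * Fintype.card F := by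
        rw [← card_Pt]; exact card_le_univ _
      rw [hqd]; exact_mod_cast this)
  have ha3 : a ≤ 2 * k := by
    have hpos : 0 < (Big S).card := by
      have : (0 : ℝ) < (Big S).card := by linarith
      exact_mod_cast this
    obtain ⟨z, hz⟩ := card_pos.1 (show 0 < ((Big S).filter
      (fun z => (X.image (cl z)).card + a ≤ 2 * k)).card by omega)
    have := (mem_filter.1 hz).2
    omega
  have hdec : dec X (2 * k - a) ⊆ B := by
    intro o ho
    by_contra hoB
    have h1 := hO o (mem_sdiff.2 ⟨mem_univ _, hoB⟩)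
    have h2 := card_sdiff_Ms hXS o
    have h3 := card_sdiff_add_card_inter X (Ms S o)
    have h4 := mem_dec.1 ho
    omega
  have hXr : (X.card : ℝ) = 2 * k := by rw [hX]; push_cast; ring
  have hHit := hH X (2 * k - a) (by
      rw [hXr]
      have h3 : (e * ζ) ^ 2 ≤ (2 * k) ^ 2 := pow_le_pow_left₀ (by positivity) hk2 2
      have h4 : (5 * ε) ^ 2 ≤ e ^ 2 := pow_le_pow_left₀ (by positivity) hε 2
      calc ε ^ 2 * q ≤ ε ^ 2 * (25 * ζ ^ 2) := by gcongr
        _ = (5 * ε) ^ 2 * ζ ^ 2 := by ring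
        _ ≤ e ^ 2 * ζ ^ 2 := by gcongr
        _ = (e * ζ) ^ 2 := by ring
        _ ≤ _ := h3)
    (by
      have h1 : ((dec X (2 * k - a)).card : ℝ) ≤ S.card + (Big S).card := by
        exact_mod_cast (card_le_card hdec).trans (card_union_le _ _)
      linarith)
  have hsub : (Big S).filter (fun z => (X.image (cl z)).card + a ≤ 2 * k) ⊆
      Z ∩ dec X (2 * k - a) := by
    intro z hz
    obtain ⟨h1, h2⟩ := mem_filter.1 hz
    refine mem_inter.2 ⟨hBig h1, mem_dec.2 ?_⟩
    have := cnt_le_image X z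
    omega
  have h1 : ((Big S).card : ℝ) ≤ 2 * (Z ∩ dec X (2 * k - a)).card := by
    exact_mod_cast hY.trans (Nat.mul_le_mul_left 2 (card_le_card hsub))
  rw [hXr] at hHit
  have h2 : L * (2 * k) ≤ L * (2 * (e * ζ)) := by gcongr
  have h3 : 10 * L * e * ζ ≤ 1 * ζ := by gcongr
  nlinarith

end Step2

open Step2 in
theorem step2Stmt_of (hS : SWStmt) (hN : NearStmt) (hD : DetStmt) : Step2Stmt := by
  intro K c L hK hc hL
  set e : ℝ := 1 / (10 * L) with hed
  have he : 0 < e := by positivity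
  have heL : 10 * L * e ≤ 1 := by rw [hed]; field_simp; exact le_rfl
  set τ : ℝ := min (c / (60 * L)) (1 / 10) with hτd
  have hτ : 0 < τ := lt_min (by positivity) (by norm_num)
  have hτ1 : τ ≤ 1 / 10 := min_le_right _ _
  have hτc : 60 * L * τ ≤ c := by
    have : τ ≤ c / (60 * L) := min_le_left _ _
    rw [le_div_iff₀ (by positivity)] at this
    linarith
  set γ : ℝ := min (τ ^ 2) (min (1 / (4 * K)) (e / 1000000)) with hγd
  have hγ : 0 < γ := lt_min (by positivity) (lt_min (by positivity) (by positivity))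
  have hγ1 : γ ≤ τ ^ 2 := min_le_left _ _
  have hγ2 : 4 * K * γ ≤ 1 := by
    have : γ ≤ 1 / (4 * K) := (min_le_right _ _).trans (min_le_left _ _)
    rw [le_div_iff₀ (by positivity)] at this
    linarith
  have hγ3 : γ ≤ e / 1000000 := (min_le_right _ _).trans (min_le_right _ _)
  set W : ℝ := 145800000 / (e ^ 2 / 12288) ^ 5 with hW
  have hW0 : 0 ≤ W := by positivity
  obtain ⟨q₀, hq₀⟩ := exists_nat_ge (1 / τ + 25 * W ^ 2)
  refine ⟨γ, min (e / 5) τ, hγ, lt_min (by positivity) hτ, q₀,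
    fun F _ _ _ hq Z hR hH hB S hd hn hb hm => ?_⟩
  have hq' : (q₀ : ℝ) ≤ Fintype.card F := by exact_mod_cast hq
  have hq0 : (0 : ℝ) < Fintype.card F := card_pos_real
  have hτq : 1 ≤ τ * Fintype.card F := by
    have h1 : 1 / τ ≤ Fintype.card F := by nlinarith [sq_nonneg W]
    rw [div_le_iff₀ hτ] at h1
    linarith
  have hWq : 25 * W ^ 2 ≤ Fintype.card F := by
    have : 0 < 1 / τ := by positivity
    linarith
  set ζ : ℝ := (miss S).card / Fintype.card F with hζd
  have hζ : ζ * Fintype.card F = (miss S).card := by rw [hζd]; field_simp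
  have hζ0 : 0 ≤ ζ := by positivity
  have hζγ : ζ ≤ γ * Fintype.card F := by
    rw [hζd, div_le_iff₀ hq0]; linarith
  have hn' := card_ge hR hd hb
  have hsm : ∀ x ∉ Big S, (deg (miss S) x : ℝ) ≤ 2 * ζ := fun x hx => sw_small hS hn hζ hx
  have hbg : ∀ x ∈ Big S, (Fintype.card F : ℝ) - deg (miss S) x ≤ 2 * ζ :=
    fun x hx => sw_big hS hn hζ hx
  have hτ2 : τ ^ 2 ≤ 1 / 100 := by nlinarith
  have hj : ((Big S).card : ℝ) ≤ 5 * ζ := card_Big hζ (by
    nlinarith [mul_le_mul_of_nonneg_right (hγ1.trans hτ2) hq0.le])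
  have hBig : Big S ⊆ Z := by
    intro x hx
    by_contra hxZ
    have h1 := deg_le_of_not_mem hK hR hb hxZ
    have h2 : 4 * K * (Fintype.card F - deg (miss S) x) ≤ 4 * K * (2 * (γ * Fintype.card F)) :=
      mul_le_mul_of_nonneg_left (by linarith [hbg x hx]) (by linarith)
    nlinarith [mul_le_mul_of_nonneg_right hγ2 hq0.le]
  have hBZ : S ∪ Big S ⊆ S ∪ Z := union_subset_union_right hBig
  have hfin : (Fintype.card F : ℝ) ≤ 25 * ζ ^ 2 → False := by
    intro h25
    have hζ1 : 0 < ζ := by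
      rcases hζ0.lt_or_eq with h | h
      · exact h
      · rw [← h] at h25; linarith
    by_cases hcase : (miss S).card < 2 * (miss (S ∪ Big S)).card
    · exact case1 hL hc hτ hτ1 hτc (min_le_right _ _) hτq hB hb hζ hζ1 hsm hj hn hn' h25
        (hζγ.trans (mul_le_mul_of_nonneg_right hγ1 hq0.le)) hcase
    · refine case2 hD hL he heL (lt_min (by positivity) hτ)
        (by linarith [min_le_left (e / 5) τ]) hH hd hBig hζ hζ1 hsm hbg hj hn hn' h25
        (by nlinarith [mul_le_mul_of_nonneg_right hγ3 hq0.le]) ?_ (not_lt.1 hcase)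
      have h1 : W ≤ ζ := (pow_le_pow_iff_left₀ hW0 hζ0 two_ne_zero).1 (by linarith)
      rw [hW, div_le_iff₀ (by positivity)] at h1
      linarith
  rcases hN F (S ∪ Big S) (Big S).card ((card_union_le _ _).trans (Nat.add_le_add_right hn _))
    with ⟨l, hl⟩ | ⟨i, hi⟩ | ⟨-, h⟩ | ⟨x, h1, h2⟩
  · exact Or.inl ⟨l, fun x hx => hBZ (hl x hx)⟩
  · exact Or.inr ⟨i, fun v => hBZ (hi v)⟩
  · refine (hfin ?_).elim
    have h1 : (Fintype.card F : ℝ) ≤ ((Big S).card : ℝ) ^ 2 := by exact_mod_cast h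
    have h2 : ((Big S).card : ℝ) ^ 2 ≤ (5 * ζ) ^ 2 := pow_le_pow_left₀ (by positivity) hj 2
    linarith
  · refine (hfin ?_).elim
    have h3 := deg_missB hζ0 hsm x
    have h4 : (1 : ℝ) ≤ deg (miss (S ∪ Big S)) x := by exact_mod_cast h1
    have h5 : (Fintype.card F : ℝ) ≤ deg (miss (S ∪ Big S)) x *
        ((Big S).card + deg (miss (S ∪ Big S)) x + 1) := by exact_mod_cast h2
    have h6 : (deg (miss (S ∪ Big S)) x : ℝ) * ((Big S).card + deg (miss (S ∪ Big S)) x + 1) ≤
        (2 * ζ) * (9 * ζ) := by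
      refine mul_le_mul h3 (by linarith) (by positivity) (by positivity)
    nlinarith [sq_nonneg ζ]

theorem Reg.mono {F : Type} [Field F] [Fintype F] [DecidableEq F] {Z : Finset (Pt F)}
    {η η' K : ℝ} (h : Reg Z η K) (hη : η ≤ η') : Reg Z η' K := by
  obtain ⟨ω, h1, h2, h3, h4⟩ := h
  have hq : (0 : ℝ) < Fintype.card F := card_pos_real
  refine ⟨ω, h1, h2, fun x hx => ⟨le_trans ?_ (h3 x hx).1, (h3 x hx).2.trans ?_⟩, le_trans ?_ h4⟩
  · gcongr
  · gcongr
  · gcongr

theorem Hit.mono {F : Type} [Field F] [Fintype F] [DecidableEq F] {Z : Finset (Pt F)}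
    {ε ε' C C' L : ℝ} (h : Hit Z ε C L) (hε0 : 0 ≤ ε) (hε : ε ≤ ε') (hC : C' ≤ C) :
    Hit Z ε' C' L := by
  intro X J h1 h2
  have hq : (0 : ℝ) < Fintype.card F := card_pos_real
  refine h X J (le_trans ?_ h1) (h2.trans ?_)
  · gcongr
  · gcongr

theorem Blk.mono {F : Type} [Field F] [Fintype F] [DecidableEq F] {Z : Finset (Pt F)}
    {ε ε' c L : ℝ} (h : Blk Z ε c L) (hε : ε ≤ ε') : Blk Z ε' c L := by
  intro X E J Λ h1 h2 h3
  have hq : (0 : ℝ) < Fintype.card F := card_pos_real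
  refine h X E J Λ h1 (le_trans ?_ h2) h3
  gcongr

theorem stabStmt_of (h1 : Step1Stmt) (h2 : Step2Stmt) : StabStmt := by
  intro K c L hK hc hL
  obtain ⟨γ, ε₂, hγ, hε₂, q₂, H2⟩ := h2 K c L hK hc hL
  obtain ⟨η, ε₁, C, hη, hε₁, hC, q₁, H1⟩ := h1 c L γ hc hL hγ
  have hε : 0 < min ε₁ ε₂ := lt_min hε₁ hε₂
  refine ⟨min η (1 / 4), min ε₁ ε₂, max C 2, lt_min hη (by norm_num), hε,
    lt_max_of_lt_left hC, max q₁ q₂, fun F _ _ _ hq Z hR hH hB S hd hn hb => ?_⟩
  exact H2 F ((le_max_right _ _).trans hq) Z (hR.mono (min_le_right _ _))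
    (hH.mono hε.le (min_le_right _ _) (le_max_right _ _)) (hB.mono (min_le_right _ _)) S hd hn hb
    (H1 F ((le_max_left _ _).trans hq) Z K (hR.mono (min_le_left _ _))
      (hH.mono hε.le (min_le_left _ _) (le_max_left _ _)) (hB.mono (min_le_left _ _)) S hd hn hb)

end Crest.Agent.R34
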