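import Crest.Agent.R34.Words1

/-! Row 34, part G: the cover analysis. -/

set_option autoImplicit false
set_option linter.unusedSectionVars false
open Finset

namespace Crest.Agent.R34

namespace Wd

variable {G : Gad} {F : Type} [Field F] [Fintype F] [DecidableEq F] {Cl : Type} [Fintype Cl]
  (C : Config G F Cl)

theorem two_points {s t : Cl} {m m' : G.Cell} {x y : Pt F} (hxy : x ≠ y) (h1 : On x (C.L s m))
    (h2 : On y (C.L s m)) (h3 : On x (C.L t m')) (h4 : On y (C.L t m')) : s = t ∧ m = m' :=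
  L_inj C (line_unique hxy h1 h2 h3 h4)

theorem covO_D {t : Cl} {b : Fin G.nH} {s : Cl} {d : Fin G.nD} {k : Fin 4}
    (h : Cov C (vx (C.P t (G.O b))) s (.inl (d, k))) :
    s = t ∧ ∃ j, G.hb d j = b ∧ (k = kA j ∨ k = kB j) := by
  obtain ⟨h1, h2 | h2⟩ := covO C h
  · obtain ⟨d', j, h3, h4⟩ := inc_O.1 h2
    simp only [Sum.inl.injEq, Prod.mk.injEq] at h4
    exact ⟨h1, j, h4.1 ▸ h3, Or.inr h4.2⟩
  · rcases inc_H.1 h2 with h3 | ⟨d', j, h3, h4⟩
    · cases h3
    · simp only [Sum.inl.injEq, Prod.mk.injEq] at h4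
      exact ⟨h1, j, h4.1 ▸ h3, Or.inl h4.2⟩

theorem three_cells {y : Option F × Option F} {i : Option F} (hy : y.1 ≠ i)
    (a₁ a₂ a₃ : Cl × Fin G.nD) (k₁ k₂ k₃ : Fin 4)
    (p₁ : (C.P a₁.1 (G.D a₁.2)).1 = i) (p₂ : (C.P a₂.1 (G.D a₂.2)).1 = i)
    (p₃ : (C.P a₃.1 (G.D a₃.2)).1 = i)
    (c₁ : Cov C y a₁.1 (.inl (a₁.2, k₁))) (c₂ : Cov C y a₂.1 (.inl (a₂.2, k₂)))
    (c₃ : Cov C y a₃.1 (.inl (a₃.2, k₃)))
    (n₁₂ : (a₁, k₁) ≠ (a₂, k₂)) (n₁₃ : (a₁, k₁) ≠ (a₃, k₃)) (n₂₃ : (a₂, k₂) ≠ (a₃, k₃)) :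
    False := by
  rcases vertex_cases C y with h | ⟨t, b, rfl⟩ | ⟨x, hx, hO, rfl⟩
  · obtain ⟨d, k, h1, h2⟩ := covSpec C h c₁
    simp only [Sum.inl.injEq, Prod.mk.injEq] at h1
    apply hy
    rw [h2, ← h1.1, p₁]
  · obtain ⟨s₁, d₁⟩ := a₁
    obtain ⟨s₂, d₂⟩ := a₂
    obtain ⟨s₃, d₃⟩ := a₃
    obtain ⟨e₁, j₁, h₁, q₁⟩ := covO_D C c₁
    obtain ⟨e₂, j₂, h₂, q₂⟩ := covO_D C c₂
    obtain ⟨e₃, j₃, h₃, q₃⟩ := covO_D C c₃
    dsimp only at *
    subst e₁ e₂ e₃
    obtain rfl := C.partD _ d₁ d₂ j₁ j₂ (p₁.trans p₂.symm) (h₁.trans h₂.symm)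
    obtain rfl := C.partD _ d₁ d₃ j₁ j₃ (p₁.trans p₃.symm) (h₁.trans h₃.symm)
    obtain rfl := G.hb_inj d₁ (h₁.trans h₂.symm)
    obtain rfl := G.hb_inj d₁ (h₁.trans h₃.symm)
    rcases q₁ with rfl | rfl <;> rcases q₂ with rfl | rfl <;> rcases q₃ with rfl | rfl <;> simp_all
  · have key : ∀ (a a' : Cl × Fin G.nD) (k k' : Fin 4), Cov C (vx x) a.1 (.inl (a.2, k)) →
        Cov C (vx x) a'.1 (.inl (a'.2, k')) → (a, k) ≠ (a', k') → a ≠ a' := by
      rintro a a' k k' c c' n rfl
      have := two_points C (fun e : x = C.P a.1 (G.D a.2) => hx (e ▸ D_mem C _ _))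
        (covOrd C hx hO c) (on_of_inc C _ (inc_D.2 ⟨k, rfl⟩))
        (covOrd C hx hO c') (on_of_inc C _ (inc_D.2 ⟨k', rfl⟩))
      simp only [Sum.inl.injEq, Prod.mk.injEq, true_and] at this
      exact n (by rw [this])
    exact C.noconc a₁ a₂ a₃ k₁ k₂ k₃ x (key _ _ _ _ c₁ c₂ n₁₂) (key _ _ _ _ c₁ c₃ n₁₃)
      (key _ _ _ _ c₂ c₃ n₂₃) (p₁.trans p₂.symm) (p₁.trans p₃.symm) (covOrd C hx hO c₁)
      (covOrd C hx hO c₂) (covOrd C hx hO c₃)

def kk : Bool → Bool → Fin 4
  | false, false => 0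
  | false, true => 1
  | true, false => 2
  | true, true => 3

theorem kk_inj : ∀ a b a' b', kk a b = kk a' b' → a = a' ∧ b = b' := by decide

theorem side_kk (d : Fin G.nD) (a b : Bool) : side (G := G) (.inl (d, kk a b)) = a := by
  cases a <;> cases b <;> rfl

theorem exists_pair {i β : Option F} (h : Spec C (i, β)) :
    ∃ (a : Cl × Fin G.nD) (sd : Bool), (C.P a.1 (G.D a.2)).1 = i ∧ rc C sd (a.1, G.D a.2) = β := by
  rcases β with _ | v
  · obtain ⟨a, h1, h2⟩ := (exists_g C).choose_spec.2.1 i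
    refine ⟨a, true, h1, ?_⟩
    simp only [rc, if_true, gam, h2, Option.map_none]
  · obtain ⟨s, r, hr, e⟩ := (mem_Z C).1 (h (i, v) rfl)
    rcases r with b | b | d
    · obtain ⟨a, h2⟩ := (exists_g C).choose_spec.2.2 (s, b)
      refine ⟨a, true, ?_, ?_⟩
      · rw [(exists_g C).choose_spec.1 a _ h2]
        exact congrArg Prod.fst e
      · simp only [rc, if_true, gam, h2, Option.map_some]
        exact congrArg (fun x => some x.2) e
    · exact absurd hr id
    · exact ⟨(s, d), false, congrArg Prod.fst e, congrArg (fun x : Pt F => some x.2) e⟩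

theorem part_case (S : Finset (Option F × Option F)) (hcard : S.card ≤ Fintype.card F)
    (hcov : ∀ s m, ∃ y ∈ S, Cov C y s m) (i : Option F)
    (hi : ∀ v : F, ((i, v) : Pt F) ∉ Zset C.P → vx (i, v) ∈ S) : False := by
  classical
  have hex := extra S (S.filter (fun y => y.1 = i → Spec C y))
    (univ.filter (fun β => Spec C (i, β))) (fun β => (i, β)) (fun β β' h => (Prod.mk.inj h).2)
    (by rw [Fintype.card_option]; omega) ?_ (filter_subset _ _) ?_
  rotate_left
  · intro β hβ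
    simp only [mem_filter, mem_univ, true_and, Spec] at hβ
    push Not at hβ
    obtain ⟨x, h1, h2⟩ := hβ
    have : x = (i, x.2) := Prod.ext (congrArg Prod.fst h1).symm rfl
    rw [h1, this]
    exact hi _ (this ▸ h2)
  · intro β hβ h
    exact hβ (mem_filter.2 ⟨mem_univ _, (mem_filter.1 h).2 rfl⟩)
  have hp : ∀ β : {β // Spec C (i, β)}, ∃ (a : Cl × Fin G.nD) (sd : Bool),
      (C.P a.1 (G.D a.2)).1 = i ∧ rc C sd (a.1, G.D a.2) = β.1 := fun β => exists_pair C β.2
  choose a sd ha hsd using hp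
  have hw : ∀ β j, word C (a β).1 (.inl ((a β).2, kk (sd β) j)) i = β.1 := by
    intro β j
    conv_lhs => rw [← ha β]
    rw [word_of_on C (on_of_inc C _ (inc_D.2 ⟨_, rfl⟩)), col_P, side_kk, hsd]
  have hinj : ∀ p p' : {β // Spec C (i, β)} × Bool, (a p.1, kk (sd p.1) p.2) =
      (a p'.1, kk (sd p'.1) p'.2) → p = p' := by
    rintro ⟨β, j⟩ ⟨β', j'⟩ h
    simp only [Prod.mk.injEq] at h
    obtain ⟨h1, h2⟩ := kk_inj _ _ _ _ h.2
    refine Prod.ext (Subtype.ext ?_) h2
    rw [← hsd, ← hsd, h.1, h1]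
  have hc := count (ι := {β // Spec C (i, β)} × Bool) (S.filter (fun y => y.1 = i → Spec C y))
    (fun y p => Cov C y (a p.1).1 (.inl ((a p.1).2, kk (sd p.1) p.2))) 2 ?_ ?_
  · rw [Fintype.card_prod, Fintype.card_subtype, Fintype.card_bool] at hc
    omega
  · intro p
    obtain ⟨y, hy, h⟩ := hcov (a p.1).1 (.inl ((a p.1).2, kk (sd p.1) p.2))
    refine ⟨y, mem_filter.2 ⟨hy, fun e => ?_⟩, h⟩
    unfold Cov at h
    rw [e, hw] at h
    have : y = (i, p.1.1) := Prod.ext e h.symm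
    exact this ▸ p.1.2
  · intro y _ T hT
    by_cases e : y.1 = i
    · refine (card_le_card_of_injOn (t := univ) Prod.snd (fun _ _ => mem_univ _) ?_).trans
        (by simp)
      intro p hp p' hp' h
      have h1 := hT p hp
      have h2 := hT p' hp'
      unfold Cov at h1 h2
      rw [e, hw] at h1 h2
      exact Prod.ext (Subtype.ext (h1.trans h2.symm)) h
    · by_contra hlt
      obtain ⟨p₁, h₁, p₂, h₂, p₃, h₃, n₁, n₂, n₃⟩ := two_lt_card.1 (not_le.1 hlt)
      exact three_cells C e _ _ _ _ _ _ (ha _) (ha _) (ha _) (hT _ h₁) (hT _ h₂) (hT _ h₃)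
        (fun h => n₁ (hinj _ _ h)) (fun h => n₂ (hinj _ _ h)) (fun h => n₃ (hinj _ _ h))

/-- the cell is not covered by the ordinary points of `l` -/
def Free (l : Ln F) (s : Cl) (m : G.Cell) : Prop :=
  ∀ x, On x l → x ∉ Zset C.P → ¬ Cov C (vx x) s m

theorem free_of {l : Ln F} {s : Cl} {m : G.Cell} {r : G.Row} (hr : G.isZ r) (hm : G.inc m r)
    (hl : On (C.P s r) l) (hne : l ≠ C.L s m)
    (hO : ∀ b, G.inc m (G.H b) → ¬ On (C.P s (G.O b)) l) : Free C l s m := by
  intro x hx hz hc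
  rcases covK C hz hc with h | ⟨b, h1, rfl⟩
  · exact hz (point_unique hne hl (on_of_inc C s hm) hx h ▸ P_mem_Z C s hr)
  · exact hO b h1 hx

/-- data of the line case -/
structure LineData (l : Ln F) where
  Ex : Finset (Option F × Option F)
  R : Finset (Cl × G.Row)
  card : Ex.card + 1 ≤ R.card
  memR : ∀ p, p ∈ R ↔ G.isZ p.2 ∧ On (C.P p.1 p.2) l
  cov : ∀ s m, Free C l s m → ∃ y ∈ Ex, Cov C y s m
  off : ∀ x, vx x ∈ Ex → On x l → x ∈ Zset C.P

theorem lineData (S : Finset (Option F × Option F)) (hcard : S.card ≤ Fintype.card F)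
    (hcov : ∀ s m, ∃ y ∈ S, Cov C y s m) (l : Ln F)
    (hl : ∀ x, On x l → x ∉ Zset C.P → vx x ∈ S) : Nonempty (LineData C l) := by
  classical
  refine ⟨⟨S.filter (fun y => ∀ x, y = vx x → On x l → x ∈ Zset C.P),
    univ.filter (fun p => G.isZ p.2 ∧ On (C.P p.1 p.2) l), ?_, by simp, ?_, ?_⟩⟩
  · refine (extra S _ (univ.filter (fun i => ((i, u i l) : Pt F) ∈ Zset C.P))
      (fun i => vx (i, u i l)) (fun i i' h => (Prod.mk.inj h).1)
      (by rw [Fintype.card_option]; omega) ?_ (filter_subset _ _) ?_).trans ?_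
    · intro i hi
      exact hl _ (on_mk _ _) (by simpa using hi)
    · intro i hi h
      exact hi (mem_filter.2 ⟨mem_univ _, (mem_filter.1 h).2 _ rfl (on_mk _ _)⟩)
    · refine le_trans (card_le_card ?_) (card_image_le (f := fun p => (C.P p.1 p.2).1))
      intro i hi
      obtain ⟨s, r, hr, e⟩ := (mem_Z C).1 (mem_filter.1 hi).2
      refine mem_image.2 ⟨(s, r), mem_filter.2 ⟨mem_univ _, hr, ?_⟩, congrArg Prod.fst e⟩
      dsimp only
      rw [e]
      exact on_mk _ _
  · intro s m hf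
    obtain ⟨y, hy, h⟩ := hcov s m
    refine ⟨y, mem_filter.2 ⟨hy, ?_⟩, h⟩
    rintro x rfl hx
    by_contra hz
    exact hf x hx hz h
  · intro x hx
    exact (mem_filter.1 hx).2 x rfl

variable {C}

theorem small_case {l : Ln F} (E : LineData C l) (p : Cl × G.Row) (hp : ∀ p' ∈ E.R, p' = p)
    {s : Cl} {m : G.Cell} (hf : Free C l s m) : False := by
  have h1 : E.R.card ≤ 1 := card_le_one.2 (fun a ha b hb => (hp a ha).trans (hp b hb).symm)
  obtain ⟨y, hy, -⟩ := E.cov s m hf
  have := card_pos.2 ⟨y, hy⟩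
  have := E.card
  omega

theorem pad_case {s : Cl} {b : Fin G.nH} (E : LineData C (C.L s (.inr b))) : False := by
  have h : 0 < (univ.filter (fun d => ∃ k, G.hb d k = b)).card :=
    lt_of_lt_of_le (by norm_num) (G.hb_deg b)
  obtain ⟨d, hd⟩ := card_pos.1 h
  obtain ⟨k, hk⟩ := (mem_filter.1 hd).2
  refine small_case E (s, G.H b) ?_ (s := s) (m := .inl (d, kA k))
    (free_of C (r := G.H b) trivial (inc_H.2 (Or.inr ⟨d, k, hk, rfl⟩))
      (on_of_inc C s (inc_H.2 (Or.inl rfl))) (fun e => by cases (L_inj C e).2) ?_)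
  · rintro ⟨t, r⟩ hp
    obtain ⟨rfl, h2⟩ := (C.inc_iff _ _ _ _).1 ((E.memR _).1 hp).2
    rcases r with b' | r
    · obtain rfl : b = b' := h2
      rfl
    · exact absurd h2 id
  · intro b' _ h'
    exact ((C.inc_iff _ _ _ _).1 h').2

theorem exists_other : ∀ k : Fin 4, ∃ k' : Fin 4, k' ≠ k ∧ (2 ≤ k' ↔ 2 ≤ k) := by decide

theorem kA_lt : ∀ j, ¬ 2 ≤ kA j := by decide

theorem kB_ge : ∀ j, 2 ≤ kB j := by decide

theorem not_H_of_ge {d : Fin G.nD} {k : Fin 4} (hk : 2 ≤ k) {b : Fin G.nH} :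
    ¬ G.inc (.inl (d, k)) (G.H b) := by
  intro h
  rcases inc_H.1 h with h | ⟨d', j, -, h⟩
  · cases h
  · simp only [Sum.inl.injEq, Prod.mk.injEq] at h
    exact kA_lt j (h.2 ▸ hk)

theorem not_O_of_lt {d : Fin G.nD} {k : Fin 4} (hk : ¬ 2 ≤ k) {b : Fin G.nH} :
    ¬ G.inc (.inl (d, k)) (G.O b) := by
  intro h
  obtain ⟨d', j, -, h⟩ := inc_O.1 h
  simp only [Sum.inl.injEq, Prod.mk.injEq] at h
  exact hk (h.2 ▸ kB_ge j)

theorem B_case {s : Cl} {d : Fin G.nD} {k : Fin 4} (hk : 2 ≤ k)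
    (E : LineData C (C.L s (.inl (d, k)))) : False := by
  obtain ⟨k', h1, h2⟩ := exists_other k
  refine small_case E (s, G.D d) ?_ (s := s) (m := .inl (d, k'))
    (free_of C (r := G.D d) trivial (inc_D.2 ⟨_, rfl⟩) (on_of_inc C s (inc_D.2 ⟨_, rfl⟩))
      (fun e => h1 (by simpa [eq_comm] using (L_inj C e).2)) ?_)
  · rintro ⟨t, r⟩ hp
    obtain ⟨h3, h4⟩ := (E.memR _).1 hp
    obtain ⟨rfl, h5⟩ := (C.inc_iff _ _ _ _).1 h4
    rcases r with b' | b' | d'
    · exact absurd h5 (not_H_of_ge hk)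
    · exact absurd h3 id
    · obtain rfl : d = d' := h5
      rfl
  · intro b' h
    exact absurd h (not_H_of_ge (h2.2 hk))

theorem side_of_H {m : G.Cell} {b : Fin G.nH} (h : G.inc m (G.H b)) : side m = false := by
  rcases inc_H.1 h with rfl | ⟨d, j, -, rfl⟩
  · rfl
  · simpa [side] using kA_lt j

/-- only the vertex `O b` covers two cells through `H b` -/
theorem two_through_H {s : Cl} {b : Fin G.nH} {m m' : G.Cell} (hm : G.inc m (G.H b))
    (hm' : G.inc m' (G.H b)) {y : Option F × Option F} (hy : y ≠ vx (C.P s (G.O b)))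
    (c : Cov C y s m) (c' : Cov C y s m') : m = m' := by
  rcases vertex_cases C y with h | ⟨t, b', rfl⟩ | ⟨x, hx, hO, rfl⟩
  · obtain ⟨d, k, rfl, h2⟩ := covSpec C h c
    obtain ⟨d', k', rfl, h2'⟩ := covSpec C h c'
    rw [side_of_H hm] at h2
    rw [side_of_H hm'] at h2'
    have e : C.P s (G.D d) = C.P s (G.D d') := vx_inj (h2.symm.trans h2')
    have h3 : On (C.P s (G.D d)) (C.L s (.inl (d', k'))) := e ▸ on_of_inc C s (inc_D.2 ⟨_, rfl⟩)
    exact (two_points C (fun e => by cases (P_inj C e).2) (on_of_inc C s (inc_D.2 ⟨_, rfl⟩))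
      (on_of_inc C s hm) h3 (on_of_inc C s hm')).2
  · obtain ⟨rfl, h1⟩ := covO C c
    obtain ⟨-, h2⟩ := covO C c'
    have h3 := h1.resolve_left (not_H_O hm)
    have h4 := h2.resolve_left (not_H_O hm')
    refine (two_points C (fun e => hy ?_) (on_of_inc C s h3) (on_of_inc C s hm)
      (on_of_inc C s h4) (on_of_inc C s hm')).2
    have := (P_inj C e).2
    simp only [Sum.inl.injEq] at this
    rw [this]
  · exact (two_points C (fun e : x = C.P s (G.H b) => hx (e ▸ H_mem C s b)) (covOrd C hx hO c)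
      (on_of_inc C s hm) (covOrd C hx hO c') (on_of_inc C s hm')).2

theorem exists_two : ∀ k : Fin 4, ¬ 2 ≤ k → ∃ j j' : Fin 4, j ≠ j' ∧ kA j = k ∧ kA j' = k ∧
    ∀ j'', kA j'' = k → j'' = j ∨ j'' = j' := by decide

theorem A_case {s : Cl} {d : Fin G.nD} {k : Fin 4} (hk : ¬ 2 ≤ k)
    (E : LineData C (C.L s (.inl (d, k)))) : False := by
  classical
  obtain ⟨j, j', hjj, hj, hj', hall⟩ := exists_two k hk
  have hR : E.R ⊆ {(s, G.H (G.hb d j)), (s, G.H (G.hb d j')), (s, G.D d)} := by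
    rintro ⟨t, r⟩ hp
    obtain ⟨h3, h4⟩ := (E.memR _).1 hp
    obtain ⟨rfl, h5⟩ := (C.inc_iff _ _ _ _).1 h4
    rcases r with b' | b' | d'
    · rcases inc_H.1 h5 with h | ⟨d', j'', rfl, h⟩
      · cases h
      · simp only [Sum.inl.injEq, Prod.mk.injEq] at h
        obtain ⟨rfl, h⟩ := h
        rcases hall j'' h.symm with rfl | rfl <;> simp
    · exact absurd h3 id
    · obtain rfl : d = d' := h5
      simp
  have hEx : E.Ex.card ≤ 2 := by
    have := (card_le_card hR).trans card_le_three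
    have := E.card
    omega
  have hnoO : ∀ b, ¬ On (C.P s (G.O b)) (C.L s (.inl (d, k))) := fun b h =>
    not_O_of_lt hk ((C.inc_iff _ _ _ _).1 h).2
  have hmem : ∀ j₀, kA j₀ = k → vx (C.P s (G.O (G.hb d j₀))) ∈ E.Ex := by
    intro j₀ hj₀
    by_contra hnot
    have hch : ∀ d' : (univ.filter (fun d' => ∃ k, G.hb d' k = G.hb d j₀)).erase d,
        ∃ k, G.hb d' k = G.hb d j₀ := fun d' => (mem_filter.1 (mem_erase.1 d'.2).2).2
    choose kc hkc using hch
    have hinc : ∀ d' : (univ.filter (fun d' => ∃ k, G.hb d' k = G.hb d j₀)).erase d,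
        G.inc (.inl (d'.1, kA (kc d'))) (G.H (G.hb d j₀)) := fun d' =>
      inc_H.2 (Or.inr ⟨_, _, hkc d', rfl⟩)
    have hc := count E.Ex (fun y d' => Cov C y s (.inl (d'.1, kA (kc d')))) 1 ?_ ?_
    · rw [Fintype.card_coe, card_erase_of_mem (mem_filter.2 ⟨mem_univ _, j₀, rfl⟩)] at hc
      have := G.hb_deg (G.hb d j₀)
      omega
    · intro d'
      refine E.cov _ _ (free_of C (r := G.H (G.hb d j₀)) trivial (hinc d')
        (on_of_inc C s (inc_H.2 (Or.inr ⟨d, j₀, rfl, by rw [hj₀]⟩))) (fun e => ?_)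
        (fun b _ => hnoO b))
      have := (L_inj C e).2
      simp only [Sum.inl.injEq, Prod.mk.injEq] at this
      exact (mem_erase.1 d'.2).1 this.1.symm
    · intro y hy T hT
      refine card_le_one.2 (fun a ha b hb => Subtype.ext ?_)
      have := two_through_H (hinc a) (hinc b) (fun e => hnot (e ▸ hy)) (hT a ha) (hT b hb)
      simp only [Sum.inl.injEq, Prod.mk.injEq] at this
      exact this.1
  obtain ⟨k', h1, h2⟩ := exists_other k
  have hk' : ¬ 2 ≤ k' := fun h => hk (h2.1 h)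
  obtain ⟨y, hy, hc⟩ := E.cov s (.inl (d, k'))
    (free_of C (r := G.D d) trivial (inc_D.2 ⟨_, rfl⟩) (on_of_inc C s (inc_D.2 ⟨_, rfl⟩))
      (fun e => h1 (by simpa [eq_comm] using (L_inj C e).2)) (fun b _ => hnoO b))
  have hne : ∀ j₀, kA j₀ = k → y ≠ vx (C.P s (G.O (G.hb d j₀))) := by
    rintro j₀ hj₀ rfl
    rcases (covO C hc).2 with h | h
    · exact not_O_of_lt hk' h
    · rcases inc_H.1 h with h | ⟨d', j₁, h3, h4⟩
      · cases h
      · simp only [Sum.inl.injEq, Prod.mk.injEq] at h4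
        obtain ⟨rfl, h4⟩ := h4
        rw [G.hb_inj _ h3, hj₀] at h4
        exact h1 h4
  refine absurd hEx (not_le.2 (two_lt_card.2 ⟨y, hy, _, hmem j hj, _, hmem j' hj', hne j hj,
    hne j' hj', fun e => hjj ?_⟩))
  have := (P_inj C (vx_inj e)).2
  simp only [Sum.inr.injEq, Sum.inl.injEq] at this
  exact G.hb_inj d this

theorem exists_free {l : Ln F} (hl : ∀ s m, l ≠ C.L s m) (s : Cl) (r : G.Row) (hr : G.isZ r)
    (hon : On (C.P s r) l) :
    ∃ f : Fin 4 → G.Cell, Function.Injective f ∧ ∀ j, G.inc (f j) r ∧ Free C l s (f j) := by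
  classical
  rcases r with b | b | d
  · -- helper point
    have h4 : 4 ≤ (univ.filter (fun m : G.Cell => G.inc m (G.H b) ∧ Free C l s m)).card := by
      have h5 : 5 ≤ (univ.filter (fun m : G.Cell => G.inc m (G.H b))).card := by
        have hsub : univ.filter (fun d => ∃ k, G.hb d k = b) ⊆
            univ.filter (fun d => ∃ k, G.inc (.inl (d, k)) (G.H b)) := by
          intro d hd
          obtain ⟨k, hk⟩ := (mem_filter.1 hd).2
          exact mem_filter.2 ⟨mem_univ _, kA k, inc_H.2 (Or.inr ⟨d, k, hk, rfl⟩)⟩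
        have h6 : (univ.filter (fun d => ∃ k, G.hb d k = b)).map
            ⟨some, Option.some_injective _⟩ ⊆
            ((univ.filter (fun m : G.Cell => G.inc m (G.H b))).erase (.inr b)).image
              (fun m => match m with
                | .inl (d, _) => some d
                | .inr _ => none) := by
          intro o ho
          obtain ⟨d, hd, rfl⟩ := mem_map.1 ho
          obtain ⟨k, hk⟩ := (mem_filter.1 (hsub hd)).2
          exact mem_image.2 ⟨.inl (d, k), mem_erase.2 ⟨by simp, mem_filter.2 ⟨mem_univ _, hk⟩⟩, rfl⟩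
        have h7 := (card_le_card h6).trans card_image_le
        have hpad : (Sum.inr b : G.Cell) ∈ univ.filter (fun m : G.Cell => G.inc m (G.H b)) :=
          mem_filter.2 ⟨mem_univ _, inc_H.2 (Or.inl rfl)⟩
        rw [card_map, card_erase_of_mem hpad] at h7
        have := G.hb_deg b
        omega
      have h8 : ((univ.filter (fun m : G.Cell => G.inc m (G.H b))).filter
          (fun m => ¬ Free C l s m)).card ≤ 1 := by
        have bad : ∀ m, G.inc m (G.H b) → ¬ Free C l s m →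
            ∃ b', b' ≠ b ∧ G.inc m (G.H b') ∧ On (C.P s (G.O b')) l := by
          intro m hm hf
          by_contra hcon
          push Not at hcon
          refine hf (free_of C (r := G.H b) trivial hm hon (hl s m) (fun b' h1 h2 => ?_))
          by_cases e : b' = b
          · subst e
            cases (P_inj C (eq_of_on_of_fst hon h2 (C.partH s b'))).2
          · exact hcon b' e h1 h2
        refine card_le_one.2 (fun m hm m' hm' => ?_)
        simp only [mem_filter, mem_univ, true_and] at hm hm'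
        obtain ⟨b₁, n₁, i₁, o₁⟩ := bad m hm.1 hm.2
        obtain ⟨b₂, n₂, i₂, o₂⟩ := bad m' hm'.1 hm'.2
        by_cases e : b₁ = b₂
        · subst e
          refine (two_points C (fun e => n₁ ?_) (on_of_inc C s i₁) (on_of_inc C s hm.1)
            (on_of_inc C s i₂) (on_of_inc C s hm'.1)).2
          simpa using (P_inj C e).2
        · obtain ⟨m₀, h₀⟩ := C.three s l (G.H b) (G.O b₁) (G.O b₂) (by simp) (by simp)
            (by simpa using e) hon o₁ o₂
          exact absurd h₀ (hl s m₀)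
      have h9 := card_filter_add_card_filter_not
        (s := univ.filter (fun m : G.Cell => G.inc m (G.H b))) (fun m => Free C l s m)
      rw [filter_filter] at h9
      omega
    obtain ⟨f, hf⟩ := Function.Embedding.exists_of_card_le_finset (α := Fin 4)
      (s := univ.filter (fun m : G.Cell => G.inc m (G.H b) ∧ Free C l s m)) (by simpa using h4)
    exact ⟨f, f.injective, fun j => by simpa using hf ⟨j, rfl⟩⟩
  · exact absurd hr id
  · refine ⟨fun k => .inl (d, k), fun k k' h => by simpa using h, fun k =>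
      ⟨inc_D.2 ⟨k, rfl⟩, free_of C (r := G.D d) trivial (inc_D.2 ⟨k, rfl⟩) hon (hl _ _) ?_⟩⟩
    intro b h1 h2
    rcases inc_H.1 h1 with h | ⟨d', j, h3, h4⟩
    · cases h
    · simp only [Sum.inl.injEq, Prod.mk.injEq] at h4
      obtain ⟨rfl, -⟩ := h4
      refine hl s (.inl (d, kB j)) (line_unique (x := C.P s (G.D d)) (y := C.P s (G.O b))
        (fun e => by cases (P_inj C e).2) hon h2 (on_of_inc C s (inc_D.2 ⟨_, rfl⟩))
        (on_of_inc C s (inc_O.2 ⟨d, j, h3, rfl⟩)))

theorem generic_case {l : Ln F} (hl : ∀ s m, l ≠ C.L s m) (E : LineData C l) : False := by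
  classical
  have hch : ∀ p : E.R, ∃ f : Fin 4 → G.Cell, Function.Injective f ∧
      ∀ j, G.inc (f j) p.1.2 ∧ Free C l p.1.1 (f j) := fun p =>
    exists_free hl _ _ ((E.memR _).1 p.2).1 ((E.memR _).1 p.2).2
  choose f hfi hf using hch
  have hon : ∀ p : E.R, On (C.P p.1.1 p.1.2) l := fun p => ((E.memR _).1 p.2).2
  have honc : ∀ (p : E.R) j, On (C.P p.1.1 p.1.2) (C.L p.1.1 (f p j)) := fun p j =>
    on_of_inc C _ (hf p j).1
  -- a chosen cell meets `l` only in its own row
  have hrow : ∀ (p : E.R) j (t : Cl) (r : G.Row), On (C.P t r) l →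
      On (C.P t r) (C.L p.1.1 (f p j)) → p.1 = (t, r) := by
    intro p j t r h1 h2
    obtain ⟨h3, h4⟩ := P_inj C (point_unique (hl _ _) (hon p) (honc p j) h1 h2)
    exact Prod.ext h3 h4
  -- one chosen cell through a row and a point off `l`
  have hone : ∀ (x : Pt F), ¬ On x l → ∀ q q' : E.R × Fin 4, On x (C.L q.1.1.1 (f q.1 q.2)) →
      On x (C.L q'.1.1.1 (f q'.1 q'.2)) → q.1.1 = q'.1.1 → q = q' := by
    rintro x hx ⟨p, j⟩ ⟨p', j'⟩ h1 h2 e
    obtain rfl : p = p' := Subtype.ext e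
    have := two_points C (fun e : x = C.P p.1.1 p.1.2 => hx (e ▸ hon p)) h1 (honc p j) h2
      (honc p j')
    exact Prod.ext rfl (hfi p this.2)
  have hc := count (ι := E.R × Fin 4) E.Ex (fun y q => Cov C y q.1.1.1 (f q.1 q.2)) 4
    (fun q => E.cov _ _ (hf q.1 q.2).2) ?_
  · rw [Fintype.card_prod, Fintype.card_coe, Fintype.card_fin] at hc
    have := E.card
    omega
  intro y hy T hT
  rcases vertex_cases C y with h | ⟨t, b, rfl⟩ | ⟨x, hx, hO, rfl⟩
  · -- special vertex
    refine (card_le_card_of_injOn (t := univ) (fun q : E.R × Fin 4 => match f q.1 q.2 with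
      | .inl (_, k) => k
      | .inr _ => (0 : Fin 4)) (fun _ _ => mem_univ _) ?_).trans (by simp)
    rintro ⟨p, j⟩ hq ⟨p', j'⟩ hq' e
    obtain ⟨d, k, h1, h2⟩ := covSpec C h (hT _ hq)
    obtain ⟨d', k', h1', h2'⟩ := covSpec C h (hT _ hq')
    dsimp only at e h1 h2 h1' h2'
    rw [h1, h1'] at e
    dsimp only at e
    subst e
    have hD : C.P p.1.1 (G.D d) = C.P p'.1.1 (G.D d') := by
      by_cases hk : 2 ≤ k
      · have key : ∀ (p : E.R) j d, f p j = .inl (d, k) → On (C.P p.1.1 (G.D d)) l := by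
          rintro ⟨⟨s, r⟩, hp⟩ j d e
          have h3 := (hf ⟨(s, r), hp⟩ j).1
          rw [e] at h3
          obtain ⟨h4, h5⟩ := (E.memR _).1 hp
          rcases r with b | b | d''
          · exact absurd h3 (not_H_of_ge hk)
          · exact absurd h4 id
          · obtain rfl : d = d'' := h3
            exact h5
        refine eq_of_on_of_fst (key p j d h1) (key p' j' d' h1') ?_
        exact (congrArg Prod.fst h2).symm.trans (congrArg Prod.fst h2')
      · rw [h1] at h2
        rw [h1'] at h2'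
        simp only [side, hk, decide_false] at h2 h2'
        exact vx_inj (h2.symm.trans h2')
    obtain ⟨e1, e2⟩ := P_inj C hD
    simp only [Sum.inr.injEq] at e2
    subst e2
    have h6 := honc p' j'
    rw [h1', ← h1, ← e1] at h6
    have h7 := hrow p j _ _ (e1 ▸ hon p') h6
    obtain rfl : p = p' := Subtype.ext (h7.trans (Prod.ext e1 rfl))
    rw [hfi p (h1.trans h1'.symm)]
  · have hOl : ¬ On (C.P t (G.O b)) l := fun h => O_notMem C t b (E.off _ hy h)
    by_cases hH : On (C.P t (G.H b)) l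
    · have key : ∀ q ∈ T, q.1.1 = (t, G.H b) := by
        rintro ⟨⟨⟨s, r⟩, hp⟩, j⟩ hq
        obtain ⟨e, h1 | h1⟩ := covO C (hT _ hq)
        · exfalso
          dsimp only at e h1
          subst e
          obtain ⟨d, k, h2, h3⟩ := inc_O.1 h1
          have h4 := (hf ⟨(s, r), hp⟩ j).1
          rw [h3] at h4
          obtain ⟨h5, h6⟩ := (E.memR _).1 hp
          rcases r with b' | b' | d'
          · exact not_H_of_ge (kB_ge k) h4
          · exact h5
          · obtain rfl : d = d' := h4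
            exact hl s (.inl (d, kA k)) (line_unique (x := C.P s (G.D d)) (y := C.P s (G.H b))
              (fun e => by cases (P_inj C e).2) h6 hH (on_of_inc C s (inc_D.2 ⟨_, rfl⟩))
              (on_of_inc C s (inc_H.2 (Or.inr ⟨d, k, h2, rfl⟩))))
        · exact hrow _ j t _ hH ((C.inc_iff _ _ _ _).2 ⟨e, h1⟩)
      refine (card_le_card_of_injOn (t := univ) Prod.snd (fun _ _ => mem_univ _) ?_).trans
        (by simp)
      intro q hq q' hq' e
      exact Prod.ext (Subtype.ext ((key q hq).trans (key q' hq').symm)) e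
    · have h2 : (univ.filter (fun r : G.Row => On (C.P t r) l)).card ≤ 2 := by
        by_contra hlt
        obtain ⟨r₁, h₁, r₂, h₂, r₃, h₃, n₁, n₂, n₃⟩ := two_lt_card.1 (not_le.1 hlt)
        obtain ⟨m, hm⟩ := C.three t l r₁ r₂ r₃ n₁ n₂ n₃ (mem_filter.1 h₁).2 (mem_filter.1 h₂).2
          (mem_filter.1 h₃).2
        exact hl t m hm
      have key : ∀ (x : Pt F), ¬ On x l →
          (T.filter (fun q => On x (C.L q.1.1.1 (f q.1 q.2)))).card ≤ 2 := by
        intro x hx
        refine (card_le_card_of_injOn (fun q : E.R × Fin 4 => q.1.1.2) ?_ ?_).trans h2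
        · intro q hq
          have := (covO C (hT q (mem_filter.1 hq).1)).1
          exact mem_filter.2 ⟨mem_univ _, this ▸ hon q.1⟩
        · intro q hq q' hq' e
          have hq := mem_filter.1 hq
          have hq' := mem_filter.1 hq'
          exact hone x hx q q' hq.2 hq'.2 (Prod.ext ((covO C (hT q hq.1)).1.trans
            (covO C (hT q' hq'.1)).1.symm) e)
      have h3 : T ⊆ T.filter (fun q => On (C.P t (G.O b)) (C.L q.1.1.1 (f q.1 q.2))) ∪
          T.filter (fun q => On (C.P t (G.H b)) (C.L q.1.1.1 (f q.1 q.2))) := by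
        intro q hq
        obtain ⟨e, h1 | h1⟩ := covO C (hT _ hq)
        · exact mem_union_left _ (mem_filter.2 ⟨hq, (C.inc_iff _ _ _ _).2 ⟨e, h1⟩⟩)
        · exact mem_union_right _ (mem_filter.2 ⟨hq, (C.inc_iff _ _ _ _).2 ⟨e, h1⟩⟩)
      have h4 := (card_le_card h3).trans (card_union_le _ _)
      have := key _ hOl
      have := key _ hH
      omega
  · have hxl : ¬ On x l := fun h => hx (E.off _ hy h)
    refine le_trans ?_ (C.z4 l x hxl hl)
    refine card_le_card_of_injOn (fun q : E.R × Fin 4 => q.1.1) ?_ ?_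
    · intro q hq
      simp only [coe_filter, mem_univ, true_and, Set.mem_ofPred_eq]
      exact ⟨hon q.1, f q.1 q.2, (hf q.1 q.2).1, covOrd C hx hO (hT q hq)⟩
    · intro q hq q' hq' e
      exact hone x hxl q q' (covOrd C hx hO (hT q hq)) (covOrd C hx hO (hT q' hq')) e

theorem line_case {l : Ln F} (E : LineData C l) : False := by
  by_cases h : ∃ s m, l = C.L s m
  · obtain ⟨s, ⟨d, k⟩ | b, rfl⟩ := h
    · by_cases hk : 2 ≤ k
      · exact B_case hk E
      · exact A_case hk E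
    · exact pad_case E
  · push Not at h
    exact generic_case h E

end Wd

open Wd in
theorem wordsStmt : WordsStmt := by
  rintro G F _ _ _ Cl _ ⟨C⟩
  classical
  refine ⟨(miss (Zset C.P)).image (fun l i => some (u i l)) ∪
    univ.image (fun p : Cl × G.Cell => word C p.1 p.2), ?_, ?_⟩
  · intro e he f hf
    simp only [mem_union, mem_image, mem_univ, true_and] at he hf
    rcases he with ⟨l, hl, rfl⟩ | ⟨p, rfl⟩ <;> rcases hf with ⟨l', hl', rfl⟩ | ⟨p', rfl⟩
    · obtain ⟨x, h1, h2⟩ := exists_meet l l'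
      exact ⟨x.1, congrArg some (h1.trans h2.symm)⟩
    · obtain ⟨i, hi⟩ := cell_line_meet C p'.1 p'.2 hl
      exact ⟨i, hi.symm⟩
    · exact cell_line_meet C p.1 p.2 hl'
    · exact cells_meet C _ _ _ _
  · intro S hS
    by_contra hlt
    have hcard : S.card ≤ Fintype.card F := by omega
    have hcov : ∀ s m, ∃ y ∈ S, Cov C y s m := by
      intro s m
      obtain ⟨i, hi⟩ := hS (word C s m) (mem_union_right _ (mem_image.2 ⟨(s, m), mem_univ _, rfl⟩))
      exact ⟨_, hi, rfl⟩
    have hst := C.stab (univ.filter (fun x => vx x ∈ S ∧ x ∉ Zset C.P)) ?_ ?_ ?_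
    · rcases hst with ⟨l, hl⟩ | ⟨i, hi⟩
      · obtain ⟨E⟩ := lineData C S hcard hcov l (fun x hx hz => by
          have := hl x hx
          simp only [mem_union, mem_filter, mem_univ, true_and] at this
          tauto)
        exact line_case E
      · refine part_case C S hcard hcov i (fun v hz => ?_)
        have := hi v
        simp only [mem_union, mem_filter, mem_univ, true_and] at this
        tauto
    · rw [disjoint_left]
      intro x hx
      exact (mem_filter.1 hx).2.2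
    · refine le_trans (card_le_card_of_injOn vx (fun x hx => ?_) (fun x _ y _ h => vx_inj h)) hcard
      exact (mem_filter.1 hx).2.1
    · intro l hl
      obtain ⟨i, hi⟩ := hS _ (mem_union_left _ (mem_image.2 ⟨l, hl, rfl⟩))
      exact ⟨(i, u i l), mem_filter.2 ⟨mem_univ _, hi, fun h => mem_miss.1 hl _ h (on_mk _ _)⟩,
        on_mk _ _⟩

end Crest.Agent.R34
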