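import Crest.Agent.R34.Final
import Crest.Agent.R34.Glue
import Crest.Agent.R34.Design
import Crest.Agent.R34.Proc
import Crest.Agent.R34.SW
import Crest.Agent.R34.Det
import Crest.Agent.R34.Step1
import Crest.Agent.R34.Step2
import Crest.Agent.R34.Hit
import Crest.Agent.R34.Blk
import Crest.Agent.R34.Words

/-! Assembly of row 34. -/

set_option autoImplicit false

namespace Crest.Agent.R34

theorem words_all :
    ∃ p₀ : ℕ, ∀ (F : Type) [Field F] [Fintype F] [DecidableEq F], p₀ ≤ ringChar F → Words F :=
  words_of designStmt
    (configStmt_of (stabStmt_of (step1Stmt_of detStmt) (step2Stmt_of swStmt nearStmt detStmt))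
      procStmt hitStmt blkStmt z4Stmt) wordsStmt

end Crest.Agent.R34
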