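import Crest.Agent.R34.Defs

/-! Integer data of the gadget and the finite checks. -/

set_option autoImplicit false
set_option maxRecDepth 100000
open Finset

namespace Crest.Agent.R34.Data

/-- marked points `(position, value)`: 30 H, 30 O, 36 D -/
def rows : List (ℕ × ℕ) := [
  (nat_lit 2860, nat_lit 3410206800), (nat_lit 1980, nat_lit 3152595600),
  (nat_lit 2640, nat_lit 3184404300), (nat_lit 3168, nat_lit 3597210540),
  (nat_lit 3168, nat_lit 3604279140), (nat_lit 2640, nat_lit 3370544100),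
  (nat_lit 1980, nat_lit 2594176200), (nat_lit 2860, nat_lit 3414133800),
  (nat_lit 2700, nat_lit 3312603000), (nat_lit 2970, nat_lit 3339913500),
  (nat_lit 2574, nat_lit 3235298220), (nat_lit 0, nat_lit 1678792500),
  (nat_lit 2310, nat_lit 3078375300), (nat_lit 2574, nat_lit 3238832520),
  (nat_lit 2970, nat_lit 3619123200), (nat_lit 2700, nat_lit 3315816000),
  (nat_lit 0, nat_lit 1643449500), (nat_lit 2310, nat_lit 3072484800),
  (nat_lit 1980, nat_lit 2872485000), (nat_lit 2640, nat_lit 3277774500),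
  (nat_lit 2640, nat_lit 3277173900), (nat_lit 1980, nat_lit 2874286800),
  (nat_lit 2970, nat_lit 3479968800), (nat_lit 2970, nat_lit 3479067900),
  (nat_lit 2772, nat_lit 3344457600), (nat_lit 3960, nat_lit 4016479500),
  (nat_lit 3960, nat_lit 4154822100), (nat_lit 2772, nat_lit 3372126120),
  (nat_lit 2475, nat_lit 3159159300), (nat_lit 2475, nat_lit 3193744950),
  (nat_lit 2860, nat_lit 3402352800), (nat_lit 1980, nat_lit 2739082500),
  (nat_lit 2640, nat_lit 3322242000), (nat_lit 3168, nat_lit 3583073340),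
  (nat_lit 3168, nat_lit 3618416340), (nat_lit 2640, nat_lit 3232706400),
  (nat_lit 1980, nat_lit 3007689300), (nat_lit 2860, nat_lit 3421987800),
  (nat_lit 2700, nat_lit 3306177000), (nat_lit 2970, nat_lit 3546670050),
  (nat_lit 2574, nat_lit 3228229620), (nat_lit 0, nat_lit 1749478500),
  (nat_lit 2310, nat_lit 3090156300), (nat_lit 2574, nat_lit 3245901120),
  (nat_lit 2970, nat_lit 3412366650), (nat_lit 2700, nat_lit 3322242000),
  (nat_lit 0, nat_lit 1572763500), (nat_lit 2310, nat_lit 3060703800),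
  (nat_lit 1980, nat_lit 2901591000), (nat_lit 2640, nat_lit 3268072500),
  (nat_lit 2640, nat_lit 3286875900), (nat_lit 1980, nat_lit 2845180800),
  (nat_lit 2970, nat_lit 3465415800), (nat_lit 2970, nat_lit 3493620900),
  (nat_lit 2772, nat_lit 3344578776), (nat_lit 3960, nat_lit 4017085380),
  (nat_lit 3960, nat_lit 4154216220), (nat_lit 2772, nat_lit 3372004944),
  (nat_lit 2475, nat_lit 3159310770), (nat_lit 2475, nat_lit 3193593480),
  (nat_lit 2970, nat_lit 3442408200), (nat_lit 2970, nat_lit 3516628500),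
  (nat_lit 2640, nat_lit 3252734100), (nat_lit 1980, nat_lit 2947606200),
  (nat_lit 2640, nat_lit 3302214300), (nat_lit 1980, nat_lit 2799165600),
  (nat_lit 2970, nat_lit 3477647250), (nat_lit 2970, nat_lit 3481389450),
  (nat_lit 2640, nat_lit 3276226800), (nat_lit 1980, nat_lit 2877128100),
  (nat_lit 2640, nat_lit 3278721600), (nat_lit 1980, nat_lit 2869643700),
  (nat_lit 2970, nat_lit 3453616980), (nat_lit 2970, nat_lit 3505419720),
  (nat_lit 2640, nat_lit 3260206620), (nat_lit 1980, nat_lit 2925188640),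
  (nat_lit 2640, nat_lit 3294741780), (nat_lit 1980, nat_lit 2821583160),
  (nat_lit 2772, nat_lit 3394341720), (nat_lit 3960, nat_lit 3905401500),
  (nat_lit 3960, nat_lit 4265900100), (nat_lit 2475, nat_lit 3221514450),
  (nat_lit 2772, nat_lit 3322242000), (nat_lit 2475, nat_lit 3131389800),
  (nat_lit 2772, nat_lit 3355658460), (nat_lit 3960, nat_lit 4098817800),
  (nat_lit 3960, nat_lit 4072483800), (nat_lit 2475, nat_lit 3173160375),
  (nat_lit 2772, nat_lit 3360925260), (nat_lit 2475, nat_lit 3179743875),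
  (nat_lit 2772, nat_lit 3336803316), (nat_lit 3960, nat_lit 4193093520),
  (nat_lit 3960, nat_lit 3978208080), (nat_lit 2475, nat_lit 3149591445),
  (nat_lit 2772, nat_lit 3379780404), (nat_lit 2475, nat_lit 3203312805)]

/-- exotic lines `(a, b)`: the line passes `(c, c * a + b)` -/
def cells : List (ℕ × ℕ) := [
  (nat_lit 292740, nat_lit 2572970400), (nat_lit 781830, nat_lit 1120373100),
  (nat_lit 364140, nat_lit 2360912400), (nat_lit 710430, nat_lit 1332431100),
  (nat_lit 442680, nat_lit 2201868900), (nat_lit 931770, nat_lit 749271600),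
  (nat_lit 514080, nat_lit 1989810900), (nat_lit 860370, nat_lit 961329600),
  (nat_lit 997815, nat_lit 618502500), (nat_lit 264180, nat_lit 2555298900),
  (nat_lit 890715, nat_lit 901246500), (nat_lit 371280, nat_lit 2272554900),
  (nat_lit 640815, nat_lit 1678792500), (nat_lit 396270, nat_lit 2162991600),
  (nat_lit 605115, nat_lit 1749478500), (nat_lit 431970, nat_lit 2092305600),
  (nat_lit 960330, nat_lit 766943100), (nat_lit 226695, nat_lit 2703739500),
  (nat_lit 853230, nat_lit 1049687100), (nat_lit 333795, nat_lit 2420995500),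
  (nat_lit 583695, nat_lit 1643449500), (nat_lit 828240, nat_lit 1159250400),
  (nat_lit 619395, nat_lit 1572763500), (nat_lit 792540, nat_lit 1229936400),
  (nat_lit 611275, nat_lit 1662160500), (nat_lit 605675, nat_lit 1678792500),
  (nat_lit 635075, nat_lit 1591474500), (nat_lit 581875, nat_lit 1749478500),
  (nat_lit 618835, nat_lit 1643449500), (nat_lit 613235, nat_lit 1660081500),
  (nat_lit 642635, nat_lit 1572763500), (nat_lit 589435, nat_lit 1730767500),
  (nat_lit 609000, nat_lit 1668466800), (nat_lit 617400, nat_lit 1646290800),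
  (nat_lit 573300, nat_lit 1762714800), (nat_lit 653100, nat_lit 1552042800),
  (nat_lit 606130, nat_lit 1676990700), (nat_lit 608930, nat_lit 1671446700),
  (nat_lit 594230, nat_lit 1700552700), (nat_lit 620830, nat_lit 1647884700),
  (nat_lit 607110, nat_lit 1675951200), (nat_lit 615510, nat_lit 1653775200),
  (nat_lit 571410, nat_lit 1770199200), (nat_lit 651210, nat_lit 1559527200),
  (nat_lit 618380, nat_lit 1645251300), (nat_lit 615580, nat_lit 1650795300),
  (nat_lit 630280, nat_lit 1621689300), (nat_lit 603680, nat_lit 1674357300),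
  (nat_lit 551310, nat_lit 1816226280), (nat_lit 568548, nat_lit 1765029420),
  (nat_lit 569160, nat_lit 1763211780), (nat_lit 550698, nat_lit 1818043920),
  (nat_lit 655962, nat_lit 1557212580), (nat_lit 673200, nat_lit 1506015720),
  (nat_lit 673812, nat_lit 1504198080), (nat_lit 655350, nat_lit 1559030220),
  (nat_lit 638265, nat_lit 1575187020), (nat_lit 612408, nat_lit 1643449500),
  (nat_lit 611490, nat_lit 1645873020), (nat_lit 639183, nat_lit 1572763500),
  (nat_lit 551157, nat_lit 1833897780), (nat_lit 542538, nat_lit 1850963400),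
  (nat_lit 542232, nat_lit 1851569280), (nat_lit 551463, nat_lit 1833291900),
  (nat_lit 612102, nat_lit 1678792500), (nat_lit 586245, nat_lit 1747054980),
  (nat_lit 585327, nat_lit 1749478500), (nat_lit 613020, nat_lit 1676368980),
  (nat_lit 673353, nat_lit 1488344220), (nat_lit 681972, nat_lit 1471278600),
  (nat_lit 682278, nat_lit 1470672720), (nat_lit 673047, nat_lit 1488950100),
  (nat_lit 180285, nat_lit 2894591700), (nat_lit 1135260, nat_lit 247401000),
  (nat_lit 91035, nat_lit 3141992700), (nat_lit 1224510, nat_lit 0),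
  (nat_lit 380205, nat_lit 2399789700), (nat_lit 571200, nat_lit 1643449500),
  (nat_lit 362355, nat_lit 2470475700), (nat_lit 589050, nat_lit 1572763500),
  (nat_lit 653310, nat_lit 1678792500), (nat_lit 844305, nat_lit 922452300),
  (nat_lit 635460, nat_lit 1749478500), (nat_lit 862155, nat_lit 851766300),
  (nat_lit 139230, nat_lit 2876920200), (nat_lit 903210, nat_lit 986069700),
  (nat_lit 67830, nat_lit 3053635200), (nat_lit 974610, nat_lit 809354700),
  (nat_lit 1044225, nat_lit 427650300), (nat_lit 89250, nat_lit 3074841000),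
  (nat_lit 1133475, nat_lit 180249300), (nat_lit 0, nat_lit 3322242000),
  (nat_lit 1085280, nat_lit 445321800), (nat_lit 321300, nat_lit 2336172300),
  (nat_lit 1156680, nat_lit 268606800), (nat_lit 249900, nat_lit 2512887300),
  (nat_lit 627830, nat_lit 1615313700), (nat_lit 590030, nat_lit 1720095300),
  (nat_lit 663530, nat_lit 1516353300), (nat_lit 554330, nat_lit 1819055700),
  (nat_lit 626010, nat_lit 1619818200), (nat_lit 618450, nat_lit 1649755800),
  (nat_lit 633150, nat_lit 1591543800), (nat_lit 611310, nat_lit 1678030200),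
  (nat_lit 606060, nat_lit 1672486200), (nat_lit 598500, nat_lit 1702423800),
  (nat_lit 613200, nat_lit 1644211800), (nat_lit 591360, nat_lit 1730698200),
  (nat_lit 634025, nat_lit 1603948500), (nat_lit 603785, nat_lit 1678792500),
  (nat_lit 662585, nat_lit 1533262500), (nat_lit 575225, nat_lit 1749478500),
  (nat_lit 596680, nat_lit 1706928300), (nat_lit 634480, nat_lit 1602146700),
  (nat_lit 560980, nat_lit 1805888700), (nat_lit 670180, nat_lit 1503186300),
  (nat_lit 590485, nat_lit 1718293500), (nat_lit 620725, nat_lit 1643449500),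
  (nat_lit 561925, nat_lit 1788979500), (nat_lit 649285, nat_lit 1572763500),
  (nat_lit 598128, nat_lit 1678792500), (nat_lit 572118, nat_lit 1750892220),
  (nat_lit 572628, nat_lit 1749478500), (nat_lit 597618, nat_lit 1680206220),
  (nat_lit 696252, nat_lit 1435935600), (nat_lit 691050, nat_lit 1456535520),
  (nat_lit 691152, nat_lit 1456131600), (nat_lit 696150, nat_lit 1436339520),
  (nat_lit 533460, nat_lit 1865706480), (nat_lit 528258, nat_lit 1886306400),
  (nat_lit 528360, nat_lit 1885902480), (nat_lit 533358, nat_lit 1866110400),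
  (nat_lit 676923, nat_lit 1474207020), (nat_lit 656115, nat_lit 1525706820),
  (nat_lit 656523, nat_lit 1524697020), (nat_lit 676515, nat_lit 1475216820),
  (nat_lit 626382, nat_lit 1643449500), (nat_lit 652392, nat_lit 1571349780),
  (nat_lit 651882, nat_lit 1572763500), (nat_lit 626892, nat_lit 1642035780),
  (nat_lit 547587, nat_lit 1848034980), (nat_lit 568395, nat_lit 1796535180),
  (nat_lit 567987, nat_lit 1797544980), (nat_lit 547995, nat_lit 1847025180),
  (nat_lit 611530, nat_lit 1661231000), (nat_lit 612420, nat_lit 1940004000),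
  (nat_lit 612990, nat_lit 1566110700), (nat_lit 612898, nat_lit 1655549676),
  (nat_lit 612819, nat_lit 1662868548), (nat_lit 611384, nat_lit 1756490340),
  (nat_lit 611777, nat_lit 1382857740), (nat_lit 611496, nat_lit 1665255240),
  (nat_lit 612269, nat_lit 1659476700), (nat_lit 612813, nat_lit 1519858890),
  (nat_lit 612175, nat_lit 1659559770), (nat_lit 612222, nat_lit 1678792500),
  (nat_lit 612589, nat_lit 1663294710), (nat_lit 612032, nat_lit 1663462152),
  (nat_lit 612870, nat_lit 1798899300), (nat_lit 611684, nat_lit 1664269200),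
  (nat_lit 611447, nat_lit 1643449500), (nat_lit 612254, nat_lit 1658178060),
  (nat_lit 611313, nat_lit 1662085260), (nat_lit 613084, nat_lit 1659232740),
  (nat_lit 612966, nat_lit 1658943660), (nat_lit 612053, nat_lit 1662421860),
  (nat_lit 612141, nat_lit 1661910030), (nat_lit 612499, nat_lit 1659945870),
  (nat_lit 612816, nat_lit 1645731648), (nat_lit 612826, nat_lit 1589688540),
  (nat_lit 611259, nat_lit 1734236460), (nat_lit 612680, nat_lit 1673777160),
  (nat_lit 612167, nat_lit 1644045975), (nat_lit 611800, nat_lit 1679539950)]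

def hbl : List ℕ := [
  0, 1, 2, 3, 4, 5, 6, 7, 8, 6, 9, 10, 11, 5, 9, 12, 13, 14, 1, 15, 16, 2, 14, 17, 8, 18, 19, 11,
  16, 20, 21, 15, 0, 21, 22, 17, 3, 20, 22, 13, 12, 23, 18, 7, 4, 19, 23, 10, 10, 24, 25, 12, 17,
  26, 27, 13, 3, 24, 28, 16, 0, 25, 29, 15, 11, 29, 27, 4, 7, 26, 28, 8, 0, 5, 14, 8, 4, 1, 9, 16,
  11, 14, 6, 3, 10, 1, 5, 17, 7, 2, 9, 15, 13, 6, 2, 12, 4, 22, 19, 13, 0, 23, 21, 12, 17, 18, 22,
  7, 15, 19, 21, 11, 3, 23, 20, 10, 8, 20, 18, 16, 11, 28, 25, 17, 15, 28, 27, 10, 13, 24, 29, 8,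
  0, 26, 24, 4, 16, 29, 26, 12, 7, 25, 27, 3]

/-- the cells through defect points: `(d, position of d, a, b)` -/
def dcells : List (ℕ × ℕ × ℕ × ℕ) := [
  (nat_lit 0, nat_lit 2970, nat_lit 292740, nat_lit 2572970400),
  (nat_lit 0, nat_lit 2970, nat_lit 781830, nat_lit 1120373100),
  (nat_lit 0, nat_lit 2970, nat_lit 364140, nat_lit 2360912400),
  (nat_lit 0, nat_lit 2970, nat_lit 710430, nat_lit 1332431100),
  (nat_lit 1, nat_lit 2970, nat_lit 442680, nat_lit 2201868900),
  (nat_lit 1, nat_lit 2970, nat_lit 931770, nat_lit 749271600),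
  (nat_lit 1, nat_lit 2970, nat_lit 514080, nat_lit 1989810900),
  (nat_lit 1, nat_lit 2970, nat_lit 860370, nat_lit 961329600),
  (nat_lit 2, nat_lit 2640, nat_lit 997815, nat_lit 618502500),
  (nat_lit 2, nat_lit 2640, nat_lit 264180, nat_lit 2555298900),
  (nat_lit 2, nat_lit 2640, nat_lit 890715, nat_lit 901246500),
  (nat_lit 2, nat_lit 2640, nat_lit 371280, nat_lit 2272554900),
  (nat_lit 3, nat_lit 1980, nat_lit 640815, nat_lit 1678792500),
  (nat_lit 3, nat_lit 1980, nat_lit 396270, nat_lit 2162991600),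
  (nat_lit 3, nat_lit 1980, nat_lit 605115, nat_lit 1749478500),
  (nat_lit 3, nat_lit 1980, nat_lit 431970, nat_lit 2092305600),
  (nat_lit 4, nat_lit 2640, nat_lit 960330, nat_lit 766943100),
  (nat_lit 4, nat_lit 2640, nat_lit 226695, nat_lit 2703739500),
  (nat_lit 4, nat_lit 2640, nat_lit 853230, nat_lit 1049687100),
  (nat_lit 4, nat_lit 2640, nat_lit 333795, nat_lit 2420995500),
  (nat_lit 5, nat_lit 1980, nat_lit 583695, nat_lit 1643449500),
  (nat_lit 5, nat_lit 1980, nat_lit 828240, nat_lit 1159250400),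
  (nat_lit 5, nat_lit 1980, nat_lit 619395, nat_lit 1572763500),
  (nat_lit 5, nat_lit 1980, nat_lit 792540, nat_lit 1229936400),
  (nat_lit 6, nat_lit 2970, nat_lit 611275, nat_lit 1662160500),
  (nat_lit 6, nat_lit 2970, nat_lit 605675, nat_lit 1678792500),
  (nat_lit 6, nat_lit 2970, nat_lit 635075, nat_lit 1591474500),
  (nat_lit 6, nat_lit 2970, nat_lit 581875, nat_lit 1749478500),
  (nat_lit 7, nat_lit 2970, nat_lit 618835, nat_lit 1643449500),
  (nat_lit 7, nat_lit 2970, nat_lit 613235, nat_lit 1660081500),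
  (nat_lit 7, nat_lit 2970, nat_lit 642635, nat_lit 1572763500),
  (nat_lit 7, nat_lit 2970, nat_lit 589435, nat_lit 1730767500),
  (nat_lit 8, nat_lit 2640, nat_lit 609000, nat_lit 1668466800),
  (nat_lit 8, nat_lit 2640, nat_lit 617400, nat_lit 1646290800),
  (nat_lit 8, nat_lit 2640, nat_lit 573300, nat_lit 1762714800),
  (nat_lit 8, nat_lit 2640, nat_lit 653100, nat_lit 1552042800),
  (nat_lit 9, nat_lit 1980, nat_lit 606130, nat_lit 1676990700),
  (nat_lit 9, nat_lit 1980, nat_lit 608930, nat_lit 1671446700),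
  (nat_lit 9, nat_lit 1980, nat_lit 594230, nat_lit 1700552700),
  (nat_lit 9, nat_lit 1980, nat_lit 620830, nat_lit 1647884700),
  (nat_lit 10, nat_lit 2640, nat_lit 607110, nat_lit 1675951200),
  (nat_lit 10, nat_lit 2640, nat_lit 615510, nat_lit 1653775200),
  (nat_lit 10, nat_lit 2640, nat_lit 571410, nat_lit 1770199200),
  (nat_lit 10, nat_lit 2640, nat_lit 651210, nat_lit 1559527200),
  (nat_lit 11, nat_lit 1980, nat_lit 618380, nat_lit 1645251300),
  (nat_lit 11, nat_lit 1980, nat_lit 615580, nat_lit 1650795300),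
  (nat_lit 11, nat_lit 1980, nat_lit 630280, nat_lit 1621689300),
  (nat_lit 11, nat_lit 1980, nat_lit 603680, nat_lit 1674357300),
  (nat_lit 12, nat_lit 2970, nat_lit 551310, nat_lit 1816226280),
  (nat_lit 12, nat_lit 2970, nat_lit 568548, nat_lit 1765029420),
  (nat_lit 12, nat_lit 2970, nat_lit 569160, nat_lit 1763211780),
  (nat_lit 12, nat_lit 2970, nat_lit 550698, nat_lit 1818043920),
  (nat_lit 13, nat_lit 2970, nat_lit 655962, nat_lit 1557212580),
  (nat_lit 13, nat_lit 2970, nat_lit 673200, nat_lit 1506015720),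
  (nat_lit 13, nat_lit 2970, nat_lit 673812, nat_lit 1504198080),
  (nat_lit 13, nat_lit 2970, nat_lit 655350, nat_lit 1559030220),
  (nat_lit 14, nat_lit 2640, nat_lit 638265, nat_lit 1575187020),
  (nat_lit 14, nat_lit 2640, nat_lit 612408, nat_lit 1643449500),
  (nat_lit 14, nat_lit 2640, nat_lit 611490, nat_lit 1645873020),
  (nat_lit 14, nat_lit 2640, nat_lit 639183, nat_lit 1572763500),
  (nat_lit 15, nat_lit 1980, nat_lit 551157, nat_lit 1833897780),
  (nat_lit 15, nat_lit 1980, nat_lit 542538, nat_lit 1850963400),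
  (nat_lit 15, nat_lit 1980, nat_lit 542232, nat_lit 1851569280),
  (nat_lit 15, nat_lit 1980, nat_lit 551463, nat_lit 1833291900),
  (nat_lit 16, nat_lit 2640, nat_lit 612102, nat_lit 1678792500),
  (nat_lit 16, nat_lit 2640, nat_lit 586245, nat_lit 1747054980),
  (nat_lit 16, nat_lit 2640, nat_lit 585327, nat_lit 1749478500),
  (nat_lit 16, nat_lit 2640, nat_lit 613020, nat_lit 1676368980),
  (nat_lit 17, nat_lit 1980, nat_lit 673353, nat_lit 1488344220),
  (nat_lit 17, nat_lit 1980, nat_lit 681972, nat_lit 1471278600),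
  (nat_lit 17, nat_lit 1980, nat_lit 682278, nat_lit 1470672720),
  (nat_lit 17, nat_lit 1980, nat_lit 673047, nat_lit 1488950100),
  (nat_lit 18, nat_lit 2772, nat_lit 180285, nat_lit 2894591700),
  (nat_lit 18, nat_lit 2772, nat_lit 1135260, nat_lit 247401000),
  (nat_lit 18, nat_lit 2772, nat_lit 91035, nat_lit 3141992700),
  (nat_lit 18, nat_lit 2772, nat_lit 1224510, nat_lit 0),
  (nat_lit 19, nat_lit 3960, nat_lit 380205, nat_lit 2399789700),
  (nat_lit 19, nat_lit 3960, nat_lit 571200, nat_lit 1643449500),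
  (nat_lit 19, nat_lit 3960, nat_lit 362355, nat_lit 2470475700),
  (nat_lit 19, nat_lit 3960, nat_lit 589050, nat_lit 1572763500),
  (nat_lit 20, nat_lit 3960, nat_lit 653310, nat_lit 1678792500),
  (nat_lit 20, nat_lit 3960, nat_lit 844305, nat_lit 922452300),
  (nat_lit 20, nat_lit 3960, nat_lit 635460, nat_lit 1749478500),
  (nat_lit 20, nat_lit 3960, nat_lit 862155, nat_lit 851766300),
  (nat_lit 21, nat_lit 2475, nat_lit 139230, nat_lit 2876920200),
  (nat_lit 21, nat_lit 2475, nat_lit 903210, nat_lit 986069700),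
  (nat_lit 21, nat_lit 2475, nat_lit 67830, nat_lit 3053635200),
  (nat_lit 21, nat_lit 2475, nat_lit 974610, nat_lit 809354700),
  (nat_lit 22, nat_lit 2772, nat_lit 1044225, nat_lit 427650300),
  (nat_lit 22, nat_lit 2772, nat_lit 89250, nat_lit 3074841000),
  (nat_lit 22, nat_lit 2772, nat_lit 1133475, nat_lit 180249300),
  (nat_lit 22, nat_lit 2772, nat_lit 0, nat_lit 3322242000),
  (nat_lit 23, nat_lit 2475, nat_lit 1085280, nat_lit 445321800),
  (nat_lit 23, nat_lit 2475, nat_lit 321300, nat_lit 2336172300),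
  (nat_lit 23, nat_lit 2475, nat_lit 1156680, nat_lit 268606800),
  (nat_lit 23, nat_lit 2475, nat_lit 249900, nat_lit 2512887300),
  (nat_lit 24, nat_lit 2772, nat_lit 627830, nat_lit 1615313700),
  (nat_lit 24, nat_lit 2772, nat_lit 590030, nat_lit 1720095300),
  (nat_lit 24, nat_lit 2772, nat_lit 663530, nat_lit 1516353300),
  (nat_lit 24, nat_lit 2772, nat_lit 554330, nat_lit 1819055700),
  (nat_lit 25, nat_lit 3960, nat_lit 626010, nat_lit 1619818200),
  (nat_lit 25, nat_lit 3960, nat_lit 618450, nat_lit 1649755800),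
  (nat_lit 25, nat_lit 3960, nat_lit 633150, nat_lit 1591543800),
  (nat_lit 25, nat_lit 3960, nat_lit 611310, nat_lit 1678030200),
  (nat_lit 26, nat_lit 3960, nat_lit 606060, nat_lit 1672486200),
  (nat_lit 26, nat_lit 3960, nat_lit 598500, nat_lit 1702423800),
  (nat_lit 26, nat_lit 3960, nat_lit 613200, nat_lit 1644211800),
  (nat_lit 26, nat_lit 3960, nat_lit 591360, nat_lit 1730698200),
  (nat_lit 27, nat_lit 2475, nat_lit 634025, nat_lit 1603948500),
  (nat_lit 27, nat_lit 2475, nat_lit 603785, nat_lit 1678792500),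
  (nat_lit 27, nat_lit 2475, nat_lit 662585, nat_lit 1533262500),
  (nat_lit 27, nat_lit 2475, nat_lit 575225, nat_lit 1749478500),
  (nat_lit 28, nat_lit 2772, nat_lit 596680, nat_lit 1706928300),
  (nat_lit 28, nat_lit 2772, nat_lit 634480, nat_lit 1602146700),
  (nat_lit 28, nat_lit 2772, nat_lit 560980, nat_lit 1805888700),
  (nat_lit 28, nat_lit 2772, nat_lit 670180, nat_lit 1503186300),
  (nat_lit 29, nat_lit 2475, nat_lit 590485, nat_lit 1718293500),
  (nat_lit 29, nat_lit 2475, nat_lit 620725, nat_lit 1643449500),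
  (nat_lit 29, nat_lit 2475, nat_lit 561925, nat_lit 1788979500),
  (nat_lit 29, nat_lit 2475, nat_lit 649285, nat_lit 1572763500),
  (nat_lit 30, nat_lit 2772, nat_lit 598128, nat_lit 1678792500),
  (nat_lit 30, nat_lit 2772, nat_lit 572118, nat_lit 1750892220),
  (nat_lit 30, nat_lit 2772, nat_lit 572628, nat_lit 1749478500),
  (nat_lit 30, nat_lit 2772, nat_lit 597618, nat_lit 1680206220),
  (nat_lit 31, nat_lit 3960, nat_lit 696252, nat_lit 1435935600),
  (nat_lit 31, nat_lit 3960, nat_lit 691050, nat_lit 1456535520),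
  (nat_lit 31, nat_lit 3960, nat_lit 691152, nat_lit 1456131600),
  (nat_lit 31, nat_lit 3960, nat_lit 696150, nat_lit 1436339520),
  (nat_lit 32, nat_lit 3960, nat_lit 533460, nat_lit 1865706480),
  (nat_lit 32, nat_lit 3960, nat_lit 528258, nat_lit 1886306400),
  (nat_lit 32, nat_lit 3960, nat_lit 528360, nat_lit 1885902480),
  (nat_lit 32, nat_lit 3960, nat_lit 533358, nat_lit 1866110400),
  (nat_lit 33, nat_lit 2475, nat_lit 676923, nat_lit 1474207020),
  (nat_lit 33, nat_lit 2475, nat_lit 656115, nat_lit 1525706820),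
  (nat_lit 33, nat_lit 2475, nat_lit 656523, nat_lit 1524697020),
  (nat_lit 33, nat_lit 2475, nat_lit 676515, nat_lit 1475216820),
  (nat_lit 34, nat_lit 2772, nat_lit 626382, nat_lit 1643449500),
  (nat_lit 34, nat_lit 2772, nat_lit 652392, nat_lit 1571349780),
  (nat_lit 34, nat_lit 2772, nat_lit 651882, nat_lit 1572763500),
  (nat_lit 34, nat_lit 2772, nat_lit 626892, nat_lit 1642035780),
  (nat_lit 35, nat_lit 2475, nat_lit 547587, nat_lit 1848034980),
  (nat_lit 35, nat_lit 2475, nat_lit 568395, nat_lit 1796535180),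
  (nat_lit 35, nat_lit 2475, nat_lit 567987, nat_lit 1797544980),
  (nat_lit 35, nat_lit 2475, nat_lit 547995, nat_lit 1847025180)]

def hbF (d : Fin 36) (k : Fin 4) : Fin 30 :=
  ⟨hbl.getD (4 * d.val + k.val) 0 % 30, Nat.mod_lt _ (by norm_num)⟩

theorem hbF_inj' : ∀ d : Fin 36, ∀ k k' : Fin 4, hbF d k = hbF d k' → k = k' := by
  decide +kernel

theorem hbF_deg : ∀ b : Fin 30, 4 ≤ (univ.filter (fun d : Fin 36 => ∃ k, hbF d k = b)).card := by
  decide +kernel

/-- the gadget type -/
@[reducible] def G0 : Gad where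
  nH := 30
  nD := 36
  hb := hbF
  hb_inj := fun d k k' h => hbF_inj' d k k' h
  hb_deg := hbF_deg

def rH (b : Fin 30) : ℕ × ℕ := rows.getD b.val (0, 0)
def rO (b : Fin 30) : ℕ × ℕ := rows.getD (30 + b.val) (0, 0)
def rD (d : Fin 36) : ℕ × ℕ := rows.getD (60 + d.val) (0, 0)
def cD (d : Fin 36) (k : Fin 4) : ℕ × ℕ := cells.getD (4 * d.val + k.val) (0, 0)
def cP (b : Fin 30) : ℕ × ℕ := cells.getD (144 + b.val) (0, 0)

def row : G0.Row → ℕ × ℕ
  | .inl b => rH b
  | .inr (.inl b) => rO b
  | .inr (.inr d) => rD d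

def cell : G0.Cell → ℕ × ℕ
  | .inl (d, k) => cD d k
  | .inr b => cP b

def onN (r m : ℕ × ℕ) : Prop := r.1 * m.1 + m.2 = r.2

instance (r m : ℕ × ℕ) : Decidable (onN r m) := inferInstanceAs (Decidable (_ = _))

theorem inc1 : ∀ d : Fin 36, ∀ k : Fin 4, ∀ b : Fin 30, onN (rH b) (cD d k) ↔
    ((k = 0 ∧ (b = hbF d 0 ∨ b = hbF d 1)) ∨ (k = 1 ∧ (b = hbF d 2 ∨ b = hbF d 3))) := by
  decide +kernel

theorem inc2 : ∀ d : Fin 36, ∀ k : Fin 4, ∀ b : Fin 30, onN (rO b) (cD d k) ↔
    ((k = 2 ∧ (b = hbF d 0 ∨ b = hbF d 2)) ∨ (k = 3 ∧ (b = hbF d 1 ∨ b = hbF d 3))) := by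
  decide +kernel

theorem inc3 : ∀ d : Fin 36, ∀ k : Fin 4, ∀ d' : Fin 36, onN (rD d') (cD d k) ↔ d = d' := by
  decide +kernel

theorem inc4 : ∀ b b' : Fin 30, onN (rH b') (cP b) ↔ b = b' := by
  decide +kernel

theorem inc5 : ∀ b b' : Fin 30, ¬ onN (rO b') (cP b) := by
  decide +kernel

theorem inc6 : ∀ b : Fin 30, ∀ d : Fin 36, ¬ onN (rD d) (cP b) := by
  decide +kernel

theorem onN_iff (m : G0.Cell) (r : G0.Row) : onN (row r) (cell m) ↔ G0.inc m r := by
  rcases m with ⟨d, k⟩ | b <;> rcases r with b' | b' | d'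
  · exact inc1 d k b'
  · exact inc2 d k b'
  · exact inc3 d k d'
  · exact inc4 b b'
  · exact iff_of_false (inc5 b b') (fun h => h)
  · exact iff_of_false (inc6 b d') (fun h => h)

theorem rows_nodup : rows.Nodup := by decide +kernel
theorem cells_nodup : cells.Nodup := by decide +kernel
theorem rows_length : rows.length = 96 := by decide +kernel
theorem cells_length : cells.length = 174 := by decide +kernel

theorem getD_inj {α : Type} {l : List α} (h : l.Nodup) (a : α) {i j : ℕ} (hi : i < l.length)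
    (hj : j < l.length) (e : l.getD i a = l.getD j a) : i = j := by
  rw [List.getD_eq_getElem _ _ hi, List.getD_eq_getElem _ _ hj] at e
  exact (h.getElem_inj_iff).1 e

theorem getD_mem {α : Type} {l : List α} (a : α) {i : ℕ} (hi : i < l.length) :
    l.getD i a ∈ l := by
  rw [List.getD_eq_getElem _ _ hi]
  exact List.getElem_mem hi

theorem row_inj : Function.Injective row := by
  intro r r' h
  rcases r with b | b | b <;> rcases r' with b' | b' | b' <;>
    simp only [row, rH, rO, rD] at h <;>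
    have := getD_inj rows_nodup _ (by rw [rows_length]; omega) (by rw [rows_length]; omega) h <;>
    first | (exfalso; omega) | (congr; exact Fin.ext (by omega))

theorem cell_inj : Function.Injective cell := by
  intro r r' h
  rcases r with ⟨d, k⟩ | b <;> rcases r' with ⟨d', k'⟩ | b' <;>
    simp only [cell, cD, cP] at h <;>
    have := getD_inj cells_nodup _ (by rw [cells_length]; omega)
      (by rw [cells_length]; omega) h <;>
    first | (exfalso; omega) | (congr <;> exact Fin.ext (by omega))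

theorem row_mem (r : G0.Row) : row r ∈ rows := by
  rcases r with b | b | b <;> exact getD_mem _ (by rw [rows_length]; omega)

theorem cell_mem (m : G0.Cell) : cell m ∈ cells := by
  rcases m with ⟨d, k⟩ | b <;> exact getD_mem _ (by rw [cells_length]; omega)

theorem exists_cell {c : ℕ × ℕ} (h : c ∈ cells) : ∃ m, cell m = c := by
  obtain ⟨i, hi, rfl⟩ := List.getElem_of_mem h
  have hi' : i < 174 := cells_length ▸ hi
  by_cases h1 : i < 144
  · refine ⟨.inl (⟨i / 4, show i / 4 < 36 by omega⟩, ⟨i % 4, by omega⟩), ?_⟩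
    simp only [cell, cD]
    rw [show 4 * (i / 4) + i % 4 = i by omega, List.getD_eq_getElem _ _ hi]
  · refine ⟨.inr ⟨i - 144, show i - 144 < 30 by omega⟩, ?_⟩
    simp only [cell, cP]
    rw [show 144 + (i - 144) = i by omega, List.getD_eq_getElem _ _ hi]

theorem rows_bound : ∀ r ∈ rows, r.1 < 10000 ∧ r.2 < 10000000000 := by decide +kernel
theorem cells_bound : ∀ r ∈ cells, r.1 < 10000000000 ∧ r.2 < 10000000000 := by decide +kernel

theorem posH : ∀ b : Fin 30, (rH b).1 = (rO b).1 := by decide +kernel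

theorem posD : ∀ d d' : Fin 36, (rD d).1 = (rD d').1 → ∀ k k' : Fin 4,
    hbF d k = hbF d' k' → d = d' := by decide +kernel

theorem posH_card : ∀ b₀ : Fin 30,
    (univ.filter (fun b : Fin 30 => (rH b).1 = (rH b₀).1)).card ≤ 5 := by decide +kernel

theorem pos0_card : (univ.filter (fun b : Fin 30 => (rH b).1 = 2772)).card <
    (univ.filter (fun d : Fin 36 => (rD d).1 = 2772)).card := by decide +kernel

/-- kernel-friendly `List.all` -/
noncomputable def allL {α : Type} (l : List α) (f : α → Bool) : Bool :=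
  List.rec true (fun a _ ih => Bool.rec false ih (f a)) l

theorem allL_eq {α : Type} (l : List α) (f : α → Bool) : allL l f = l.all f := by
  induction l with
  | nil => rfl
  | cons a l ih =>
    rw [List.all_cons, ← ih]
    show (Bool.rec false (allL l f) (f a) : Bool) = _
    cases f a <;> rfl

/-- kernel-friendly lazy `or` -/
noncomputable def orL (a b : Bool) : Bool := Bool.rec b true a

theorem orL_eq (a b : Bool) : orL a b = (a || b) := by cases a <;> rfl

/-- `a * y + b * z + c * x ≠ a * z + b * x + c * y` -/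
noncomputable def detL (a b c x y z : ℕ) : Bool :=
  Bool.rec true false (Nat.beq (Nat.add (Nat.add (Nat.mul a y) (Nat.mul b z)) (Nat.mul c x))
    (Nat.add (Nat.add (Nat.mul a z) (Nat.mul b x)) (Nat.mul c y)))

theorem detL_eq (a b c x y z : ℕ) :
    detL a b c x y z = !(Nat.beq (a * y + b * z + c * x) (a * z + b * x + c * y)) := by
  show (Bool.rec true false (Nat.beq (a * y + b * z + c * x) (a * z + b * x + c * y)) : Bool) = _
  cases Nat.beq (a * y + b * z + c * x) (a * z + b * x + c * y) <;> rfl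

noncomputable def threeChk : Bool :=
  allL rows fun r₁ => allL rows fun r₂ => orL (Nat.ble r₂.1 r₁.1) (allL rows fun r₃ =>
    orL (orL (Nat.ble r₃.1 r₂.1) (detL r₁.1 r₂.1 r₃.1 r₁.2 r₂.2 r₃.2))
    (cells.any fun m => Nat.beq (r₁.1 * m.1 + m.2) r₁.2 && Nat.beq (r₂.1 * m.1 + m.2) r₂.2))

theorem threeChk_true : threeChk = true := by decide +kernel

theorem three_sorted {r₁ r₂ r₃ : ℕ × ℕ} (h₁ : r₁ ∈ rows) (h₂ : r₂ ∈ rows) (h₃ : r₃ ∈ rows)
    (l₁ : r₁.1 < r₂.1) (l₂ : r₂.1 < r₃.1)
    (e : r₁.1 * r₂.2 + r₂.1 * r₃.2 + r₃.1 * r₁.2 = r₁.1 * r₃.2 + r₂.1 * r₁.2 + r₃.1 * r₂.2) :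
    ∃ m ∈ cells, onN r₁ m ∧ onN r₂ m := by
  have h := threeChk_true
  simp only [threeChk, allL_eq, orL_eq, detL_eq, List.all_eq_true, Bool.or_eq_true, Nat.ble_eq, Bool.not_eq_true',
    List.any_eq_true, Bool.and_eq_true, Nat.beq_eq] at h
  rcases h r₁ h₁ r₂ h₂ with h | h
  · omega
  rcases h r₃ h₃ with (h | h) | h
  · omega
  · exact absurd (Nat.beq_eq ▸ e) (by simp [h])
  · exact h

noncomputable def concChk : Bool :=
  allL dcells fun x => allL dcells fun y =>
    orL (orL (Nat.ble y.1 x.1) (!(Nat.beq x.2.1 y.2.1))) (allL dcells fun z =>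
      orL (orL (Nat.ble z.1 y.1) (!(Nat.beq x.2.1 z.2.1)))
        (detL x.2.2.1 y.2.2.1 z.2.2.1 x.2.2.2 y.2.2.2 z.2.2.2))

theorem concChk_true : concChk = true := by decide +kernel

theorem dcells_mem : ∀ d : Fin 36, ∀ k : Fin 4,
    (d.val, (rD d).1, (cD d k).1, (cD d k).2) ∈ dcells := by decide +kernel

theorem conc_sorted {d₁ d₂ d₃ : Fin 36} (k₁ k₂ k₃ : Fin 4) (l₁ : d₁ < d₂) (l₂ : d₂ < d₃)
    (p₁ : (rD d₁).1 = (rD d₂).1) (p₂ : (rD d₁).1 = (rD d₃).1) :
    (cD d₁ k₁).1 * (cD d₂ k₂).2 + (cD d₂ k₂).1 * (cD d₃ k₃).2 + (cD d₃ k₃).1 * (cD d₁ k₁).2 ≠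
    (cD d₁ k₁).1 * (cD d₃ k₃).2 + (cD d₂ k₂).1 * (cD d₁ k₁).2 + (cD d₃ k₃).1 * (cD d₂ k₂).2 := by
  have h := concChk_true
  simp only [concChk, allL_eq, orL_eq, detL_eq, List.all_eq_true, Bool.or_eq_true, Nat.ble_eq, Bool.not_eq_true'] at h
  have l₁' : d₁.val < d₂.val := l₁
  have l₂' : d₂.val < d₃.val := l₂
  intro e
  rcases h _ (dcells_mem d₁ k₁) _ (dcells_mem d₂ k₂) with (h | h) | h
  · simp only at h; omega
  · exact Nat.ne_of_beq_eq_false h p₁
  rcases h _ (dcells_mem d₃ k₃) with (h | h) | h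
  · simp only at h; omega
  · exact Nat.ne_of_beq_eq_false h p₂
  · exact Nat.ne_of_beq_eq_false h e

end Crest.Agent.R34.Data
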