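import Mathlib

/-!
Row 34 (S0045, S0046): interface. Truncated projective plane over a finite field `F`, `q = #F`.
Parts `i : Option F`, points `(i, v)`, lines `l : F × F` pass through `(i, u i l)`.
-/

set_option autoImplicit false
open Finset

namespace Crest.Agent.R34

abbrev Pt (F : Type) := Option F × F
abbrev Ln (F : Type) := F × F

section plane
variable {F : Type} [Field F]

/-- the value of the line `w` in part `i` -/
def u : Option F → Ln F → F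
  | none, w => w.1
  | some c, w => c * w.1 + w.2

/-- the point `x` is on the line `l` -/
def On (x : Pt F) (l : Ln F) : Prop := u x.1 l = x.2

/-- translate a point by the parameter `w` (lines are translated by `l + w`) -/
def shift (w : Ln F) (x : Pt F) : Pt F := (x.1, x.2 + u x.1 w)

/-- the first `t` choices of a history -/
def trunc (t : ℕ) (p : ℕ → Ln F) : ℕ → Ln F := fun s => if s < t then p s else 0

variable [DecidableEq F]

instance (x : Pt F) (l : Ln F) : Decidable (On x l) := inferInstanceAs (Decidable (u x.1 l = x.2))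

/-- number of lines of `Λ` through `x` -/
def deg (Λ : Finset (Ln F)) (x : Pt F) : ℕ := (Λ.filter (fun l => On x l)).card

/-- number of points of `S` on `l` -/
def nOn (S : Finset (Pt F)) (l : Ln F) : ℕ := (S.filter (fun x => On x l)).card

/-- the removed points produced by the shifts `p` from base points `zr` -/
def Zof (N : ℕ) (zr : ℕ → Finset (Pt F)) (p : ℕ → Ln F) : Finset (Pt F) :=
  (range N).biUnion (fun s => (zr s).image (shift (p s)))

/-- base points `x` of flags `(x, m)` such that, after the shift `w`, `x` is on `l` and `m` passes `y` -/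
def hits (fl : Finset (Pt F × Ln F)) (w l : Ln F) (y : Pt F) : Finset (Pt F) :=
  (fl.filter (fun f => On (shift w f.1) l ∧ On y (f.2 + w))).image Prod.fst

variable [Fintype F]

/-- lines missing `S` -/
def miss (S : Finset (Pt F)) : Finset (Ln F) := univ.filter (fun l => ∀ x ∈ S, ¬ On x l)

/-- lines with at least two points of `X` -/
def sec (X : Finset (Pt F)) : Finset (Ln F) := univ.filter (fun l => 2 ≤ nOn X l)

/-- number of lines through `y` meeting `X \ {y}` -/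
def cnt (X : Finset (Pt F)) (y : Pt F) : ℕ :=
  (univ.filter (fun l : Ln F => On y l ∧ ∃ x ∈ X, x ≠ y ∧ On x l)).card

/-- points that see `X` along at most `J` lines -/
def dec (X : Finset (Pt F)) (J : ℕ) : Finset (Pt F) := univ.filter (fun y => cnt X y ≤ J)

/-- weighted regularity of the lines missing `Z` -/
def Reg (Z : Finset (Pt F)) (η K : ℝ) : Prop :=
  ∃ ω : Ln F → ℝ, (∀ l ∈ miss Z, 1 ≤ ω l ∧ ω l ≤ K) ∧ (∀ l, l ∉ miss Z → ω l = 0) ∧
    (∀ x : Pt F, x ∉ Z → (1 - η) * Fintype.card F ≤ ∑ l ∈ univ.filter (fun l => On x l), ω l ∧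
      ∑ l ∈ univ.filter (fun l => On x l), ω l ≤ (1 + η) * Fintype.card F) ∧
    (1 - η) * (Fintype.card F : ℝ) ^ 2 ≤ ∑ l, ω l

/-- small decodable point sets hold few points of `Z` -/
def Hit (Z : Finset (Pt F)) (ε C L : ℝ) : Prop :=
  ∀ (X : Finset (Pt F)) (J : ℕ), ε ^ 2 * Fintype.card F ≤ (X.card : ℝ) ^ 2 →
    ((dec X J).card : ℝ) ≤ C * Fintype.card F → ((Z ∩ dec X J).card : ℝ) ≤ L * X.card

/-- decodable line families are not blocked by `Z`, apart from few abnormal points -/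
def Blk (Z : Finset (Pt F)) (ε c L : ℝ) : Prop :=
  ∀ (X E : Finset (Pt F)) (J : ℕ) (Λ : Finset (Ln F)), (Λ = sec X ∨ Λ = miss (dec X J ∪ E)) →
    ε * Fintype.card F ≤ X.card → (Fintype.card F : ℝ) ^ 3 ≤ 100 * (Λ.card : ℝ) ^ 2 →
    ∃ Z₁ ⊆ Z, (Z₁.card : ℝ) ≤ L * (X.card + E.card) ∧
      c * Λ.card ≤ ((Λ ∩ miss Z).card : ℝ) + ∑ z ∈ Z₁, (deg Λ z : ℝ)

/-- stability: small sets blocking the lines missing `Z` contain a line or a part up to `Z` -/
def Stab (Z : Finset (Pt F)) : Prop :=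
  ∀ S : Finset (Pt F), Disjoint S Z → S.card ≤ Fintype.card F →
    (∀ l ∈ miss Z, ∃ x ∈ S, On x l) →
    (∃ l : Ln F, ∀ x, On x l → x ∈ S ∪ Z) ∨ (∃ i : Option F, ∀ v : F, (i, v) ∈ S ∪ Z)

/-- `P` fails with probability at most `δ` under every sequential choice whose steps have
point probabilities at most `1 / (θ q²)`, witnessed by a supermartingale. -/
def Testable (θ : ℝ) (N : ℕ) (δ : ℝ) (P : (ℕ → Ln F) → Prop) : Prop :=
  ∃ Ψ : ℕ → (ℕ → Ln F) → ℝ, (∀ t p, 0 ≤ Ψ t p) ∧ (∀ p, Ψ 0 p ≤ δ) ∧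
    (∀ t < N, ∀ p : ℕ → Ln F, ∀ ν : Ln F → ℝ, (∀ w, 0 ≤ ν w) → ∑ w, ν w = 1 →
      (∀ w, ν w ≤ 1 / (θ * (Fintype.card F : ℝ) ^ 2)) →
      ∑ w, ν w * Ψ (t + 1) (Function.update p t w) ≤ Ψ t p) ∧
    (∀ p, Ψ N p < 1 → P p)

end plane

/-! ### The gadget -/

/-- combinatorial type of the gadget: `nH` helpers, `nD` defect points, each with four helpers -/
structure Gad where
  nH : ℕ
  nD : ℕ
  hb : Fin nD → Fin 4 → Fin nH
  hb_inj : ∀ d, Function.Injective (hb d)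
  hb_deg : ∀ b, 4 ≤ (univ.filter (fun d => ∃ k, hb d k = b)).card

/-- marked points: `inl b` = H b (removed), `inr (inl b)` = O b (kept), `inr (inr d)` = D d (removed) -/
abbrev Gad.Row (G : Gad) := Fin G.nH ⊕ Fin G.nH ⊕ Fin G.nD
/-- exotic lines: `inl (d, k)` (k = 0,1: A, A'; k = 2,3: B, B'), `inr b` = padding line of helper b -/
abbrev Gad.Cell (G : Gad) := (Fin G.nD × Fin 4) ⊕ Fin G.nH

abbrev Gad.H (G : Gad) (b : Fin G.nH) : G.Row := .inl b
abbrev Gad.O (G : Gad) (b : Fin G.nH) : G.Row := .inr (.inl b)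
abbrev Gad.D (G : Gad) (d : Fin G.nD) : G.Row := .inr (.inr d)

/-- intended incidences -/
def Gad.inc (G : Gad) : G.Cell → G.Row → Prop
  | .inl (d, k), .inl b => (k = 0 ∧ (b = G.hb d 0 ∨ b = G.hb d 1)) ∨
      (k = 1 ∧ (b = G.hb d 2 ∨ b = G.hb d 3))
  | .inl (d, k), .inr (.inl b) => (k = 2 ∧ (b = G.hb d 0 ∨ b = G.hb d 2)) ∨
      (k = 3 ∧ (b = G.hb d 1 ∨ b = G.hb d 3))
  | .inl (d, _), .inr (.inr d') => d = d'
  | .inr b, .inl b' => b = b'
  | .inr _, .inr _ => False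

/-- removed rows -/
def Gad.isZ (G : Gad) : G.Row → Prop
  | .inl _ => True
  | .inr (.inl _) => False
  | .inr (.inr _) => True

instance (G : Gad) : DecidablePred G.isZ := fun r => by
  rcases r with _ | _ | _ <;> unfold Gad.isZ <;> infer_instance

/-- unshifted copies of the gadget, one for each cluster -/
structure Design (G : Gad) (F : Type) [Field F] [Fintype F] [DecidableEq F]
    (Cl : Type) [Fintype Cl] (C₁ : ℕ) where
  pt : Cl → G.Row → Pt F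
  ln : Cl → G.Cell → Ln F
  inc_iff : ∀ s m r, On (pt s r) (ln s m) ↔ G.inc m r
  pt_inj : ∀ s, Function.Injective (pt s)
  ln_inj : ∀ s, Function.Injective (ln s)
  partH : ∀ s b, (pt s (G.H b)).1 = (pt s (G.O b)).1
  partD : ∀ s d d' k k', (pt s (G.D d)).1 = (pt s (G.D d')).1 → G.hb d k = G.hb d' k' → d = d'
  three : ∀ s l r₁ r₂ r₃, r₁ ≠ r₂ → r₁ ≠ r₃ → r₂ ≠ r₃ →
    On (pt s r₁) l → On (pt s r₂) l → On (pt s r₃) l → ∃ m, l = ln s m
  noconc : ∀ s d₁ d₂ d₃ k₁ k₂ k₃ y, d₁ ≠ d₂ → d₁ ≠ d₃ → d₂ ≠ d₃ →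
    (pt s (G.D d₁)).1 = (pt s (G.D d₂)).1 → (pt s (G.D d₁)).1 = (pt s (G.D d₃)).1 →
    On y (ln s (.inl (d₁, k₁))) → On y (ln s (.inl (d₂, k₂))) → On y (ln s (.inl (d₃, k₃))) → False
  mult : ∀ i, (univ.filter (fun s => ∃ r, (pt s r).1 = i)).card ≤ C₁
  surplus : ∀ i, (univ.filter (fun x : Cl × Fin G.nH => (pt x.1 (G.H x.2)).1 = i)).card <
    (univ.filter (fun x : Cl × Fin G.nD => (pt x.1 (G.D x.2)).1 = i)).card

/-- the removed set of placed gadgets -/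
def Zset {G : Gad} {F : Type} [DecidableEq F] {Cl : Type} [Fintype Cl]
    (P : Cl → G.Row → Pt F) : Finset (Pt F) :=
  (univ.filter (fun x : Cl × G.Row => G.isZ x.2)).image (fun x => P x.1 x.2)

open Classical in
/-- placed copies of the gadget in general position -/
structure Config (G : Gad) (F : Type) [Field F] [Fintype F] [DecidableEq F]
    (Cl : Type) [Fintype Cl] where
  P : Cl → G.Row → Pt F
  L : Cl → G.Cell → Ln F
  inc_iff : ∀ s t m r, On (P t r) (L s m) ↔ s = t ∧ G.inc m r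
  P_inj : ∀ s, Function.Injective (P s)
  L_inj : ∀ s, Function.Injective (L s)
  partH : ∀ s b, (P s (G.H b)).1 = (P s (G.O b)).1
  partD : ∀ s d d' k k', (P s (G.D d)).1 = (P s (G.D d')).1 → G.hb d k = G.hb d' k' → d = d'
  three : ∀ s l r₁ r₂ r₃, r₁ ≠ r₂ → r₁ ≠ r₃ → r₂ ≠ r₃ →
    On (P s r₁) l → On (P s r₂) l → On (P s r₃) l → ∃ m, l = L s m
  noconc : ∀ (a₁ a₂ a₃ : Cl × Fin G.nD) k₁ k₂ k₃ y, a₁ ≠ a₂ → a₁ ≠ a₃ → a₂ ≠ a₃ →
    (P a₁.1 (G.D a₁.2)).1 = (P a₂.1 (G.D a₂.2)).1 → (P a₁.1 (G.D a₁.2)).1 = (P a₃.1 (G.D a₃.2)).1 →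
    On y (L a₁.1 (.inl (a₁.2, k₁))) → On y (L a₂.1 (.inl (a₂.2, k₂))) →
    On y (L a₃.1 (.inl (a₃.2, k₃))) → False
  z4 : ∀ l y, ¬ On y l → (∀ s m, l ≠ L s m) →
    (univ.filter (fun x : Cl × G.Row =>
      On (P x.1 x.2) l ∧ ∃ m, G.inc m x.2 ∧ On y (L x.1 m))).card ≤ 4
  surplus : ∀ i, (univ.filter (fun x : Cl × Fin G.nH => (P x.1 (G.H x.2)).1 = i)).card <
    (univ.filter (fun x : Cl × Fin G.nD => (P x.1 (G.D x.2)).1 = i)).card
  stab : Stab (Zset P)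

/-! ### The statements -/

/-- Szőnyi–Weiner inequality -/
def SWStmt : Prop :=
  ∀ (F : Type) [Field F] [Fintype F] [DecidableEq F] (S : Finset (Pt F)) (x : Pt F),
    (deg (miss S) x : ℤ) * (2 * Fintype.card F - S.card - deg (miss S) x) ≤ (miss S).card

/-- near-blocking sets: Bruen count and maximum degree argument -/
def NearStmt : Prop :=
  ∀ (F : Type) [Field F] [Fintype F] [DecidableEq F] (B : Finset (Pt F)) (j : ℕ),
    B.card ≤ Fintype.card F + j →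
    (∃ l : Ln F, ∀ x, On x l → x ∈ B) ∨ (∃ i : Option F, ∀ v : F, (i, v) ∈ B) ∨
    (miss B = ∅ ∧ Fintype.card F ≤ j ^ 2) ∨
    (∃ x : Pt F, 1 ≤ deg (miss B) x ∧
      Fintype.card F ≤ deg (miss B) x * (j + deg (miss B) x + 1))

/-- detection by sampling without replacement -/
def DetStmt : Prop :=
  ∀ (α β Y O : Type) [DecidableEq α] [DecidableEq β] (S : Finset α) (Ys : Finset Y)
    (cl : Y → α → β) (Os : Finset O) (Ms : O → Finset α) (D k a : ℕ) (μ : ℝ),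
    1 ≤ D → 0 < μ → 3 ≤ a → 1 ≤ k → 4 * k ≤ S.card → k * D ≤ 2 * S.card →
    64 * (S.card : ℝ) * a ≤ μ * k ^ 2 * D →
    (∀ z ∈ Ys, μ * S.card ≤
      ((S.filter (fun x => D + 1 ≤ (S.filter (fun x' => cl z x' = cl z x)).card)).card : ℝ)) →
    (∀ o ∈ Os, 12 * k * (Ms o).card ≤ a * S.card) →
    (Os.card : ℝ) * Real.exp (-(a : ℝ) / 3) ≤ 1 / 4 →
    ∃ X ⊆ S, X.card = 2 * k ∧
      Ys.card ≤ 2 * (Ys.filter (fun z => (X.image (cl z)).card + a ≤ 2 * k)).card ∧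
      ∀ o ∈ Os, (X ∩ Ms o).card < a

/-- first step of stability: few lines miss `S` -/
def Step1Stmt : Prop :=
  ∀ c L γ : ℝ, 0 < c → 1 ≤ L → 0 < γ → ∃ η ε C : ℝ, 0 < η ∧ 0 < ε ∧ 0 < C ∧ ∃ q₀ : ℕ,
    ∀ (F : Type) [Field F] [Fintype F] [DecidableEq F], q₀ ≤ Fintype.card F →
    ∀ (Z : Finset (Pt F)) (K : ℝ), Reg Z η K → Hit Z ε C L → Blk Z ε c L →
    ∀ S : Finset (Pt F), Disjoint S Z → S.card ≤ Fintype.card F →
      (∀ l ∈ miss Z, ∃ x ∈ S, On x l) →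
      ((miss S).card : ℝ) ≤ γ * (Fintype.card F : ℝ) ^ 2

/-- second step of stability -/
def Step2Stmt : Prop :=
  ∀ K c L : ℝ, 1 ≤ K → 0 < c → 1 ≤ L → ∃ γ ε : ℝ, 0 < γ ∧ 0 < ε ∧ ∃ q₀ : ℕ,
    ∀ (F : Type) [Field F] [Fintype F] [DecidableEq F], q₀ ≤ Fintype.card F →
    ∀ (Z : Finset (Pt F)), Reg Z (1 / 4) K → Hit Z ε 2 L → Blk Z ε c L →
    ∀ S : Finset (Pt F), Disjoint S Z → S.card ≤ Fintype.card F →
      (∀ l ∈ miss Z, ∃ x ∈ S, On x l) →
      ((miss S).card : ℝ) ≤ γ * (Fintype.card F : ℝ) ^ 2 →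
      (∃ l : Ln F, ∀ x, On x l → x ∈ S ∪ Z) ∨ (∃ i : Option F, ∀ v : F, (i, v) ∈ S ∪ Z)

/-- the stability theorem -/
def StabStmt : Prop :=
  ∀ K c L : ℝ, 1 ≤ K → 0 < c → 1 ≤ L → ∃ η ε C : ℝ, 0 < η ∧ 0 < ε ∧ 0 < C ∧ ∃ q₀ : ℕ,
    ∀ (F : Type) [Field F] [Fintype F] [DecidableEq F], q₀ ≤ Fintype.card F →
    ∀ Z : Finset (Pt F), Reg Z η K → Hit Z ε C L → Blk Z ε c L → Stab Z

/-- the importance-weighted sequential choice of the shifts -/
def ProcStmt : Prop :=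
  ∀ K C₁ C₃ : ℕ, ∃ θ Kω : ℝ, 0 < θ ∧ 1 ≤ Kω ∧ ∀ η : ℝ, 0 < η → ∃ q₀ : ℕ,
    ∀ (F : Type) [Field F] [Fintype F] [DecidableEq F], q₀ ≤ Fintype.card F →
    ∀ (N : ℕ) (own : Option ℕ → Finset (Option F)) (conf : ℕ → Option ℕ → Finset (Pt F))
      (Forb : ℕ → (ℕ → Ln F) → Finset (Pt F)) (P : (ℕ → Ln F) → Prop),
      N ≤ 2 * Fintype.card F → own none = ∅ → (∀ c, (own c).card ≤ K) →
      (∀ i, ((range N).filter (fun s => i ∈ own (some s))).card ≤ C₁) →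
      (∀ s c, (conf s c).card ≤ K) →
      (∀ s c, ∀ x ∈ conf s c, x.1 ∈ own (some s) ∨ x.1 ∈ own c) →
      (∀ t p, (Forb t p).card ≤ C₃) →
      Testable θ N (1 / 2) P →
      ∃ p : ℕ → Ln F, P p ∧
        (∀ s t, s < t → t < N → ∀ x ∈ conf s (some t), ¬ On x (p t - p s)) ∧
        (∀ t < N, ∀ x ∈ Forb t (trunc t p), ¬ On x (p t)) ∧
        Reg (Zof N (fun s => conf s none) p) η Kω

def HitStmt : Prop :=
  ∀ K C₁ : ℕ, ∃ L : ℝ, 1 ≤ L ∧ ∀ θ ε C δ : ℝ, 0 < θ → 0 < ε → 0 < C → 0 < δ → ∃ q₀ : ℕ,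
    ∀ (F : Type) [Field F] [Fintype F] [DecidableEq F], q₀ ≤ Fintype.card F →
    ∀ (N : ℕ) (zr : ℕ → Finset (Pt F)), N ≤ 2 * Fintype.card F → (∀ s, (zr s).card ≤ K) →
      (∀ i, ((range N).filter (fun s => ∃ x ∈ zr s, x.1 = i)).card ≤ C₁) →
      Testable θ N δ (fun p => Hit (Zof N zr p) ε C L)

def BlkStmt : Prop :=
  ∀ K C₁ : ℕ, ∃ c L : ℝ, 0 < c ∧ 1 ≤ L ∧ ∀ θ ε δ : ℝ, 0 < θ → 0 < ε → 0 < δ → ∃ q₀ : ℕ,
    ∀ (F : Type) [Field F] [Fintype F] [DecidableEq F], q₀ ≤ Fintype.card F →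
    ∀ (N : ℕ) (zr : ℕ → Finset (Pt F)), N ≤ 2 * Fintype.card F → (∀ s, (zr s).card ≤ K) →
      (∀ i, ((range N).filter (fun s => ∃ x ∈ zr s, x.1 = i)).card ≤ C₁) →
      Testable θ N δ (fun p => Blk (Zof N zr p) ε c L)

def Z4Stmt : Prop :=
  ∀ (K : ℕ) (θ δ : ℝ), 0 < θ → 0 < δ → ∃ q₀ : ℕ,
    ∀ (F : Type) [Field F] [Fintype F] [DecidableEq F], q₀ ≤ Fintype.card F →
    ∀ (N : ℕ) (fl : ℕ → Finset (Pt F × Ln F)), N ≤ 2 * Fintype.card F →
      (∀ s, (fl s).card ≤ K) → (∀ s, ∀ f ∈ fl s, On f.1 f.2) →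
      Testable θ N δ (fun p => ∀ (l : Ln F) (y : Pt F), ¬ On y l →
        (∀ s < N, (hits (fl s) (p s) l y).card ≤ 2) →
        ∑ s ∈ range N, (hits (fl s) (p s) l y).card ≤ 4)

/-- the gadget exists over every finite field of large characteristic -/
def DesignStmt : Prop :=
  ∃ (G : Gad) (C₁ p₀ : ℕ), ∀ (F : Type) [Field F] [Fintype F] [DecidableEq F],
    p₀ ≤ ringChar F → Nonempty (Design G F (Option F) C₁)

/-- placing the gadgets -/
def ConfigStmt : Prop :=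
  ∀ (G : Gad) (C₁ : ℕ), ∃ q₀ : ℕ, ∀ (F : Type) [Field F] [Fintype F] [DecidableEq F],
    q₀ ≤ Fintype.card F → Nonempty (Design G F (Option F) C₁) → Nonempty (Config G F (Option F))

/-- an intersecting family of words with covering number `q + 1` -/
def Words (F : Type) [Fintype F] [DecidableEq F] : Prop :=
  ∃ E : Finset (Option F → Option F), (∀ e ∈ E, ∀ f ∈ E, ∃ i, e i = f i) ∧
    ∀ S : Finset (Option F × Option F), (∀ e ∈ E, ∃ i, (i, e i) ∈ S) → Fintype.card F + 1 ≤ S.card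

/-- the cover analysis -/
def WordsStmt : Prop :=
  ∀ (G : Gad) (F : Type) [Field F] [Fintype F] [DecidableEq F] (Cl : Type) [Fintype Cl],
    Nonempty (Config G F Cl) → Words F

end Crest.Agent.R34
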