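import Crest.Agent.R34.Defs

/-! Transport of a word family to the hypergraph format of the statements. -/

set_option autoImplicit false
open Finset

namespace Crest.Agent.R34

theorem transport (F : Type) [Fintype F] [DecidableEq F] (q : ℕ) (hq : Fintype.card F = q)
    (h : Words F) :
    ∃ (N : ℕ) (part : Fin N → Fin (q + 1)) (E : Finset (Finset (Fin N))),
      E.Nonempty ∧
      (∀ e ∈ E, ∀ i : Fin (q + 1), (e.filter (fun v => part v = i)).card = 1) ∧
      (∀ e ∈ E, ∀ f ∈ E, (e ∩ f).Nonempty) ∧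
      (∀ i : Fin (q + 1), (Finset.univ.filter (fun v => part v = i)).card = q + 1) ∧
      (∀ v : Fin N, ∃ e ∈ E, v ∈ e) ∧
      (∀ S : Finset (Fin N), (∀ e ∈ E, (e ∩ S).Nonempty) → q + 1 ≤ S.card) := by
  obtain ⟨E, hI, hC⟩ := h
  rw [hq] at hC
  have hO : Fintype.card (Option F) = q + 1 := by rw [Fintype.card_option, hq]
  let φ : Option F × Option F ≃ Fin (Fintype.card (Option F × Option F)) := Fintype.equivFin _
  let ψ : Option F ≃ Fin (q + 1) := Fintype.equivFinOfCardEq hO
  let ed : (Option F → Option F) → Finset (Fin (Fintype.card (Option F × Option F))) :=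
    fun e => univ.image (fun i => φ (i, e i))
  have mem_ed : ∀ e v, v ∈ ed e ↔ e (φ.symm v).1 = (φ.symm v).2 := by
    intro e v
    simp only [ed, mem_image, mem_univ, true_and]
    constructor
    · rintro ⟨i, rfl⟩; simp
    · intro h
      exact ⟨(φ.symm v).1, by rw [h]; simp⟩
  have hcov : ∀ S : Finset (Fin (Fintype.card (Option F × Option F))),
      (∀ e ∈ E.image ed, (e ∩ S).Nonempty) → q + 1 ≤ S.card := by
    intro S hS
    refine (hC (S.image φ.symm) (fun e he => ?_)).trans card_image_le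
    obtain ⟨v, hv⟩ := hS _ (mem_image_of_mem ed he)
    rw [mem_inter, mem_ed] at hv
    exact ⟨(φ.symm v).1, mem_image.2 ⟨v, hv.2, by rw [hv.1]⟩⟩
  have hpart : ∀ i : Fin (q + 1),
      (univ.filter (fun v => ψ (φ.symm v).1 = i)).card = q + 1 := by
    intro i
    refine Eq.trans ?_ hO
    rw [← card_univ (α := Option F)]
    symm
    refine card_bij (fun b _ => φ (ψ.symm i, b)) (by simp) (by simp) ?_
    intro v hv
    simp only [mem_filter, mem_univ, true_and] at hv
    exact ⟨(φ.symm v).2, mem_univ _, by rw [← hv]; simp⟩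
  refine ⟨_, fun v => ψ (φ.symm v).1, E.image ed, ?_, ?_, ?_, hpart, ?_, hcov⟩
  · by_contra hne
    rw [not_nonempty_iff_eq_empty] at hne
    have := hcov ∅ (by simp [hne])
    simp at this
  · intro e he i
    obtain ⟨w, _, rfl⟩ := mem_image.1 he
    rw [card_eq_one]
    refine ⟨φ (ψ.symm i, w (ψ.symm i)), ?_⟩
    ext v
    simp only [mem_filter, mem_ed, mem_singleton]
    constructor
    · rintro ⟨h1, rfl⟩
      simp [h1]
    · rintro rfl; simp
  · intro e he f hf
    obtain ⟨w, hw, rfl⟩ := mem_image.1 he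
    obtain ⟨w', hw', rfl⟩ := mem_image.1 hf
    obtain ⟨i, hi⟩ := hI w hw w' hw'
    exact ⟨φ (i, w i), by simp [mem_ed, hi]⟩
  · intro v
    by_contra hv
    push Not at hv
    have h1 := hcov ((univ.filter (fun v' => ψ (φ.symm v').1 = ψ (φ.symm v).1)).erase v) (by
      intro e he
      obtain ⟨w, hw, rfl⟩ := mem_image.1 he
      have h2 : φ ((φ.symm v).1, w (φ.symm v).1) ∈ ed w := by simp [mem_ed]
      refine ⟨_, mem_inter.2 ⟨h2, mem_erase.2 ⟨fun e => hv _ he (e ▸ h2), by simp⟩⟩⟩)
    rw [card_erase_of_mem (by simp), hpart] at h1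
    omega

theorem words_of (hD : DesignStmt) (hC : ConfigStmt) (hW : WordsStmt) :
    ∃ p₀ : ℕ, ∀ (F : Type) [Field F] [Fintype F] [DecidableEq F], p₀ ≤ ringChar F → Words F := by
  obtain ⟨G, C₁, p₀, hD⟩ := hD
  obtain ⟨q₀, hC⟩ := hC G C₁
  refine ⟨max p₀ q₀, fun F _ _ _ hp => hW G F (Option F) (hC F ?_ (hD F (le_of_max_le_left hp)))⟩
  obtain ⟨n, hprime, hn⟩ := FiniteField.card F (ringChar F)
  rw [hn]
  exact (le_of_max_le_right hp).trans (Nat.le_self_pow n.ne_zero _)

end Crest.Agent.R34
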