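import Crest.Agent.R34.Test

/-! One step of the importance-weighted process. -/

set_option autoImplicit false
set_option linter.unusedSectionVars false
open Finset

namespace Crest.Agent.R34

theorem exp_neg_two_le {κ : ℝ} (h0 : 0 ≤ κ) (h : κ ≤ 1 / 2) : Real.exp (-(2 * κ)) ≤ 1 - κ := by
  rw [Real.exp_neg, inv_le_iff_one_le_mul₀ (Real.exp_pos _)]
  nlinarith [Real.add_one_le_exp (2 * κ)]

/-- exponential moment of a bounded centred variable, off a common event -/
theorem exp_moment {W : Type*} [Fintype W] (μ : W → ℝ) (hμ : ∀ w, 0 ≤ μ w) (h1 : ∑ w, μ w = 1)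
    (Cm : W → Prop) [DecidablePred Cm] (Y : W → ℝ) (B lam : ℝ) (hB : |lam| * B ≤ 1)
    (hY : ∀ w, ¬ Cm w → |Y w| ≤ B) (h0 : ∑ w, (if Cm w then 0 else μ w * Y w) = 0) :
    ∑ w, (if Cm w then 0 else μ w * Real.exp (lam * Y w)) ≤ Real.exp (lam ^ 2 * B ^ 2) := by
  calc ∑ w, (if Cm w then 0 else μ w * Real.exp (lam * Y w))
      ≤ ∑ w, (μ w * (1 + lam ^ 2 * B ^ 2) + lam * (if Cm w then 0 else μ w * Y w)) := by
        refine sum_le_sum (fun w _ => ?_)
        split_ifs with h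
        · have := hμ w
          simp only [mul_zero, add_zero]
          positivity
        · have h2 := hY w h
          have h3 : |lam * Y w| ≤ 1 := by
            rw [abs_mul]
            exact (mul_le_mul_of_nonneg_left h2 (abs_nonneg _)).trans hB
          have h4 := (abs_le.1 (Real.abs_exp_sub_one_sub_id_le h3)).2
          have h5 : (lam * Y w) ^ 2 ≤ lam ^ 2 * B ^ 2 := by
            rw [mul_pow]
            refine mul_le_mul_of_nonneg_left ?_ (sq_nonneg _)
            rw [← sq_abs]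
            exact pow_le_pow_left₀ (abs_nonneg _) h2 2
          have h6 : Real.exp (lam * Y w) ≤ 1 + lam ^ 2 * B ^ 2 + lam * Y w := by linarith
          have := mul_le_mul_of_nonneg_left h6 (hμ w)
          linarith
    _ = 1 + lam ^ 2 * B ^ 2 := by
        rw [sum_add_distrib, ← sum_mul, ← mul_sum, h0, h1]; ring
    _ ≤ _ := by linarith [Real.add_one_le_exp (lam ^ 2 * B ^ 2)]

theorem sum_ite_exists_le {W α : Type*} [Fintype W] (μ : W → ℝ) (hμ : ∀ w, 0 ≤ μ w)
    (s : Finset α) (R : α → W → Prop) [∀ y w, Decidable (R y w)] (Q : W → Prop) [DecidablePred Q]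
    (hQ : ∀ w, Q w → ∃ y ∈ s, R y w) :
    ∑ w, (if Q w then μ w else 0) ≤ ∑ y ∈ s, ∑ w ∈ univ.filter (fun w => R y w), μ w := by
  simp only [sum_filter]
  rw [sum_comm]
  refine sum_le_sum (fun w _ => ?_)
  split_ifs with h
  · obtain ⟨y, hy, hR⟩ := hQ w h
    refine le_trans ?_ (single_le_sum (f := fun y => if R y w then μ w else 0)
      (fun y _ => by split_ifs; exacts [hμ w, le_rfl]) hy)
    simp [hR]
  · exact sum_nonneg (fun y _ => by split_ifs; exacts [hμ w, le_rfl])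

section
variable {F : Type} [Field F] [Fintype F] [DecidableEq F]

/-- mass of the line of parameters `{w | On x w}` -/
def lsum (f : Ln F → ℝ) (x : Pt F) : ℝ := ∑ w ∈ univ.filter (fun w => On x w), f w

/-- the choice `w` kills `w'` -/
def kill (cf : Finset (Pt F)) (w w' : Ln F) : Prop := ∃ y ∈ cf, On y (w' - w)

/-- the choice `w` kills the whole line `x` -/
def com (cf : Finset (Pt F)) (w : Ln F) (x : Pt F) : Prop := ∃ y ∈ cf, shift w y = x

instance (cf : Finset (Pt F)) (w w' : Ln F) : Decidable (kill cf w w') := by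
  unfold kill; infer_instance

instance (cf : Finset (Pt F)) (w : Ln F) (x : Pt F) : Decidable (com cf w x) := by
  unfold com; infer_instance

theorem kill_of_com {cf : Finset (Pt F)} {w w' : Ln F} {x : Pt F} (h : com cf w x) (hx : On x w') :
    kill cf w w' := by
  obtain ⟨y, hy, rfl⟩ := h
  exact ⟨y, hy, (on_shift' w y w').1 hx⟩

noncomputable def kap (μ : Ln F → ℝ) (cf : Finset (Pt F)) (w' : Ln F) : ℝ :=
  ∑ w, if kill cf w w' then μ w else 0

noncomputable def kapc (μ : Ln F → ℝ) (cf : Finset (Pt F)) (x : Pt F) : ℝ :=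
  ∑ w, if com cf w x then μ w else 0

/-- new weights -/
noncomputable def newW (μ : Ln F → ℝ) (cf : Finset (Pt F)) (w : Ln F) (ω : Ln F → ℝ) :
    Ln F → ℝ := fun w' => if kill cf w w' then 0 else ω w' / (1 - kap μ cf w')

theorem kap_nonneg {μ : Ln F → ℝ} (hμ : ∀ w, 0 ≤ μ w) (cf : Finset (Pt F)) (w' : Ln F) :
    0 ≤ kap μ cf w' := sum_nonneg (fun w _ => by split_ifs; exacts [hμ w, le_rfl])

theorem kapc_nonneg {μ : Ln F → ℝ} (hμ : ∀ w, 0 ≤ μ w) (cf : Finset (Pt F)) (x : Pt F) :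
    0 ≤ kapc μ cf x := sum_nonneg (fun w _ => by split_ifs; exacts [hμ w, le_rfl])

theorem kap_le {μ : Ln F → ℝ} (hμ : ∀ w, 0 ≤ μ w) (cf : Finset (Pt F)) (w' : Ln F) {b : ℝ}
    (hb : ∀ x, lsum μ x ≤ b) : kap μ cf w' ≤ cf.card * b := by
  refine (sum_ite_exists_le μ hμ cf (fun y w => On (y.1, u y.1 w' - y.2) w) _ ?_).trans ?_
  · rintro w ⟨y, hy, h⟩
    refine ⟨y, hy, ?_⟩
    simp only [On, u_sub] at h ⊢
    linear_combination -h
  · rw [← nsmul_eq_mul, ← sum_const]
    exact sum_le_sum (fun y _ => hb _)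

theorem kapc_le {μ : Ln F → ℝ} (hμ : ∀ w, 0 ≤ μ w) (cf : Finset (Pt F)) (x : Pt F) {b : ℝ}
    (hb : ∀ v, lsum μ (x.1, v) ≤ b) : kapc μ cf x ≤ cf.card * b := by
  refine (sum_ite_exists_le μ hμ cf (fun y w => On (x.1, x.2 - y.2) w) _ ?_).trans ?_
  · rintro w ⟨y, hy, rfl⟩
    exact ⟨y, hy, by simp [On, shift]⟩
  · rw [← nsmul_eq_mul, ← sum_const]
    exact sum_le_sum (fun y _ => hb _)

theorem kapc_eq_zero {μ : Ln F → ℝ} (cf : Finset (Pt F)) (x : Pt F) (h : ∀ y ∈ cf, y.1 ≠ x.1) :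
    kapc μ cf x = 0 := by
  refine sum_eq_zero (fun w _ => if_neg ?_)
  rintro ⟨y, hy, rfl⟩
  exact h y hy rfl

theorem card_killed_le {cf : Finset (Pt F)} {w : Ln F} {x : Pt F} (h : ¬ com cf w x) :
    ((univ.filter (fun w' => On x w')).filter (fun w' => kill cf w w')).card ≤ cf.card := by
  have h1 : (univ.filter (fun w' => On x w')).filter (fun w' => kill cf w w') ⊆
      cf.biUnion (fun y => univ.filter (fun w' => On (shift w y) w' ∧ On x w')) := by
    intro w' hw'
    simp only [mem_filter, mem_univ, true_and, mem_biUnion] at hw' ⊢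
    obtain ⟨h2, y, hy, h3⟩ := hw'
    exact ⟨y, hy, (on_shift' w y w').2 h3, h2⟩
  refine (card_le_card h1).trans (card_biUnion_le.trans ?_)
  rw [card_eq_sum_ones cf]
  exact sum_le_sum (fun y hy => card_lines_two (fun e => h ⟨y, hy, e⟩) _)

/-- the tracked quantity is a martingale off the common event -/
theorem step_mean {μ : Ln F → ℝ} (h1 : ∑ w, μ w = 1) (cf : Finset (Pt F)) (ω : Ln F → ℝ)
    (x : Pt F) (hκ : ∀ w', kap μ cf w' < 1) (g : ℝ) :
    ∑ w, (if com cf w x then 0 else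
      μ w * (g * (1 - kapc μ cf x) * lsum (newW μ cf w ω) x - g * lsum ω x)) = 0 := by
  have hA : ∑ w, (if com cf w x then 0 else μ w) = 1 - kapc μ cf x := by
    rw [← h1, kapc, ← sum_sub_distrib]
    exact sum_congr rfl (fun w _ => by split_ifs <;> simp)
  have hB : ∑ w, (if com cf w x then 0 else μ w * lsum (newW μ cf w ω) x) = lsum ω x := by
    have : ∀ w, (if com cf w x then 0 else μ w * lsum (newW μ cf w ω) x) =
        ∑ w' ∈ univ.filter (fun w' => On x w'), μ w * newW μ cf w ω w' := by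
      intro w
      split_ifs with h
      · symm
        refine sum_eq_zero (fun w' hw' => ?_)
        simp [newW, kill_of_com h (mem_filter.1 hw').2]
      · rw [lsum, mul_sum]
    simp only [this]
    rw [sum_comm, lsum]
    refine sum_congr rfl (fun w' _ => ?_)
    have h2 : ∑ w, (if kill cf w w' then 0 else μ w) = 1 - kap μ cf w' := by
      rw [← h1, kap, ← sum_sub_distrib]
      exact sum_congr rfl (fun w _ => by split_ifs <;> simp)
    have h3 : 1 - kap μ cf w' ≠ 0 := by linarith [hκ w']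
    calc ∑ w, μ w * newW μ cf w ω w'
        = (∑ w, (if kill cf w w' then 0 else μ w)) * (ω w' / (1 - kap μ cf w')) := by
          rw [sum_mul]
          exact sum_congr rfl (fun w _ => by simp only [newW]; split_ifs <;> simp)
      _ = ω w' := by rw [h2]; field_simp
  calc _ = ∑ w, (g * (1 - kapc μ cf x) * (if com cf w x then 0 else μ w * lsum (newW μ cf w ω) x)
        - g * lsum ω x * (if com cf w x then 0 else μ w)) :=
        sum_congr rfl (fun w _ => by split_ifs <;> ring)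
    _ = 0 := by rw [sum_sub_distrib, ← mul_sum, ← mul_sum, hA, hB]; ring

/-- bounded increments off the common event -/
theorem step_bound {μ : Ln F → ℝ} (hμ : ∀ w, 0 ≤ μ w) (cf : Finset (Pt F)) (ω : Ln F → ℝ)
    (x : Pt F) {κ₀ K₃ g A : ℝ} (hκ₀ : κ₀ ≤ 1 / 2) (hκ : ∀ w', kap μ cf w' ≤ κ₀)
    (hκc : kapc μ cf x ≤ κ₀) (hω0 : ∀ w', 0 ≤ ω w') (hω : ∀ w', ω w' ≤ K₃) (hg0 : 0 ≤ g)
    (hg1 : g ≤ 1) (hA : g * lsum ω x ≤ A) (w : Ln F) (h : ¬ com cf w x) :
    |g * (1 - kapc μ cf x) * lsum (newW μ cf w ω) x - g * lsum ω x| ≤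
      2 * κ₀ * A + cf.card * K₃ := by
  have hκ00 : 0 ≤ κ₀ := (kapc_nonneg hμ cf x).trans hκc
  have hc0 := kapc_nonneg hμ cf x
  have hL0 : 0 ≤ lsum ω x := sum_nonneg (fun w' _ => hω0 w')
  have hK₃ : 0 ≤ K₃ := (hω0 0).trans (hω 0)
  have hup : lsum (newW μ cf w ω) x ≤ (1 + 2 * κ₀) * lsum ω x := by
    rw [lsum, lsum, mul_sum]
    refine sum_le_sum (fun w' _ => ?_)
    simp only [newW]
    have := hω0 w'
    split_ifs
    · positivity
    · rw [div_le_iff₀ (by linarith [hκ w'])]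
      have h2 : 1 ≤ (1 + 2 * κ₀) * (1 - kap μ cf w') := by
        nlinarith [hκ w', kap_nonneg hμ cf w']
      nlinarith
  have hlo : lsum ω x - cf.card * K₃ ≤ lsum (newW μ cf w ω) x := by
    have h2 : lsum ω x ≤ lsum (newW μ cf w ω) x +
        ∑ w' ∈ (univ.filter (fun w' => On x w')).filter (fun w' => kill cf w w'), K₃ := by
      rw [lsum, lsum, sum_filter (p := fun w' => kill cf w w'), ← sum_add_distrib]
      refine sum_le_sum (fun w' _ => ?_)
      simp only [newW]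
      split_ifs
      · simpa using hω w'
      · rw [add_zero, le_div_iff₀ (by linarith [hκ w'])]
        nlinarith [hω0 w', kap_nonneg hμ cf w']
    rw [sum_const, nsmul_eq_mul] at h2
    have h3 : (((univ.filter (fun w' => On x w')).filter (fun w' => kill cf w w')).card : ℝ) ≤
        cf.card := by exact_mod_cast card_killed_le h
    nlinarith
  have hN0 : 0 ≤ lsum (newW μ cf w ω) x := by
    refine sum_nonneg (fun w' _ => ?_)
    simp only [newW]
    split_ifs
    · exact le_rfl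
    · exact div_nonneg (hω0 w') (by linarith [hκ w'])
  have hcK : 0 ≤ (cf.card : ℝ) * K₃ := by positivity
  have hgL : 0 ≤ g * lsum ω x := by positivity
  set L := lsum ω x
  set L' := lsum (newW μ cf w ω) x
  set k := kapc μ cf x
  rw [abs_le]
  constructor
  · have e1 : g * (1 - k) * (L - cf.card * K₃) ≤ g * (1 - k) * L' :=
      mul_le_mul_of_nonneg_left hlo (mul_nonneg hg0 (by linarith))
    have e2 : g * (1 - k) * (cf.card * K₃) ≤ cf.card * K₃ :=
      mul_le_of_le_one_left hcK (mul_le_one₀ hg1 (by linarith) (by linarith))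
    have e3 : k * (g * L) ≤ κ₀ * A := mul_le_mul hκc hA hgL hκ00
    have e4 : 0 ≤ κ₀ * A := mul_nonneg hκ00 (hgL.trans hA)
    nlinarith
  · have e1 : g * (1 - k) * L' ≤ g * L' :=
      mul_le_mul_of_nonneg_right (mul_le_of_le_one_right hg0 (by linarith)) hN0
    have e2 : g * L' ≤ g * ((1 + 2 * κ₀) * L) := mul_le_mul_of_nonneg_left hup hg0
    have e3 : κ₀ * (g * L) ≤ κ₀ * A := mul_le_mul_of_nonneg_left hA hκ00
    nlinarith

/-- the two-sided potential of one tracked line is a supermartingale -/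
theorem step_pot {μ : Ln F → ℝ} (hμ : ∀ w, 0 ≤ μ w) (h1 : ∑ w, μ w = 1) (cf : Finset (Pt F))
    (ω : Ln F → ℝ) (x : Pt F) {κ₀ K₃ g A B lam a q : ℝ} (hκ₀ : κ₀ ≤ 1 / 2)
    (hκ : ∀ w', kap μ cf w' ≤ κ₀)
    (hκc : kapc μ cf x ≤ κ₀) (hω0 : ∀ w', 0 ≤ ω w') (hω : ∀ w', ω w' ≤ K₃) (hg0 : 0 ≤ g)
    (hg1 : g ≤ 1) (hA : g * lsum ω x ≤ A) (hB : 2 * κ₀ * A + cf.card * K₃ ≤ B)
    (hlam : |lam| * B ≤ 1) :
    ∑ w, μ w * (if com cf w x then 0 else
      Real.exp (lam * (g * (1 - kapc μ cf x) * lsum (newW μ cf w ω) x - q) -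
        (a + lam ^ 2 * B ^ 2))) ≤ Real.exp (lam * (g * lsum ω x - q) - a) := by
  have h := exp_moment μ hμ h1 (fun w => com cf w x)
    (fun w => g * (1 - kapc μ cf x) * lsum (newW μ cf w ω) x - g * lsum ω x) B lam hlam
    (fun w hw => (step_bound hμ cf ω x hκ₀ hκ hκc hω0 hω hg0 hg1 hA w hw).trans hB)
    (step_mean h1 cf ω x (fun w' => by linarith [hκ w']) g)
  calc _ = Real.exp (lam * (g * lsum ω x - q) - a - lam ^ 2 * B ^ 2) *
        ∑ w, (if com cf w x then 0 else μ w * Real.exp (lam *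
          (g * (1 - kapc μ cf x) * lsum (newW μ cf w ω) x - g * lsum ω x))) := by
        rw [mul_sum]
        refine sum_congr rfl (fun w _ => ?_)
        split_ifs
        · simp
        · rw [mul_left_comm, ← Real.exp_add]
          congr 2
          ring
    _ ≤ Real.exp (lam * (g * lsum ω x - q) - a - lam ^ 2 * B ^ 2) * Real.exp (lam ^ 2 * B ^ 2) :=
        mul_le_mul_of_nonneg_left h (Real.exp_pos _).le
    _ = _ := by rw [← Real.exp_add]; congr 1; ring

theorem sum_eq_sum_lsum (f : Ln F → ℝ) (i : Option F) : ∑ w, f w = ∑ v : F, lsum f (i, v) := by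
  simp only [lsum]
  exact (sum_fiberwise univ (fun w => u i w) f).symm

/-- total weight from line sums along one direction -/
theorem total_ge (ω : Ln F → ℝ) (hω0 : ∀ w, 0 ≤ ω w) (i : Option F) (Bad : Finset F) {b : ℝ}
    (h : ∀ v, v ∉ Bad → b ≤ lsum ω (i, v)) :
    ((Fintype.card F : ℝ) - Bad.card) * b ≤ ∑ w, ω w := by
  rw [sum_eq_sum_lsum ω i]
  calc ((Fintype.card F : ℝ) - Bad.card) * b = ∑ _v ∈ univ \ Bad, b := by
        rw [sum_const, nsmul_eq_mul, card_univ_sdiff, Nat.cast_sub (card_le_univ _)]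
    _ ≤ ∑ v ∈ univ \ Bad, lsum ω (i, v) := sum_le_sum (fun v hv => h v (mem_sdiff.1 hv).2)
    _ ≤ _ := sum_le_sum_of_subset_of_nonneg (subset_univ _)
        (fun v _ _ => sum_nonneg (fun w _ => hω0 w))

/-- the law of the next choice -/
noncomputable def law (ω : Ln F → ℝ) (Fb : Finset (Pt F)) : Ln F → ℝ := fun w =>
  (if ∃ y ∈ Fb, On y w then 0 else ω w) / ∑ w', (if ∃ y ∈ Fb, On y w' then 0 else ω w')

theorem law_facts (ω : Ln F → ℝ) (Fb : Finset (Pt F)) (hω0 : ∀ w, 0 ≤ ω w) {T b : ℝ} (hT : 0 < T)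
    (hb : ∀ x, lsum ω x ≤ b) (htot : T + Fb.card * b ≤ ∑ w, ω w) :
    (∀ w, 0 ≤ law ω Fb w) ∧ ∑ w, law ω Fb w = 1 ∧ (∀ w, law ω Fb w ≤ ω w / T) ∧
      (∀ w, law ω Fb w ≠ 0 → ω w ≠ 0 ∧ ∀ y ∈ Fb, ¬ On y w) := by
  have h1 : T ≤ ∑ w', (if ∃ y ∈ Fb, On y w' then 0 else ω w') := by
    have h2 := sum_ite_exists_le ω hω0 Fb (fun y w => On y w) (fun w => ∃ y ∈ Fb, On y w)
      (fun w h => h)
    have h3 : ∑ y ∈ Fb, ∑ w ∈ univ.filter (fun w => On y w), ω w ≤ Fb.card * b := by
      rw [← nsmul_eq_mul, ← sum_const]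
      exact sum_le_sum (fun y _ => hb y)
    have h4 : ∑ w', (if ∃ y ∈ Fb, On y w' then 0 else ω w') =
        ∑ w, ω w - ∑ w, (if ∃ y ∈ Fb, On y w then ω w else 0) := by
      rw [← sum_sub_distrib]
      exact sum_congr rfl (fun w _ => by split_ifs <;> simp)
    linarith
  have h5 : ∀ w, 0 ≤ (if ∃ y ∈ Fb, On y w then 0 else ω w) := fun w => by
    split_ifs; exacts [le_rfl, hω0 w]
  refine ⟨fun w => div_nonneg (h5 w) (by linarith), ?_, fun w => ?_, fun w hw => ?_⟩
  · simp only [law]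
    rw [← sum_div, div_self (by linarith)]
  · refine div_le_div₀ (hω0 w) ?_ hT h1
    split_ifs; exacts [hω0 w, le_rfl]
  · simp only [law] at hw
    split_ifs at hw with h
    · simp at hw
    · push Not at h
      exact ⟨fun e => hw (by simp [e]), h⟩

end

end Crest.Agent.R34
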