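import Crest.Agent.R34.Plane

/-! Closure properties of `Testable` and the basic multiplier test. -/

set_option autoImplicit false
set_option linter.unusedSectionVars false
open Finset

namespace Crest.Agent.R34

variable {F : Type} [Field F] [Fintype F] [DecidableEq F]

theorem Testable.mono {θ : ℝ} {N : ℕ} {δ δ' : ℝ} {P P' : (ℕ → Ln F) → Prop}
    (h : Testable θ N δ P) (hδ : δ ≤ δ') (hP : ∀ p, P p → P' p) : Testable θ N δ' P' := by
  obtain ⟨Ψ, h0, h1, h2, h3⟩ := h
  exact ⟨Ψ, h0, fun p => (h1 p).trans hδ, h2, fun p hp => hP p (h3 p hp)⟩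

/-- a property that always holds costs nothing -/
theorem testable_of_forall {θ : ℝ} {N : ℕ} {δ : ℝ} {P : (ℕ → Ln F) → Prop} (hδ : 0 ≤ δ)
    (hP : ∀ p, P p) : Testable θ N δ P :=
  ⟨fun _ _ => 0, fun _ _ => le_rfl, fun _ => hδ, fun _ _ _ _ _ _ _ => by simp, fun p _ => hP p⟩

/-- union bound -/
theorem testable_forall {ι : Type*} (I : Finset ι) {θ : ℝ} {N : ℕ} {δ : ι → ℝ}
    {P : ι → (ℕ → Ln F) → Prop} (h : ∀ i ∈ I, Testable θ N (δ i) (P i)) :
    Testable θ N (∑ i ∈ I, δ i) (fun p => ∀ i ∈ I, P i p) := by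
  classical
  choose! Ψ h0 h1 h2 h3 using h
  refine ⟨fun t p => ∑ i ∈ I, Ψ i t p, fun t p => sum_nonneg (fun i hi => h0 i hi t p),
    fun p => sum_le_sum (fun i hi => h1 i hi p), ?_, ?_⟩
  · intro t ht p ν hν0 hν1 hν2
    simp only [mul_sum]
    rw [sum_comm]
    exact sum_le_sum (fun i hi => h2 i hi t ht p ν hν0 hν1 hν2)
  · intro p hp i hi
    exact h3 i hi p (lt_of_le_of_lt (single_le_sum (f := fun i => Ψ i N p)
      (fun j hj => h0 j hj N p) hi) hp)

theorem Testable.and {θ : ℝ} {N : ℕ} {δ δ' : ℝ} {P P' : (ℕ → Ln F) → Prop}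
    (h : Testable θ N δ P) (h' : Testable θ N δ' P') :
    Testable θ N (δ + δ') (fun p => P p ∧ P' p) := by
  obtain ⟨Ψ, h0, h1, h2, h3⟩ := h
  obtain ⟨Ψ', h0', h1', h2', h3'⟩ := h'
  refine ⟨fun t p => Ψ t p + Ψ' t p, fun t p => add_nonneg (h0 t p) (h0' t p),
    fun p => add_le_add (h1 p) (h1' p), ?_, ?_⟩
  · intro t ht p ν hν0 hν1 hν2
    simp only [mul_add, sum_add_distrib]
    exact add_le_add (h2 t ht p ν hν0 hν1 hν2) (h2' t ht p ν hν0 hν1 hν2)
  · intro p hp
    exact ⟨h3 p (by linarith [h0' N p]), h3' p (by linarith [h0 N p])⟩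

/-- the basic test: predictable multipliers `m ≥ 1` with pathwise budget `B` -/
theorem testable_mul {θ : ℝ} (hθ : 0 < θ) (N : ℕ) (m : ℕ → (ℕ → Ln F) → Ln F → ℝ)
    (hm : ∀ t p w, 1 ≤ m t p w) (B M : ℝ) (hM : 0 < M)
    (hB : ∀ p, ∑ t ∈ range N, ∑ w, (m t (trunc t p) w - 1) ≤ B * (Fintype.card F : ℝ) ^ 2) :
    Testable θ N (Real.exp (B / θ) / M)
      (fun p => ∏ t ∈ range N, m t (trunc t p) (p t) < M) := by
  have hq : (0 : ℝ) < Fintype.card F := card_pos_real
  set Q : ℝ := θ * (Fintype.card F : ℝ) ^ 2 with hQ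
  have hQ0 : 0 < Q := by positivity
  set b : ℕ → (ℕ → Ln F) → ℝ := fun t p => (∑ w, (m t (trunc t p) w - 1)) / Q with hb
  refine ⟨fun t p => Real.exp (B / θ) / M *
    ∏ s ∈ range t, (m s (trunc s p) (p s) * Real.exp (-b s p)), ?_, ?_, ?_, ?_⟩
  · intro t p
    refine mul_nonneg (by positivity) (prod_nonneg (fun s _ => ?_))
    exact mul_nonneg (by linarith [hm s (trunc s p) (p s)]) (Real.exp_pos _).le
  · intro p; simp
  · intro t _ p ν hν0 hν1 hν2
    have hA : 0 ≤ Real.exp (B / θ) / M *
        ∏ s ∈ range t, (m s (trunc s p) (p s) * Real.exp (-b s p)) := by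
      refine mul_nonneg (by positivity) (prod_nonneg (fun s _ => ?_))
      exact mul_nonneg (by linarith [hm s (trunc s p) (p s)]) (Real.exp_pos _).le
    have key : ∀ w, Real.exp (B / θ) / M * ∏ s ∈ range (t + 1),
        (m s (trunc s (Function.update p t w)) (Function.update p t w s) *
          Real.exp (-b s (Function.update p t w))) =
        (Real.exp (B / θ) / M * ∏ s ∈ range t, (m s (trunc s p) (p s) * Real.exp (-b s p))) *
          (m t (trunc t p) w * Real.exp (-b t p)) := by
      intro w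
      rw [prod_range_succ, mul_assoc]
      congr 2
      · refine prod_congr rfl (fun s hs => ?_)
        have hs' := mem_range.1 hs
        simp only [hb]
        rw [trunc_update_of_le hs'.le, Function.update_of_ne hs'.ne]
      · simp only [hb]
        rw [trunc_update_of_le le_rfl, Function.update_self]
    simp only [key]
    have h1 : ∑ w, ν w * m t (trunc t p) w ≤ Real.exp (b t p) := by
      calc ∑ w, ν w * m t (trunc t p) w = 1 + ∑ w, ν w * (m t (trunc t p) w - 1) := by
            simp only [mul_sub, mul_one, sum_sub_distrib, hν1]; ring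
        _ ≤ 1 + b t p := by
            simp only [hb, sum_div]
            refine add_le_add_right (sum_le_sum (fun w _ => ?_)) _
            rw [div_eq_mul_one_div, mul_comm]
            exact mul_le_mul_of_nonneg_left (hν2 w) (by linarith [hm t (trunc t p) w])
        _ ≤ _ := by linarith [Real.add_one_le_exp (b t p)]
    calc ∑ w, ν w * ((Real.exp (B / θ) / M *
            ∏ s ∈ range t, (m s (trunc s p) (p s) * Real.exp (-b s p))) *
          (m t (trunc t p) w * Real.exp (-b t p)))
        = (Real.exp (B / θ) / M * ∏ s ∈ range t, (m s (trunc s p) (p s) * Real.exp (-b s p))) *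
            ((∑ w, ν w * m t (trunc t p) w) * Real.exp (-b t p)) := by
          rw [sum_mul, mul_sum]
          exact sum_congr rfl (fun w _ => by ring)
      _ ≤ _ := by
          refine mul_le_of_le_one_right hA ?_
          calc (∑ w, ν w * m t (trunc t p) w) * Real.exp (-b t p)
              ≤ Real.exp (b t p) * Real.exp (-b t p) :=
                mul_le_mul_of_nonneg_right h1 (Real.exp_pos _).le
            _ = 1 := by rw [← Real.exp_add]; simp
  · intro p hp
    beta_reduce at hp
    rw [prod_mul_distrib, ← Real.exp_sum] at hp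
    have h1 : ∑ s ∈ range N, b s p ≤ B / θ := by
      simp only [hb]
      rw [← sum_div, div_le_div_iff₀ hQ0 hθ]
      calc _ ≤ B * (Fintype.card F : ℝ) ^ 2 * θ := mul_le_mul_of_nonneg_right (hB p) hθ.le
        _ = B * Q := by rw [hQ]; ring
    have h2 : 1 ≤ Real.exp (B / θ) * Real.exp (∑ s ∈ range N, -b s p) := by
      rw [← Real.exp_add, sum_neg_distrib]
      exact Real.one_le_exp (by linarith)
    have h3 : 0 ≤ ∏ t ∈ range N, m t (trunc t p) (p t) :=
      prod_nonneg (fun s _ => by linarith [hm s (trunc s p) (p s)])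
    by_contra hc
    push Not at hc
    have h4 : Real.exp (B / θ) / M * ((∏ t ∈ range N, m t (trunc t p) (p t)) *
        Real.exp (∑ s ∈ range N, -b s p)) =
        (Real.exp (B / θ) * Real.exp (∑ s ∈ range N, -b s p)) *
          ((∏ t ∈ range N, m t (trunc t p) (p t)) / M) := by ring
    rw [h4] at hp
    have h5 : 1 ≤ (∏ t ∈ range N, m t (trunc t p) (p t)) / M := (one_le_div hM).2 hc
    nlinarith

/-- counting form: predictable sets `A t`, fewer than `h` successes -/
theorem testable_count {θ : ℝ} (hθ : 0 < θ) (N : ℕ) (A : ℕ → (ℕ → Ln F) → Finset (Ln F))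
    (lam B : ℝ) (hlam : 1 < lam) (h : ℕ)
    (hB : ∀ p, ∑ t ∈ range N, ((A t (trunc t p)).card : ℝ) ≤ B * (Fintype.card F : ℝ) ^ 2) :
    Testable θ N (Real.exp (lam * B / θ) / lam ^ h)
      (fun p => ((range N).filter (fun t => p t ∈ A t (trunc t p))).card < h) := by
  refine (testable_mul hθ N (fun t p w => if w ∈ A t p then lam else 1)
    (fun t p w => by split_ifs <;> linarith) (lam * B) (lam ^ h) (by positivity) ?_).mono le_rfl ?_
  · intro p
    calc ∑ t ∈ range N, ∑ w, ((if w ∈ A t (trunc t p) then lam else 1) - 1)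
        ≤ ∑ t ∈ range N, lam * ((A t (trunc t p)).card : ℝ) := by
          refine sum_le_sum (fun t _ => ?_)
          calc ∑ w, ((if w ∈ A t (trunc t p) then lam else 1) - 1)
              ≤ ∑ w, (if w ∈ A t (trunc t p) then lam else 0) :=
                sum_le_sum (fun w _ => by split_ifs <;> linarith)
            _ = _ := by rw [sum_ite_mem, univ_inter, sum_const, nsmul_eq_mul, mul_comm]
      _ ≤ _ := by
          rw [← mul_sum, mul_assoc]
          exact mul_le_mul_of_nonneg_left (hB p) (by linarith)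
  · intro p hp
    rw [prod_ite, prod_const_one, mul_one, prod_const] at hp
    exact (pow_lt_pow_iff_right₀ hlam).1 hp

/-- generating function of all subsets -/
theorem sum_pow_card_le {α : Type*} [Fintype α] [DecidableEq α] (x : ℝ) (hx : 0 ≤ x) :
    ∑ X : Finset α, x ^ X.card ≤ Real.exp (x * Fintype.card α) := by
  have h := Finset.prod_one_add (f := fun _ : α => x) univ
  simp only [prod_const, powerset_univ] at h
  rw [← h, card_univ, mul_comm, Real.exp_nat_mul]
  exact pow_le_pow_left₀ (by linarith) (by linarith [Real.add_one_le_exp x]) _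

end Crest.Agent.R34
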