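import Crest.Agent.R34.Plane

/-! Row 34, part G (first half): the words and who covers them. -/

set_option autoImplicit false
set_option linter.unusedSectionVars false
open Finset

namespace Crest.Agent.R34

namespace Wd

theorem exists_partial {α β ι : Type} [Fintype α] [Fintype β] [DecidableEq ι] (pa : α → ι)
    (pb : β → ι)
    (h : ∀ i, (univ.filter (fun x => pa x = i)).card < (univ.filter (fun y => pb y = i)).card) :
    ∃ g : β → Option α, (∀ y x, g y = some x → pb y = pa x) ∧ (∀ i, ∃ y, pb y = i ∧ g y = none) ∧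
      ∀ x, ∃ y, g y = some x := by
  classical
  have h1 : ∀ i, ∃ f : {x // pa x = i} ↪ β,
      Set.range f ⊆ (univ.filter (fun y => pb y = i) : Finset β) := fun i =>
    Function.Embedding.exists_of_card_le_finset (by rw [Fintype.card_subtype]; exact (h i).le)
  choose f hf using h1
  let φ : α → β := fun x => f (pa x) ⟨x, rfl⟩
  have hp : ∀ x, pb (φ x) = pa x := fun x => by
    simpa using hf (pa x) ⟨⟨x, rfl⟩, rfl⟩
  have key : ∀ i x (hx : pa x = i), φ x = f i ⟨x, hx⟩ := by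
    intro i x hx
    subst hx
    rfl
  have hinj : Function.Injective φ := by
    intro x x' e
    have e1 : pa x' = pa x := by rw [← hp, ← e, hp]
    rw [key (pa x) x rfl, key (pa x) x' e1] at e
    simpa using (f (pa x)).injective e
  have hpi := hinj.isPartialInv
  refine ⟨Function.partialInv φ, fun y x e => ?_, fun i => ?_, fun x => ⟨φ x, hpi.eq x⟩⟩
  · rw [← (hpi x y).1 e, hp]
  · by_contra hcon
    push Not at hcon
    have : univ.filter (fun y => pb y = i) ⊆ (univ.filter (fun x => pa x = i)).image φ := by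
      intro y hy
      obtain ⟨x, hx⟩ := Option.ne_none_iff_exists'.1 (hcon y (mem_filter.1 hy).2)
      have e := (hpi x y).1 hx
      refine mem_image.2 ⟨x, mem_filter.2 ⟨mem_univ _, ?_⟩, e⟩
      rw [← hp, e]
      exact (mem_filter.1 hy).2
    have := (card_le_card this).trans card_image_le
    have := h i
    omega

theorem count {ι V : Type} [Fintype ι] (Ex : Finset V) (cov : V → ι → Prop) (c : ℕ)
    (h1 : ∀ j, ∃ y ∈ Ex, cov y j)
    (h2 : ∀ y ∈ Ex, ∀ T : Finset ι, (∀ j ∈ T, cov y j) → T.card ≤ c) :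
    Fintype.card ι ≤ Ex.card * c := by
  classical
  have h3 : (univ : Finset ι) ⊆ Ex.biUnion (fun y => univ.filter (cov y)) := by
    intro j _
    obtain ⟨y, hy, h⟩ := h1 j
    exact mem_biUnion.2 ⟨y, hy, mem_filter.2 ⟨mem_univ _, h⟩⟩
  refine (card_le_card h3).trans (card_biUnion_le.trans ?_)
  rw [← smul_eq_mul, ← sum_const]
  exact sum_le_sum (fun y hy => h2 y hy _ (fun j hj => (mem_filter.1 hj).2))

theorem extra {W V : Type} [Fintype W] (S Ex : Finset V) (Bad : Finset W) (f : W → V)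
    (hf : Function.Injective f) (hS : S.card + 1 ≤ Fintype.card W)
    (h1 : ∀ i, i ∉ Bad → f i ∈ S) (h2 : Ex ⊆ S) (h3 : ∀ i, i ∉ Bad → f i ∉ Ex) :
    Ex.card + 1 ≤ Bad.card := by
  classical
  have h4 : Ex ∪ (univ \ Bad).image f ⊆ S := by
    refine union_subset h2 (fun y hy => ?_)
    obtain ⟨i, hi, rfl⟩ := mem_image.1 hy
    exact h1 i (mem_sdiff.1 hi).2
  have h5 : Disjoint Ex ((univ \ Bad).image f) := by
    rw [disjoint_right]
    intro y hy
    obtain ⟨i, hi, rfl⟩ := mem_image.1 hy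
    exact h3 i (mem_sdiff.1 hi).2
  have h6 := card_le_card h4
  rw [card_union_of_disjoint h5, card_image_of_injective _ hf, card_univ_sdiff] at h6
  have := card_le_univ Bad
  omega

def kA : Fin 4 → Fin 4 := ![0, 0, 1, 1]
def kB : Fin 4 → Fin 4 := ![2, 3, 2, 3]

variable {G : Gad}

def side : G.Cell → Bool
  | .inl (_, k) => decide (2 ≤ k)
  | .inr _ => false

theorem inc_D {m : G.Cell} {d : Fin G.nD} : G.inc m (G.D d) ↔ ∃ k, m = .inl (d, k) := by
  rcases m with ⟨d', k⟩ | b <;> simp [Gad.inc]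

theorem inc_H {m : G.Cell} {b : Fin G.nH} :
    G.inc m (G.H b) ↔ m = .inr b ∨ ∃ d j, G.hb d j = b ∧ m = .inl (d, kA j) := by
  rcases m with ⟨d', k⟩ | b'
  · simp only [Gad.inc, reduceCtorEq, false_or, Sum.inl.injEq, Prod.mk.injEq]
    constructor
    · rintro (⟨rfl, rfl | rfl⟩ | ⟨rfl, rfl | rfl⟩)
      · exact ⟨d', 0, rfl, rfl, rfl⟩
      · exact ⟨d', 1, rfl, rfl, rfl⟩
      · exact ⟨d', 2, rfl, rfl, rfl⟩
      · exact ⟨d', 3, rfl, rfl, rfl⟩
    · rintro ⟨d, j, rfl, rfl, rfl⟩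
      fin_cases j <;> simp [kA]
  · simp [Gad.inc]

theorem inc_O {m : G.Cell} {b : Fin G.nH} :
    G.inc m (G.O b) ↔ ∃ d j, G.hb d j = b ∧ m = .inl (d, kB j) := by
  rcases m with ⟨d', k⟩ | b'
  · simp only [Gad.inc, Sum.inl.injEq, Prod.mk.injEq]
    constructor
    · rintro (⟨rfl, rfl | rfl⟩ | ⟨rfl, rfl | rfl⟩)
      · exact ⟨d', 0, rfl, rfl, rfl⟩
      · exact ⟨d', 2, rfl, rfl, rfl⟩
      · exact ⟨d', 1, rfl, rfl, rfl⟩
      · exact ⟨d', 3, rfl, rfl, rfl⟩
    · rintro ⟨d, j, rfl, rfl, rfl⟩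
      fin_cases j <;> simp [kB]
  · simp [Gad.inc]

theorem kA_ne_kB : ∀ j j' : Fin 4, kA j ≠ kB j' := by decide

theorem not_H_O {m : G.Cell} {b b' : Fin G.nH} (h : G.inc m (G.H b)) (h' : G.inc m (G.O b')) :
    False := by
  obtain ⟨d, j, -, rfl⟩ := inc_O.1 h'
  rcases inc_H.1 h with h | ⟨d', j', -, h⟩
  · cases h
  · simp only [Sum.inl.injEq, Prod.mk.injEq] at h
    exact kA_ne_kB _ _ h.2.symm

theorem exists_cell (r : G.Row) : ∃ m, G.inc m r := by
  rcases r with b | b | d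
  · exact ⟨.inr b, inc_H.2 (Or.inl rfl)⟩
  · have h : 0 < (univ.filter (fun d => ∃ k, G.hb d k = b)).card :=
      lt_of_lt_of_le (by norm_num) (G.hb_deg b)
    obtain ⟨d, hd⟩ := card_pos.1 h
    obtain ⟨k, hk⟩ := (mem_filter.1 hd).2
    exact ⟨.inl (d, kB k), inc_O.2 ⟨d, k, hk, rfl⟩⟩
  · exact ⟨.inl (d, 0), inc_D.2 ⟨0, rfl⟩⟩

theorem exists_row (m : G.Cell) : ∃ r, G.inc m r := by
  rcases m with ⟨d, k⟩ | b
  · exact ⟨G.D d, inc_D.2 ⟨k, rfl⟩⟩
  · exact ⟨G.H b, inc_H.2 (Or.inl rfl)⟩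

variable {F : Type} [Field F] [Fintype F] [DecidableEq F] {Cl : Type} [Fintype Cl]
  (C : Config G F Cl)

theorem P_inj {s t : Cl} {r r' : G.Row} (h : C.P s r = C.P t r') : s = t ∧ r = r' := by
  obtain ⟨m, hm⟩ := exists_cell r
  have h1 : On (C.P s r) (C.L s m) := (C.inc_iff s s m r).2 ⟨rfl, hm⟩
  rw [h] at h1
  obtain rfl := ((C.inc_iff s t m r').1 h1).1
  exact ⟨rfl, C.P_inj s h⟩

theorem L_inj {s t : Cl} {m m' : G.Cell} (h : C.L s m = C.L t m') : s = t ∧ m = m' := by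
  obtain ⟨r, hr⟩ := exists_row m
  have h1 : On (C.P s r) (C.L s m) := (C.inc_iff s s m r).2 ⟨rfl, hr⟩
  rw [h] at h1
  obtain rfl := ((C.inc_iff t s m' r).1 h1).1
  exact ⟨rfl, C.L_inj _ h⟩

theorem on_of_inc (s : Cl) {m : G.Cell} {r : G.Row} (h : G.inc m r) : On (C.P s r) (C.L s m) :=
  (C.inc_iff s s m r).2 ⟨rfl, h⟩

theorem mem_Z {x : Pt F} : x ∈ Zset C.P ↔ ∃ s r, G.isZ r ∧ C.P s r = x := by
  simp [Zset]

theorem P_mem_Z (s : Cl) {r : G.Row} (h : G.isZ r) : C.P s r ∈ Zset C.P :=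
  (mem_Z C).2 ⟨s, r, h, rfl⟩

theorem H_mem (s : Cl) (b : Fin G.nH) : C.P s (G.H b) ∈ Zset C.P := P_mem_Z C s trivial

theorem D_mem (s : Cl) (d : Fin G.nD) : C.P s (G.D d) ∈ Zset C.P := P_mem_Z C s trivial

theorem O_notMem (s : Cl) (b : Fin G.nH) : C.P s (G.O b) ∉ Zset C.P := by
  intro h
  obtain ⟨t, r, hr, e⟩ := (mem_Z C).1 h
  obtain ⟨-, rfl⟩ := P_inj C e
  exact hr

theorem exists_g : ∃ g : Cl × Fin G.nD → Option (Cl × Fin G.nH),
    (∀ y x, g y = some x → (C.P y.1 (G.D y.2)).1 = (C.P x.1 (G.H x.2)).1) ∧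
    (∀ i, ∃ y, (C.P y.1 (G.D y.2)).1 = i ∧ g y = none) ∧ ∀ x, ∃ y, g y = some x :=
  exists_partial _ _ (fun i => by convert C.surplus i)

/-- the matching of defect points with helper points -/
noncomputable def gam : Cl × Fin G.nD → Option (Cl × Fin G.nH) := (exists_g C).choose

/-- colours of marked points -/
noncomputable def rc (sd : Bool) : Cl × G.Row → Option F
  | (s, .inl b) => some (C.P s (G.O b)).2
  | (s, .inr (.inl b)) => some (C.P s (G.O b)).2
  | (s, .inr (.inr d)) => if sd then (gam C (s, d)).map (fun h => (C.P h.1 (G.H h.2)).2)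
      else some (C.P s (G.D d)).2

open Classical in
/-- colours of points -/
noncomputable def col (sd : Bool) (x : Pt F) : Option F :=
  if h : ∃ p : Cl × G.Row, C.P p.1 p.2 = x then rc C sd h.choose else some x.2

theorem col_P (sd : Bool) (s : Cl) (r : G.Row) : col C sd (C.P s r) = rc C sd (s, r) := by
  have h : ∃ p : Cl × G.Row, C.P p.1 p.2 = C.P s r := ⟨(s, r), rfl⟩
  unfold col
  rw [dif_pos h]
  obtain ⟨h1, h2⟩ := P_inj C h.choose_spec
  rw [show h.choose = (s, r) from Prod.ext h1 h2]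

theorem col_not (sd : Bool) {x : Pt F} (hx : x ∉ Zset C.P) : col C sd x = some x.2 := by
  by_cases h : ∃ p : Cl × G.Row, C.P p.1 p.2 = x
  · obtain ⟨⟨s, r⟩, rfl⟩ := h
    rw [col_P]
    rcases r with b | b | d
    · exact absurd (H_mem C s b) hx
    · rfl
    · exact absurd (D_mem C s d) hx
  · unfold col
    rw [dif_neg h]

/-- the word of a cell -/
noncomputable def word (s : Cl) (m : G.Cell) (i : Option F) : Option F :=
  col C (side m) (i, u i (C.L s m))

/-- the vertex of an ordinary point -/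
def vx (x : Pt F) : Option F × Option F := (x.1, some x.2)

theorem vx_inj {x y : Pt F} (h : vx x = vx y) : x = y := by
  simp only [vx, Prod.mk.injEq, Option.some.injEq] at h
  exact Prod.ext h.1 h.2

theorem word_of_on {s : Cl} {m : G.Cell} {x : Pt F} (h : On x (C.L s m)) :
    word C s m x.1 = col C (side m) x := by
  unfold word
  congr 1
  exact Prod.ext rfl h

/-- the vertex `y` covers the cell -/
def Cov (y : Option F × Option F) (s : Cl) (m : G.Cell) : Prop := word C s m y.1 = y.2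

/-- special vertices -/
def Spec (y : Option F × Option F) : Prop := ∀ x, y = vx x → x ∈ Zset C.P

theorem spec_D (sd : Bool) (s : Cl) (d : Fin G.nD) :
    Spec C ((C.P s (G.D d)).1, rc C sd (s, G.D d)) := by
  intro x hx
  simp only [vx, Prod.mk.injEq] at hx
  cases sd
  · have : C.P s (G.D d) = x := Prod.ext hx.1 (by simpa [rc] using hx.2)
    exact this ▸ D_mem C s d
  · have h2 := hx.2
    simp only [rc, if_true, Option.map_eq_some_iff] at h2
    obtain ⟨h, h3, h4⟩ := h2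
    have h5 := (exists_g C).choose_spec.1 (s, d) h h3
    have : C.P h.1 (G.H h.2) = x := Prod.ext (h5.symm.trans hx.1) h4
    exact this ▸ H_mem C _ _

theorem cov_cases {y : Option F × Option F} {s : Cl} {m : G.Cell} (h : Cov C y s m) :
    (∃ x, x ∉ Zset C.P ∧ On x (C.L s m) ∧ y = vx x) ∨
    (∃ b, G.inc m (G.H b) ∧ y = vx (C.P s (G.O b))) ∨
    (∃ d k, m = .inl (d, k) ∧ y = ((C.P s (G.D d)).1, rc C (side m) (s, G.D d))) := by
  obtain ⟨i, β⟩ := y
  have hon : On (i, u i (C.L s m)) (C.L s m) := on_mk _ _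
  unfold Cov word at h
  dsimp only at h
  by_cases hz : ((i, u i (C.L s m)) : Pt F) ∈ Zset C.P
  · obtain ⟨t, r, hr, e⟩ := (mem_Z C).1 hz
    have hi : (C.P t r).1 = i := by rw [e]
    rw [← e] at hon h
    obtain ⟨rfl, hinc⟩ := (C.inc_iff s t m r).1 hon
    rw [col_P] at h
    rcases r with b | b | d
    · refine Or.inr (Or.inl ⟨b, hinc, Prod.ext ?_ h.symm⟩)
      exact hi.symm.trans (C.partH s b)
    · exact absurd hr id
    · obtain ⟨k, hk⟩ := inc_D.1 hinc
      exact Or.inr (Or.inr ⟨d, k, hk, Prod.ext hi.symm h.symm⟩)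
  · rw [col_not C _ hz] at h
    exact Or.inl ⟨_, hz, hon, Prod.ext rfl h.symm⟩

theorem covK {x : Pt F} (hx : x ∉ Zset C.P) {s : Cl} {m : G.Cell} (h : Cov C (vx x) s m) :
    On x (C.L s m) ∨ ∃ b, G.inc m (G.H b) ∧ x = C.P s (G.O b) := by
  rcases cov_cases C h with ⟨x', -, h1, h2⟩ | ⟨b, h1, h2⟩ | ⟨d, k, -, h2⟩
  · exact Or.inl (vx_inj h2 ▸ h1)
  · exact Or.inr ⟨b, h1, vx_inj h2⟩
  · exact absurd (spec_D C _ s d x h2.symm) hx

theorem covO {t : Cl} {b : Fin G.nH} {s : Cl} {m : G.Cell}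
    (h : Cov C (vx (C.P t (G.O b))) s m) : s = t ∧ (G.inc m (G.O b) ∨ G.inc m (G.H b)) := by
  rcases covK C (O_notMem C t b) h with h1 | ⟨b', h1, h2⟩
  · obtain ⟨h2, h3⟩ := (C.inc_iff _ _ _ _).1 h1
    exact ⟨h2, Or.inl h3⟩
  · obtain ⟨h3, h4⟩ := P_inj C h2
    simp only [Sum.inr.injEq, Sum.inl.injEq] at h4
    exact ⟨h3.symm, Or.inr (h4 ▸ h1)⟩

theorem covOrd {x : Pt F} (hx : x ∉ Zset C.P) (hO : ∀ t b, x ≠ C.P t (G.O b)) {s : Cl}
    {m : G.Cell} (h : Cov C (vx x) s m) : On x (C.L s m) := by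
  rcases covK C hx h with h1 | ⟨b', -, h2⟩
  · exact h1
  · exact absurd h2 (hO _ _)

theorem covSpec {y : Option F × Option F} (hy : Spec C y) {s : Cl} {m : G.Cell}
    (h : Cov C y s m) :
    ∃ d k, m = .inl (d, k) ∧ y = ((C.P s (G.D d)).1, rc C (side m) (s, G.D d)) := by
  rcases cov_cases C h with ⟨x', h0, -, h2⟩ | ⟨b, -, h2⟩ | h2
  · exact absurd (hy _ h2) h0
  · exact absurd (hy _ h2) (O_notMem C _ _)
  · exact h2

theorem vertex_cases (y : Option F × Option F) :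
    Spec C y ∨ (∃ t b, y = vx (C.P t (G.O b))) ∨
      ∃ x, x ∉ Zset C.P ∧ (∀ t b, x ≠ C.P t (G.O b)) ∧ y = vx x := by
  by_cases h : Spec C y
  · exact Or.inl h
  · unfold Spec at h
    push Not at h
    obtain ⟨x, rfl, hx⟩ := h
    by_cases hO : ∃ t b, x = C.P t (G.O b)
    · obtain ⟨t, b, rfl⟩ := hO
      exact Or.inr (Or.inl ⟨t, b, rfl⟩)
    · push Not at hO
      exact Or.inr (Or.inr ⟨x, hx, hO, rfl⟩)

theorem exists_AB : ∀ k k' : Fin 4, ¬ 2 ≤ k → 2 ≤ k' → ∃ j, kA j = k ∧ kB j = k' := by decide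

theorem cells_meet_aux (s : Cl) (d : Fin G.nD) (k k' : Fin 4) (hk : ¬ 2 ≤ k) (hk' : 2 ≤ k') :
    ∃ i, word C s (.inl (d, k)) i = word C s (.inl (d, k')) i := by
  obtain ⟨j, rfl, rfl⟩ := exists_AB k k' hk hk'
  refine ⟨(C.P s (G.H (G.hb d j))).1, ?_⟩
  rw [word_of_on C (on_of_inc C s (inc_H.2 (Or.inr ⟨d, j, rfl, rfl⟩))), C.partH,
    word_of_on C (on_of_inc C s (inc_O.2 ⟨d, j, rfl, rfl⟩)), col_P, col_P]
  rfl

theorem cells_meet (s t : Cl) (m m' : G.Cell) : ∃ i, word C s m i = word C t m' i := by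
  obtain ⟨x, h1, h2⟩ := exists_meet (C.L s m) (C.L t m')
  by_cases hs : side m = side m'
  · exact ⟨x.1, by rw [word_of_on C h1, word_of_on C h2, hs]⟩
  by_cases hz : x ∈ Zset C.P
  · obtain ⟨s', r, hr, rfl⟩ := (mem_Z C).1 hz
    rcases r with b | b | d
    · exact ⟨_, by rw [word_of_on C h1, word_of_on C h2, col_P, col_P]; rfl⟩
    · exact absurd hr id
    · obtain ⟨rfl, h3⟩ := (C.inc_iff _ _ _ _).1 h1
      obtain ⟨rfl, h4⟩ := (C.inc_iff _ _ _ _).1 h2
      obtain ⟨k, rfl⟩ := inc_D.1 h3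
      obtain ⟨k', rfl⟩ := inc_D.1 h4
      simp only [side, decide_eq_decide] at hs
      by_cases hk : 2 ≤ k
      · obtain ⟨i, hi⟩ := cells_meet_aux C _ d k' k (fun h => hs ⟨fun _ => h, fun _ => hk⟩) hk
        exact ⟨i, hi.symm⟩
      · exact cells_meet_aux C _ d k k' hk (by tauto)
  · exact ⟨x.1, by rw [word_of_on C h1, word_of_on C h2, col_not C _ hz, col_not C _ hz]⟩

theorem cell_line_meet (s : Cl) (m : G.Cell) {l : Ln F} (hl : l ∈ miss (Zset C.P)) :
    ∃ i, word C s m i = some (u i l) := by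
  obtain ⟨x, h1, h2⟩ := exists_meet (C.L s m) l
  refine ⟨x.1, ?_⟩
  rw [word_of_on C h1, col_not C _ (fun h => mem_miss.1 hl x h h2), h2]

end Wd

end Crest.Agent.R34
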